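import Vale.Agent.P141.R2.H152.Oper
import Vale.Agent.P141.R2.H152.Bound

/-!
# Hardy's inequality for a scale function with Aikawa's condition

This file is helper4's (Aik.lean and Por.lean), with the constant uniform in `d`.
-/

namespace Vale.Agent.P141.R2.H106.P4

open MeasureTheory Set Filter Topology Vale.Agent.P141.H97 Vale.Agent.P141.R2.H152
open Vale.Agent.P141.R2
open scoped ENNReal

/-- the hypotheses on the (distance) function `d` -/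
structure Aik (d : ℝ → ℝ) (a K : ℝ) : Prop where
  nonneg : ∀ x, 0 ≤ d x
  lip : ∀ x y, d x ≤ d y + |x - y|
  ae_pos : ∀ᵐ x : ℝ, 0 < d x
  a_pos : 0 < a
  a_lt : a < 1
  K_nonneg : 0 ≤ K
  int : ∀ y ρ : ℝ, 0 < ρ → d y ≤ ρ →
    ∫⁻ z in Icc (y - ρ) (y + ρ), ENNReal.ofReal (d z ^ (-a)) ≤ ENNReal.ofReal (K * ρ ^ (1 - a))

variable {d : ℝ → ℝ} {a K : ℝ}

theorem Aik.cont (h : Aik d a K) : Continuous d := by
  have : LipschitzWith 1 d := LipschitzWith.of_dist_le_mul fun x y => by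
    rw [Real.dist_eq, Real.dist_eq, NNReal.coe_one, one_mul, abs_sub_le_iff]
    have h1 := h.lip x y
    have h2 := h.lip y x
    rw [abs_sub_comm] at h2
    exact ⟨by linarith, by linarith⟩
  exact this.continuous

/-- `1/|t|` as a superposition of intervals -/
theorem inv_eq {t : ℝ} (ht : 0 < t) :
    ENNReal.ofReal t⁻¹ = ∫⁻ ρ in Ioi t, ENNReal.ofReal (ρ ^ (-(2 : ℝ))) := by
  have h1 : IntegrableOn (fun ρ : ℝ => ρ ^ (-(2 : ℝ))) (Ioi t) :=
    integrableOn_Ioi_rpow_of_lt (by norm_num) ht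
  rw [← ofReal_integral_eq_lintegral_ofReal h1
    ((ae_restrict_mem measurableSet_Ioi).mono fun ρ hρ => by
      have : 0 < ρ := ht.trans hρ
      positivity), integral_Ioi_rpow_of_lt (by norm_num) ht]
  congr 1
  have e : (-(2 : ℝ) + 1) = -1 := by norm_num
  rw [e, Real.rpow_neg_one]
  ring

/-- the tail of `ρ^(-1-a)` -/
theorem tail {a ρ₀ : ℝ} (ha : 0 < a) (hρ : 0 < ρ₀) :
    ∫⁻ ρ in Ioi ρ₀, ENNReal.ofReal (ρ ^ (-(2 : ℝ)) * ρ ^ (1 - a)) =
      ENNReal.ofReal (ρ₀ ^ (-a) / a) := by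
  have e0 : ∫⁻ ρ in Ioi ρ₀, ENNReal.ofReal (ρ ^ (-(2 : ℝ)) * ρ ^ (1 - a)) =
      ∫⁻ ρ in Ioi ρ₀, ENNReal.ofReal (ρ ^ (-1 - a)) := by
    refine setLIntegral_congr_fun measurableSet_Ioi fun ρ hr => ?_
    have : 0 < ρ := hρ.trans hr
    rw [← Real.rpow_add this]
    congr 2
    ring
  rw [e0]
  have h1 : IntegrableOn (fun ρ : ℝ => ρ ^ (-1 - a)) (Ioi ρ₀) :=
    integrableOn_Ioi_rpow_of_lt (by linarith) hρ
  rw [← ofReal_integral_eq_lintegral_ofReal h1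
    ((ae_restrict_mem measurableSet_Ioi).mono fun ρ hr => by
      have : 0 < ρ := hρ.trans hr
      positivity), integral_Ioi_rpow_of_lt (by linarith) hρ]
  congr 1
  have e : (-1 - a + 1) = -a := by ring
  rw [e]
  field_simp

/-- the kernel bound -/
theorem Aik.kernel (h : Aik d a K) {b c : ℝ} (hb : b ≠ 0) (hc : 0 < c) {y : ℝ} (hy : 0 < d y) :
    ∫⁻ t : ℝ, {t : ℝ | c * d y ≤ |t|}.indicator (fun t => ENNReal.ofReal |t|⁻¹ *
      (ENNReal.ofReal (d y ^ a) * ENNReal.ofReal (d (y + b * t) ^ (-a)))) t ≤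
    ENNReal.ofReal (|b|⁻¹ * K * (|b| + c⁻¹) ^ (1 - a) * c ^ (-a) / a) := by
  have hb' : 0 < |b| := abs_pos.2 hb
  set M : ℝ := |b| + c⁻¹ with hM
  have hM0 : 0 < M := by positivity
  set ρ₀ : ℝ := c * d y with hρ₀
  have hρ₀0 : 0 < ρ₀ := mul_pos hc hy
  set g : ℝ → ℝ≥0∞ := fun t => ENNReal.ofReal (d (y + b * t) ^ (-a)) with hg
  have hgm : Measurable g := by
    refine ENNReal.measurable_ofReal.comp ?_
    exact ((h.cont.measurable.comp (by fun_prop)).pow_const _)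
  -- the mass of `g` on `|t| < ρ`
  have hmass : ∀ ρ : ℝ, ρ₀ < ρ → ∫⁻ t in Icc (-ρ) ρ, g t ≤
      ENNReal.ofReal (|b|⁻¹ * K * M ^ (1 - a) * ρ ^ (1 - a)) := by
    intro ρ hρ
    have hρ0 : 0 < ρ := hρ₀0.trans hρ
    have h1 := h.int y (M * ρ) (by positivity) (by
      have : c⁻¹ * ρ₀ = d y := by rw [hρ₀, ← mul_assoc, inv_mul_cancel₀ hc.ne', one_mul]
      calc d y = c⁻¹ * ρ₀ := this.symm
        _ ≤ c⁻¹ * ρ := by gcongr
        _ ≤ M * ρ := by rw [hM]; gcongr; linarith)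
    have h2 : ∫⁻ t in Icc (-ρ) ρ, g t ≤ ENNReal.ofReal |b|⁻¹ *
        ∫⁻ z in Icc (y - M * ρ) (y + M * ρ), ENNReal.ofReal (d z ^ (-a)) := by
      have h3 := H152.lin1L b y hb ((Icc (y - M * ρ) (y + M * ρ)).indicator
        fun z => ENNReal.ofReal (d z ^ (-a)))
      rw [lintegral_indicator measurableSet_Icc] at h3
      rw [← h3, ← lintegral_indicator measurableSet_Icc]
      refine lintegral_mono fun t => ?_
      by_cases ht : t ∈ Icc (-ρ) ρ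
      · have h4 : |t| ≤ ρ := abs_le.2 ht
        have h5 : |b * t| ≤ M * ρ := by
          rw [abs_mul]
          calc |b| * |t| ≤ |b| * ρ := by gcongr
            _ ≤ M * ρ := by
                have : 0 < c⁻¹ := by positivity
                rw [hM]; gcongr; linarith
        have h6 := abs_le.1 h5
        rw [indicator_of_mem ht, indicator_of_mem (show b * t + y ∈ Icc (y - M * ρ) (y + M * ρ)
          from ⟨by linarith [h6.1], by linarith [h6.2]⟩), hg]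
        simp only
        rw [add_comm y]
      · rw [indicator_of_notMem ht]
        exact bot_le
    refine h2.trans ((mul_le_mul_right h1 _).trans (le_of_eq ?_))
    rw [← ENNReal.ofReal_mul (by positivity), Real.mul_rpow hM0.le hρ0.le]
    congr 1
    ring
  -- Fubini
  have hstep : ∀ t : ℝ, {t : ℝ | ρ₀ ≤ |t|}.indicator (fun t => ENNReal.ofReal |t|⁻¹ *
      (ENNReal.ofReal (d y ^ a) * g t)) t ≤ ENNReal.ofReal (d y ^ a) *
      ∫⁻ ρ in Ioi ρ₀, (ENNReal.ofReal (ρ ^ (-(2 : ℝ))) * (Icc (-ρ) ρ).indicator g t) := by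
    intro t
    by_cases ht : ρ₀ ≤ |t|
    · have ht0 : 0 < |t| := hρ₀0.trans_le ht
      rw [indicator_of_mem (show t ∈ {t : ℝ | ρ₀ ≤ |t|} from ht), inv_eq ht0, mul_left_comm]
      gcongr
      have hm2 : Measurable fun ρ : ℝ => ENNReal.ofReal (ρ ^ (-(2 : ℝ))) := by fun_prop
      rw [← lintegral_mul_const _ hm2]
      calc ∫⁻ ρ in Ioi |t|, ENNReal.ofReal (ρ ^ (-(2 : ℝ))) * g t
          = ∫⁻ ρ in Ioi |t|, ENNReal.ofReal (ρ ^ (-(2 : ℝ))) * (Icc (-ρ) ρ).indicator g t := by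
            refine setLIntegral_congr_fun measurableSet_Ioi fun ρ hr => ?_
            have h7 := abs_le.1 (le_of_lt (show |t| < ρ from hr))
            rw [indicator_of_mem (show t ∈ Icc (-ρ) ρ from h7)]
        _ ≤ _ := lintegral_mono_set (Ioi_subset_Ioi ht)
    · rw [indicator_of_notMem (show t ∉ {t : ℝ | ρ₀ ≤ |t|} from ht)]
      exact bot_le
  have hjm : Measurable (Function.uncurry fun (t ρ : ℝ) =>
      ENNReal.ofReal (ρ ^ (-(2 : ℝ))) * (Icc (-ρ) ρ).indicator g t) := by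
    have e : (Function.uncurry fun (t ρ : ℝ) =>
        ENNReal.ofReal (ρ ^ (-(2 : ℝ))) * (Icc (-ρ) ρ).indicator g t) = fun z : ℝ × ℝ =>
        ENNReal.ofReal (z.2 ^ (-(2 : ℝ))) *
          {z : ℝ × ℝ | -z.2 ≤ z.1 ∧ z.1 ≤ z.2}.indicator (fun z => g z.1) z := by
      funext z
      simp only [Function.uncurry]
      congr 1
    rw [e]
    refine Measurable.mul (by fun_prop) ?_
    refine (hgm.comp measurable_fst).indicator ?_
    exact (measurableSet_le measurable_snd.neg measurable_fst).inter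
      (measurableSet_le measurable_fst measurable_snd)
  calc ∫⁻ t : ℝ, {t : ℝ | c * d y ≤ |t|}.indicator (fun t => ENNReal.ofReal |t|⁻¹ *
      (ENNReal.ofReal (d y ^ a) * ENNReal.ofReal (d (y + b * t) ^ (-a)))) t
      ≤ ∫⁻ t : ℝ, ENNReal.ofReal (d y ^ a) *
        ∫⁻ ρ in Ioi ρ₀, (ENNReal.ofReal (ρ ^ (-(2 : ℝ))) * (Icc (-ρ) ρ).indicator g t) :=
        lintegral_mono hstep
    _ = ENNReal.ofReal (d y ^ a) * ∫⁻ t : ℝ,
        ∫⁻ ρ in Ioi ρ₀, (ENNReal.ofReal (ρ ^ (-(2 : ℝ))) * (Icc (-ρ) ρ).indicator g t) :=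
        lintegral_const_mul' _ _ ENNReal.ofReal_ne_top
    _ = ENNReal.ofReal (d y ^ a) * ∫⁻ ρ in Ioi ρ₀,
        ∫⁻ t : ℝ, (ENNReal.ofReal (ρ ^ (-(2 : ℝ))) * (Icc (-ρ) ρ).indicator g t) := by
        rw [lintegral_lintegral_swap hjm.aemeasurable]
    _ ≤ ENNReal.ofReal (d y ^ a) * ∫⁻ ρ in Ioi ρ₀,
        ENNReal.ofReal (|b|⁻¹ * K * M ^ (1 - a)) *
          ENNReal.ofReal (ρ ^ (-(2 : ℝ)) * ρ ^ (1 - a)) := by
        refine mul_le_mul_right ?_ _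
        refine setLIntegral_mono' measurableSet_Ioi fun ρ hr => ?_
        have hρ0 : 0 < ρ := hρ₀0.trans hr
        rw [lintegral_const_mul' _ _ ENNReal.ofReal_ne_top, lintegral_indicator measurableSet_Icc]
        refine (mul_le_mul_right (hmass ρ hr) _).trans (le_of_eq ?_)
        have hK := h.K_nonneg
        rw [← ENNReal.ofReal_mul (by positivity), ← ENNReal.ofReal_mul (by positivity)]
        congr 1
        ring
    _ = ENNReal.ofReal (|b|⁻¹ * K * M ^ (1 - a) * c ^ (-a) / a) := by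
        have hK := h.K_nonneg
        have ha := h.a_pos
        rw [lintegral_const_mul' _ _ ENNReal.ofReal_ne_top, tail h.a_pos hρ₀0,
          ← ENNReal.ofReal_mul (by positivity), ← ENNReal.ofReal_mul (by positivity)]
        congr 1
        rw [hρ₀, Real.mul_rpow hc.le hy.le]
        have e9 : d y ^ a * d y ^ (-a) = 1 := by
          rw [← Real.rpow_add hy, add_neg_cancel, Real.rpow_zero]
        calc d y ^ a * (|b|⁻¹ * K * M ^ (1 - a) * (c ^ (-a) * d y ^ (-a) / a))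
            = (d y ^ a * d y ^ (-a)) * (|b|⁻¹ * K * M ^ (1 - a) * c ^ (-a) / a) := by ring
          _ = _ := by rw [e9, one_mul]

/-- the kernel -/
noncomputable def kd (d : ℝ → ℝ) (κ : ℝ) (p : ℝ × ℝ) : ℝ≥0∞ :=
  {p : ℝ × ℝ | κ * d p.1 ≤ |p.2|}.indicator (fun p => ENNReal.ofReal |p.2|⁻¹) p

theorem kd_meas (h : Aik d a K) (κ : ℝ) : Measurable (kd d κ) := by
  have hd := h.cont.measurable
  unfold kd
  refine Measurable.indicator (by fun_prop) ?_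
  exact measurableSet_le (by fun_prop) (by fun_prop)

/-- the weights -/
noncomputable def rd (d : ℝ → ℝ) (a : ℝ) (y : ℝ) : ℝ≥0∞ := ENNReal.ofReal (d y ^ a)

/-- the weights -/
noncomputable def vd (d : ℝ → ℝ) (a : ℝ) (y : ℝ) : ℝ≥0∞ := ENNReal.ofReal (d y ^ (-a))

/-- the weights -/
noncomputable def vh (d : ℝ → ℝ) (a : ℝ) (y : ℝ) : ℝ≥0∞ := ENNReal.ofReal (d y ^ (-a / 2))

theorem rd_meas (h : Aik d a K) : Measurable (rd d a) := by
  have hd := h.cont.measurable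
  unfold rd; fun_prop

theorem vd_meas (h : Aik d a K) : Measurable (vd d a) := by
  have hd := h.cont.measurable
  unfold vd; fun_prop

theorem vh_meas (h : Aik d a K) : Measurable (vh d a) := by
  have hd := h.cont.measurable
  unfold vh; fun_prop

theorem vh_sq (h : Aik d a K) (y : ℝ) : vh d a y * vh d a y ≤ vd d a y := by
  unfold vh vd
  have hy := h.nonneg y
  rw [← ENNReal.ofReal_mul (by positivity)]
  apply ENNReal.ofReal_le_ofReal
  have ha := h.a_pos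
  rcases eq_or_lt_of_le hy with h0 | h0
  · rw [← h0, Real.zero_rpow (by linarith), Real.zero_rpow (by linarith)]; simp
  · rw [← Real.rpow_add h0]; apply le_of_eq; congr 1; ring

theorem vh_mul (h : Aik d a K) (y z : ℝ) : vh d a y * vh d a z ≤ vd d a y + vd d a z := by
  rcases le_total (vh d a y) (vh d a z) with h1 | h1
  · calc vh d a y * vh d a z ≤ vh d a z * vh d a z := by gcongr
      _ ≤ vd d a z := vh_sq h z
      _ ≤ _ := le_add_self
  · calc vh d a y * vh d a z ≤ vh d a y * vh d a y := by gcongr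
      _ ≤ vd d a y := vh_sq h y
      _ ≤ _ := le_self_add

/-- the constant -/
noncomputable def Kd (a K b c : ℝ) : ℝ≥0∞ :=
  ENNReal.ofReal (|b|⁻¹ * K * (|b| + c⁻¹) ^ (1 - a) * c ^ (-a) / a)

theorem one_weight_d (h : Aik d a K) {κ α β γ : ℝ} (hκ : 0 < κ) (hβ : α - β ≠ 0) (hγ : α - γ ≠ 0)
    {F : ℝ → ℝ≥0∞} (hF : Measurable F) :
    ∫⁻ p : ℝ × ℝ, kd d κ p * (F (p.1 - α * p.2) * (rd d a (p.1 - α * p.2) *
      (vh d a (p.1 - β * p.2) * vh d a (p.1 - γ * p.2)))) ≤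
      (Kd a K (α - β) (κ⁻¹ + |α|)⁻¹ + Kd a K (α - γ) (κ⁻¹ + |α|)⁻¹) * ∫⁻ x, F x := by
  set c : ℝ := (κ⁻¹ + |α|)⁻¹ with hc
  have hc0 : 0 < c := by positivity
  have mr := rd_meas h
  have mv := vh_meas h
  have hm : Measurable fun p : ℝ × ℝ => kd d κ p * (F (p.1 - α * p.2) * (rd d a (p.1 - α * p.2) *
      (vh d a (p.1 - β * p.2) * vh d a (p.1 - γ * p.2)))) := by
    refine (kd_meas h κ).mul ((hF.comp (by fun_prop)).mul ((mr.comp (by fun_prop)).mul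
      ((mv.comp (by fun_prop)).mul (mv.comp (by fun_prop)))))
  rw [← (Vale.Agent.P141.H97.cshear α).lintegral_comp hm]
  have hm' : Measurable fun p : ℝ × ℝ => kd d κ (p.1 + α * p.2, p.2) *
      (F (p.1 + α * p.2 - α * p.2) * (rd d a (p.1 + α * p.2 - α * p.2) *
      (vh d a (p.1 + α * p.2 - β * p.2) * vh d a (p.1 + α * p.2 - γ * p.2)))) :=
    hm.comp (by fun_prop : Measurable fun p : ℝ × ℝ => (p.1 + α * p.2, p.2))
  rw [Measure.volume_eq_prod, lintegral_prod _ hm'.aemeasurable,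
    ← lintegral_const_mul _ hF]
  refine lintegral_mono_ae ?_
  filter_upwards [h.ae_pos] with y hy
  have hP : ∀ t : ℝ, kd d κ (y + α * t, t) *
      (F (y + α * t - α * t) * (rd d a (y + α * t - α * t) *
      (vh d a (y + α * t - β * t) * vh d a (y + α * t - γ * t)))) ≤
      F y * ({t : ℝ | c * d y ≤ |t|}.indicator (fun t => ENNReal.ofReal |t|⁻¹ *
        (ENNReal.ofReal (d y ^ a) * ENNReal.ofReal (d (y + (α - β) * t) ^ (-a)))) t +
        {t : ℝ | c * d y ≤ |t|}.indicator (fun t => ENNReal.ofReal |t|⁻¹ *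
        (ENNReal.ofReal (d y ^ a) * ENNReal.ofReal (d (y + (α - γ) * t) ^ (-a)))) t) := by
    intro t
    have e1 : y + α * t - α * t = y := by ring
    have e2 : y + α * t - β * t = y + (α - β) * t := by ring
    have e3 : y + α * t - γ * t = y + (α - γ) * t := by ring
    rw [e1, e2, e3]
    unfold kd
    by_cases hh : κ * d (y + α * t) ≤ |t|
    · rw [indicator_of_mem (show (y + α * t, t) ∈ {p : ℝ × ℝ | κ * d p.1 ≤ |p.2|} from hh)]
      have h2 : d y ≤ (κ⁻¹ + |α|) * |t| := by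
        have h3 : d (y + α * t) ≤ κ⁻¹ * |t| := by
          rw [← div_eq_inv_mul, le_div_iff₀ hκ]; linarith
        have h4 := h.lip y (y + α * t)
        have e5 : |y - (y + α * t)| = |α| * |t| := by
          rw [show y - (y + α * t) = -(α * t) by ring, abs_neg, abs_mul]
        rw [e5] at h4
        calc d y ≤ d (y + α * t) + |α| * |t| := h4
          _ ≤ κ⁻¹ * |t| + |α| * |t| := by gcongr
          _ = _ := by ring
      have h4 : c * d y ≤ |t| := by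
        rw [hc, ← div_eq_inv_mul, div_le_iff₀ (by positivity)]
        linarith
      rw [indicator_of_mem (show t ∈ {t : ℝ | c * d y ≤ |t|} from h4),
        indicator_of_mem (show t ∈ {t : ℝ | c * d y ≤ |t|} from h4)]
      calc ENNReal.ofReal |t|⁻¹ * (F y * (rd d a y * (vh d a (y + (α - β) * t) *
            vh d a (y + (α - γ) * t))))
          ≤ ENNReal.ofReal |t|⁻¹ * (F y * (rd d a y * (vd d a (y + (α - β) * t) +
            vd d a (y + (α - γ) * t)))) := by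
            gcongr
            exact vh_mul h _ _
        _ = _ := by unfold rd vd; ring
    · rw [indicator_of_notMem (show (y + α * t, t) ∉ {p : ℝ × ℝ | κ * d p.1 ≤ |p.2|} from hh),
        zero_mul]
      exact bot_le
  refine (lintegral_mono hP).trans ?_
  have mi : ∀ b : ℝ, Measurable fun t : ℝ => {t : ℝ | c * d y ≤ |t|}.indicator
      (fun t => ENNReal.ofReal |t|⁻¹ * (ENNReal.ofReal (d y ^ a) *
        ENNReal.ofReal (d (y + b * t) ^ (-a)))) t := by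
    intro b
    refine Measurable.indicator ?_ (measurableSet_le measurable_const measurable_abs)
    have := vd_meas h
    unfold vd at this
    exact (by fun_prop : Measurable fun t : ℝ => ENNReal.ofReal |t|⁻¹).mul
      (measurable_const.mul (this.comp (by fun_prop)))
  have s1 := h.kernel hβ hc0 hy
  have s2 := h.kernel hγ hc0 hy
  refine le_trans (le_of_eq (lintegral_const_mul (F y) ((mi (α - β)).add (mi (α - γ))))) ?_
  have s3 := lintegral_add_left (mi (α - β)) (fun t : ℝ => {t : ℝ | c * d y ≤ |t|}.indicator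
      (fun t => ENNReal.ofReal |t|⁻¹ * (ENNReal.ofReal (d y ^ a) *
        ENNReal.ofReal (d (y + (α - γ) * t) ^ (-a)))) t) (μ := volume)
  rw [mul_comm]
  refine mul_le_mul_left ?_ _
  exact (le_of_eq s3).trans (add_le_add s1 s2)

theorem weights_d (_ : Aik d a K) {x y z : ℝ} (hx : 0 < d x) (hy : 0 < d y) (hz : 0 < d z) :
    (rd d a x * (vh d a y * vh d a z)) * (rd d a y * (vh d a x * vh d a z)) *
      (rd d a z * (vh d a x * vh d a y)) = 1 := by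
  have key : ∀ y : ℝ, 0 < d y → rd d a y * (vh d a y * vh d a y) = 1 := by
    intro y hy
    unfold rd vh
    rw [← ENNReal.ofReal_mul (by positivity), ← ENNReal.ofReal_mul (by positivity),
      ← Real.rpow_add hy, ← Real.rpow_add hy]
    have : a + (-a / 2 + -a / 2) = 0 := by ring
    rw [this, Real.rpow_zero, ENNReal.ofReal_one]
  calc _ = (rd d a x * (vh d a x * vh d a x)) * (rd d a y * (vh d a y * vh d a y)) *
        (rd d a z * (vh d a z * vh d a z)) := by ring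
    _ = 1 := by rw [key x hx, key y hy, key z hz]; simp

theorem line_pos (h : Aik d a K) (α : ℝ) : ∀ᵐ p : ℝ × ℝ, 0 < d (p.1 - α * p.2) := by
  have h1 : ∀ᵐ p : ℝ × ℝ, 0 < d p.1 := by
    have : ∀ᵐ p ∂((volume : Measure ℝ).prod (volume : Measure ℝ)), 0 < d p.1 :=
      Measure.quasiMeasurePreserving_fst.ae h.ae_pos
    exact this
  have h2 := (Vale.Agent.P141.H97.cshear (-α)).quasiMeasurePreserving.ae h1
  filter_upwards [h2] with p hp
  have e : p.1 - α * p.2 = p.1 + -α * p.2 := by ring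
  rw [e]
  exact hp

/-- Hoelder with weights -/
theorem hardy_d {c₁ c₂ c₃ κ : ℝ} (hκ : 0 < κ) (h12 : c₁ ≠ c₂) (h13 : c₁ ≠ c₃)
    (h23 : c₂ ≠ c₃) (a K : ℝ) :
    ∃ C : ℝ≥0∞, C < ∞ ∧ ∀ d : ℝ → ℝ, Aik d a K → ∀ f₁ f₂ f₃ : ℝ → ℂ, Measurable f₁ →
      Measurable f₂ → Measurable f₃ →
      ∫⁻ p : ℝ × ℝ, kd d κ p * (‖f₁ (p.1 - c₁ * p.2)‖ₑ * ‖f₂ (p.1 - c₂ * p.2)‖ₑ *
        ‖f₃ (p.1 - c₃ * p.2)‖ₑ) ≤
        C * (eLpNorm f₁ 3 volume * eLpNorm f₂ 3 volume * eLpNorm f₃ 3 volume) := by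
  have hJ : ∀ b c : ℝ, Kd a K b c < ∞ := fun b c => ENNReal.ofReal_lt_top
  set K₁ : ℝ≥0∞ := Kd a K (c₁ - c₂) (κ⁻¹ + |c₁|)⁻¹ + Kd a K (c₁ - c₃) (κ⁻¹ + |c₁|)⁻¹ with hK₁
  set K₂ : ℝ≥0∞ := Kd a K (c₂ - c₁) (κ⁻¹ + |c₂|)⁻¹ + Kd a K (c₂ - c₃) (κ⁻¹ + |c₂|)⁻¹ with hK₂
  set K₃ : ℝ≥0∞ := Kd a K (c₃ - c₁) (κ⁻¹ + |c₃|)⁻¹ + Kd a K (c₃ - c₂) (κ⁻¹ + |c₃|)⁻¹ with hK₃
  have l₁ : K₁ < ∞ := ENNReal.add_lt_top.2 ⟨hJ _ _, hJ _ _⟩
  have l₂ : K₂ < ∞ := ENNReal.add_lt_top.2 ⟨hJ _ _, hJ _ _⟩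
  have l₃ : K₃ < ∞ := ENNReal.add_lt_top.2 ⟨hJ _ _, hJ _ _⟩
  refine ⟨K₁ ^ ((1 : ℝ) / 3) * K₂ ^ ((1 : ℝ) / 3) * K₃ ^ ((1 : ℝ) / 3), ?_, ?_⟩
  · exact ENNReal.mul_lt_top (ENNReal.mul_lt_top
      (ENNReal.rpow_lt_top_of_nonneg (by norm_num) l₁.ne)
      (ENNReal.rpow_lt_top_of_nonneg (by norm_num) l₂.ne))
      (ENNReal.rpow_lt_top_of_nonneg (by norm_num) l₃.ne)
  intro d h f₁ f₂ f₃ m₁ m₂ m₃
  set F₁ : ℝ → ℝ≥0∞ := fun y => ‖f₁ y‖ₑ ^ (3 : ℝ) with hF₁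
  set F₂ : ℝ → ℝ≥0∞ := fun y => ‖f₂ y‖ₑ ^ (3 : ℝ) with hF₂
  set F₃ : ℝ → ℝ≥0∞ := fun y => ‖f₃ y‖ₑ ^ (3 : ℝ) with hF₃
  have n₁ : Measurable F₁ := m₁.enorm.pow_const _
  have n₂ : Measurable F₂ := m₂.enorm.pow_const _
  have n₃ : Measurable F₃ := m₃.enorm.pow_const _
  set M₁ : ℝ × ℝ → ℝ≥0∞ := fun p => kd d κ p * (F₁ (p.1 - c₁ * p.2) * (rd d a (p.1 - c₁ * p.2) *
      (vh d a (p.1 - c₂ * p.2) * vh d a (p.1 - c₃ * p.2)))) with hM₁
  set M₂ : ℝ × ℝ → ℝ≥0∞ := fun p => kd d κ p * (F₂ (p.1 - c₂ * p.2) * (rd d a (p.1 - c₂ * p.2) *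
      (vh d a (p.1 - c₁ * p.2) * vh d a (p.1 - c₃ * p.2)))) with hM₂
  set M₃ : ℝ × ℝ → ℝ≥0∞ := fun p => kd d κ p * (F₃ (p.1 - c₃ * p.2) * (rd d a (p.1 - c₃ * p.2) *
      (vh d a (p.1 - c₁ * p.2) * vh d a (p.1 - c₂ * p.2)))) with hM₃
  have mr := rd_meas h
  have mv := vh_meas h
  have mm : ∀ {F : ℝ → ℝ≥0∞} (_ : Measurable F) (α β γ : ℝ), Measurable fun p : ℝ × ℝ =>
      kd d κ p * (F (p.1 - α * p.2) * (rd d a (p.1 - α * p.2) *
      (vh d a (p.1 - β * p.2) * vh d a (p.1 - γ * p.2)))) := fun hF α β γ =>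
    (kd_meas h κ).mul ((hF.comp (by fun_prop)).mul ((mr.comp (by fun_prop)).mul
      ((mv.comp (by fun_prop)).mul (mv.comp (by fun_prop)))))
  have q₁ : Measurable M₁ := mm n₁ _ _ _
  have q₂ : Measurable M₂ := mm n₂ _ _ _
  have q₃ : Measurable M₃ := mm n₃ _ _ _
  set M : Fin 3 → ℝ × ℝ → ℝ≥0∞ := ![M₁, M₂, M₃] with hM
  have key := ENNReal.lintegral_prod_norm_pow_le (μ := (volume : Measure (ℝ × ℝ)))
    (Finset.univ : Finset (Fin 3)) (f := M) (p := fun _ => (1 : ℝ) / 3) (fun i _ => by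
      fin_cases i
      · exact q₁.aemeasurable
      · exact q₂.aemeasurable
      · exact q₃.aemeasurable) (by simp) (fun _ _ => by norm_num)
  simp only [Fin.prod_univ_three] at key
  have k0 : M 0 = M₁ := rfl
  have k1 : M 1 = M₂ := rfl
  have k2 : M 2 = M₃ := rfl
  rw [k0, k1, k2] at key
  have b₁ : ∫⁻ p, M₁ p ≤ K₁ * ∫⁻ x, F₁ x :=
    one_weight_d h hκ (sub_ne_zero.2 h12) (sub_ne_zero.2 h13) n₁
  have b₂ : ∫⁻ p, M₂ p ≤ K₂ * ∫⁻ x, F₂ x :=
    one_weight_d h hκ (sub_ne_zero.2 h12.symm) (sub_ne_zero.2 h23) n₂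
  have b₃ : ∫⁻ p, M₃ p ≤ K₃ * ∫⁻ x, F₃ x :=
    one_weight_d h hκ (sub_ne_zero.2 h13.symm) (sub_ne_zero.2 h23.symm) n₃
  have e₁ : eLpNorm f₁ 3 volume = (∫⁻ x, F₁ x) ^ ((1 : ℝ) / 3) := H152.elp_nn f₁
  have e₂ : eLpNorm f₂ 3 volume = (∫⁻ x, F₂ x) ^ ((1 : ℝ) / 3) := H152.elp_nn f₂
  have e₃ : eLpNorm f₃ 3 volume = (∫⁻ x, F₃ x) ^ ((1 : ℝ) / 3) := H152.elp_nn f₃
  calc ∫⁻ p : ℝ × ℝ, kd d κ p * (‖f₁ (p.1 - c₁ * p.2)‖ₑ * ‖f₂ (p.1 - c₂ * p.2)‖ₑ *
        ‖f₃ (p.1 - c₃ * p.2)‖ₑ)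
      = ∫⁻ p, M₁ p ^ ((1 : ℝ) / 3) * M₂ p ^ ((1 : ℝ) / 3) * M₃ p ^ ((1 : ℝ) / 3) := by
        apply lintegral_congr_ae
        filter_upwards [line_pos h c₁, line_pos h c₂, line_pos h c₃] with p p₁ p₂ p₃
        simp only [hM₁, hM₂, hM₃, hF₁, hF₂, hF₃]
        rw [← ENNReal.mul_rpow_of_nonneg _ _ (by norm_num),
          ← ENNReal.mul_rpow_of_nonneg _ _ (by norm_num)]
        have hw := weights_d h p₁ p₂ p₃
        have e : kd d κ p * (‖f₁ (p.1 - c₁ * p.2)‖ₑ ^ (3 : ℝ) * (rd d a (p.1 - c₁ * p.2) *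
            (vh d a (p.1 - c₂ * p.2) * vh d a (p.1 - c₃ * p.2)))) *
            (kd d κ p * (‖f₂ (p.1 - c₂ * p.2)‖ₑ ^ (3 : ℝ) * (rd d a (p.1 - c₂ * p.2) *
            (vh d a (p.1 - c₁ * p.2) * vh d a (p.1 - c₃ * p.2))))) *
            (kd d κ p * (‖f₃ (p.1 - c₃ * p.2)‖ₑ ^ (3 : ℝ) * (rd d a (p.1 - c₃ * p.2) *
            (vh d a (p.1 - c₁ * p.2) * vh d a (p.1 - c₂ * p.2))))) =
            (kd d κ p * (‖f₁ (p.1 - c₁ * p.2)‖ₑ * ‖f₂ (p.1 - c₂ * p.2)‖ₑ *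
            ‖f₃ (p.1 - c₃ * p.2)‖ₑ)) ^ (3 : ℝ) := by
          have e3 : (3 : ℝ) = ((3 : ℕ) : ℝ) := by norm_num
          rw [e3]
          simp only [ENNReal.rpow_natCast]
          calc _ = (kd d κ p * (‖f₁ (p.1 - c₁ * p.2)‖ₑ * ‖f₂ (p.1 - c₂ * p.2)‖ₑ *
              ‖f₃ (p.1 - c₃ * p.2)‖ₑ)) ^ 3 * ((rd d a (p.1 - c₁ * p.2) *
              (vh d a (p.1 - c₂ * p.2) *
              vh d a (p.1 - c₃ * p.2))) * (rd d a (p.1 - c₂ * p.2) * (vh d a (p.1 - c₁ * p.2) *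
              vh d a (p.1 - c₃ * p.2))) * (rd d a (p.1 - c₃ * p.2) * (vh d a (p.1 - c₁ * p.2) *
              vh d a (p.1 - c₂ * p.2)))) := by ring
            _ = _ := by rw [hw, mul_one]
        rw [e, ← ENNReal.rpow_mul]
        norm_num
    _ ≤ (∫⁻ p, M₁ p) ^ ((1 : ℝ) / 3) * (∫⁻ p, M₂ p) ^ ((1 : ℝ) / 3) *
        (∫⁻ p, M₃ p) ^ ((1 : ℝ) / 3) := key
    _ ≤ (K₁ * ∫⁻ x, F₁ x) ^ ((1 : ℝ) / 3) * (K₂ * ∫⁻ x, F₂ x) ^ ((1 : ℝ) / 3) *
        (K₃ * ∫⁻ x, F₃ x) ^ ((1 : ℝ) / 3) := by gcongr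
    _ = _ := by
        rw [ENNReal.mul_rpow_of_nonneg _ _ (by norm_num), ENNReal.mul_rpow_of_nonneg _ _
          (by norm_num), ENNReal.mul_rpow_of_nonneg _ _ (by norm_num), e₁, e₂, e₃]
        ring

end Vale.Agent.P141.R2.H106.P4
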