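import Vale.Agent.P141.R2.H106.NilReg

/-!
# Form bounds, their consequences for the operator, and limits of structured functions
-/

namespace Vale.Agent.P141.R2.H106

open MeasureTheory Set Filter Topology
open scoped ENNReal SchwartzMap
open Vale.Agent.P141.H97

/-- the product of the three norms -/
noncomputable def n3 (g₁ g₂ g₃ : ℝ → ℂ) : ℝ :=
  (eLpNorm g₁ 3 volume).toReal * (eLpNorm g₂ 3 volume).toReal * (eLpNorm g₃ 3 volume).toReal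

/-- the four form bounds -/
def FB (K ε R : ℝ) (h : ℝ → ℂ) : Prop :=
  ∀ g₁ g₂ g₃ : ℝ → ℂ, Nice g₁ → Nice g₂ → Nice g₃ →
    ‖∫ p, wk ε R 1 0 2 3 h g₁ g₂ g₃ p‖ ≤ K * n3 g₁ g₂ g₃ ∧
    ‖∫ p, wk ε R 2 0 1 3 h g₁ g₂ g₃ p‖ ≤ K * n3 g₁ g₂ g₃ ∧
    ‖∫ p, wk ε R 3 0 1 2 h g₁ g₂ g₃ p‖ ≤ K * n3 g₁ g₂ g₃ ∧
    ‖∫ p, wk ε R 0 1 2 3 h g₁ g₂ g₃ p‖ ≤ K * n3 g₁ g₂ g₃

/-- the four bounds for the truncations -/
def TB (K ε R : ℝ) (h : ℝ → ℂ) : Prop :=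
  ∀ f g : ℝ → ℂ, Nice f → Nice g →
    eLpNorm (truncTHT h f g ε R) (3 / 2) volume ≤
        ENNReal.ofReal K * (eLpNorm f 3 volume * eLpNorm g 3 volume) ∧
    eLpNorm (truncTHT f h g ε R) (3 / 2) volume ≤
        ENNReal.ofReal K * (eLpNorm f 3 volume * eLpNorm g 3 volume) ∧
    eLpNorm (truncTHT f g h ε R) (3 / 2) volume ≤
        ENNReal.ofReal K * (eLpNorm f 3 volume * eLpNorm g 3 volume) ∧
    ∀ k : ℝ → ℂ, Nice k → ‖∫ x, truncTHT f g k ε R x * h x‖ₑ ≤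
        ENNReal.ofReal K * (eLpNorm f 3 volume * eLpNorm g 3 volume * eLpNorm k 3 volume)

theorem fb_str : ∃ C c : ℝ, 0 < C ∧ 0 < c ∧ ∀ κ ε R : ℝ, 0 ≤ κ → 0 < ε → ε < R → ∀ h : ℝ → ℂ,
    Str κ (c * R) h → FB (C * κ) ε R h := by
  obtain ⟨C₁, c₁, hC₁, hc₁, H₁⟩ := wk_loc 1 0 2 3 (by norm_num) (by norm_num)
  obtain ⟨C₂, c₂, hC₂, hc₂, H₂⟩ := wk_loc 2 0 1 3 (by norm_num) (by norm_num)
  obtain ⟨C₃, c₃, hC₃, hc₃, H₃⟩ := wk_loc 3 0 1 2 (by norm_num) (by norm_num)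
  obtain ⟨C₄, c₄, hC₄, hc₄, H₄⟩ := wk_loc 0 1 2 3 (by norm_num) (by norm_num)
  refine ⟨C₁ + C₂ + C₃ + C₄ + 1, c₁ + c₂ + c₃ + c₄, by positivity, by positivity, ?_⟩
  intro κ ε R hκ hε hR h hh g₁ g₂ g₃ n₁ n₂ n₃
  have hR0 : 0 < R := hε.trans hR
  obtain ⟨mh, ⟨B, hB⟩, r₁⟩ := hh.mono (L' := c₁ * R) (by nlinarith)
  obtain ⟨-, -, r₂⟩ := hh.mono (L' := c₂ * R) (by nlinarith)
  obtain ⟨-, -, r₃⟩ := hh.mono (L' := c₃ * R) (by nlinarith)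
  obtain ⟨-, -, r₄⟩ := hh.mono (L' := c₄ * R) (by nlinarith)
  have hn : 0 ≤ n3 g₁ g₂ g₃ := by unfold n3; positivity
  have up : ∀ C, 0 ≤ C → C ≤ C₁ + C₂ + C₃ + C₄ + 1 → ∀ X, X ≤ C * κ * n3 g₁ g₂ g₃ →
      X ≤ (C₁ + C₂ + C₃ + C₄ + 1) * κ * n3 g₁ g₂ g₃ := by
    intro C _ hC X hX
    refine hX.trans ?_
    gcongr
  exact ⟨up C₁ hC₁ (by linarith) _ (H₁ κ ε R hκ hε hR h mh ⟨B, hB⟩ r₁ g₁ g₂ g₃ n₁ n₂ n₃),
    up C₂ hC₂ (by linarith) _ (H₂ κ ε R hκ hε hR h mh ⟨B, hB⟩ r₂ g₁ g₂ g₃ n₁ n₂ n₃),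
    up C₃ hC₃ (by linarith) _ (H₃ κ ε R hκ hε hR h mh ⟨B, hB⟩ r₃ g₁ g₂ g₃ n₁ n₂ n₃),
    up C₄ hC₄ (by linarith) _ (H₄ κ ε R hκ hε hR h mh ⟨B, hB⟩ r₄ g₁ g₂ g₃ n₁ n₂ n₃)⟩

theorem op_form {β₀ β₁ β₂ K ε R : ℝ} (hK : 0 ≤ K) (hε : 0 < ε) {h : ℝ → ℂ} (mh : Measurable h)
    {B : ℝ} (hB : ∀ x, ‖h x‖ ≤ B)
    (key : ∀ g₁ g₂ g₃ : ℝ → ℂ, Nice g₁ → Nice g₂ → Nice g₃ →
      ‖∫ p, wk ε R β₀ 0 β₁ β₂ h g₁ g₂ g₃ p‖ ≤ K * n3 g₁ g₂ g₃)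
    {f₁ f₂ : ℝ → ℂ} (n₁ : Nice f₁) (n₂ : Nice f₂) :
    eLpNorm (TT ε R β₁ β₂ β₀ f₁ f₂ h) (3 / 2) volume ≤
      ENNReal.ofReal K * (eLpNorm f₁ 3 volume * eLpNorm f₂ 3 volume) := by
  obtain ⟨B₁, hB₁⟩ := n₁.bdd
  obtain ⟨B₂, hB₂⟩ := n₂.bdd
  have l₁ := n₁.memLp (p := 3) (by norm_num) (by norm_num)
  have l₂ := n₂.memLp (p := 3) (by norm_num) (by norm_num)
  set a₁ := (eLpNorm f₁ 3 volume).toReal with ha₁
  set a₂ := (eLpNorm f₂ 3 volume).toReal with ha₂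
  have hA : (0 : ℝ) ≤ K * (a₁ * a₂) := by positivity
  have hd := dual (d₀ := 1 / 3) (by norm_num) (by norm_num)
    (tt_meas (ε := ε) (R := R) (β₁ := β₁) (β₂ := β₂) (β₃ := β₀) n₁.meas n₂.meas mh)
    (tt_bdd (R := R) (β₁ := β₁) (β₂ := β₂) (β₃ := β₀) hε hB₁ hB₂ hB) hA (fun f hf => by
      have h1 : ∫ x, f x * TT ε R β₁ β₂ β₀ f₁ f₂ h x
          = ∫ p, wk ε R β₀ 0 β₁ β₂ h f f₁ f₂ p := by
        rw [Measure.volume_eq_prod, integral_prod _ (wk_int hε mh hB hf.nice n₁ n₂)]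
        congr 1
        funext x
        unfold TT
        rw [← integral_const_mul]
        congr 1
        funext t
        unfold ph FF uu wk bk
        by_cases ht : ε < |t| ∧ |t| < R
        · rw [indicator_of_mem (show t ∈ {t : ℝ | ε < |t| ∧ |t| < R} from ht), if_pos ht]
          simp only [zero_mul, sub_zero]
          ring
        · rw [indicator_of_notMem (show t ∉ {t : ℝ | ε < |t| ∧ |t| < R} from ht), if_neg ht]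
          simp
      rw [h1]
      have l₀ := hf.nice.memLp (p := 3) (by norm_num) (by norm_num)
      have h2 := key f f₁ f₂ hf.nice n₁ n₂
      have h3 : (eLpNorm f 3 volume).toReal = (NN f (1 / (1 / 3))) ^ ((1 : ℝ) / 3) := by
        rw [elp_NN l₀ (by norm_num) (by norm_num), ENNReal.toReal_ofReal
          (by have := NN_nonneg f (3 : ℝ≥0∞).toReal; positivity)]
        have h33 : (3 : ℝ≥0∞).toReal = 3 := by norm_num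
        rw [h33]
        norm_num
      rw [← h3]
      refine h2.trans (le_of_eq ?_)
      unfold n3
      ring)
  rw [ofReal_32] at hd
  refine hd.trans (le_of_eq ?_)
  rw [ENNReal.ofReal_mul hK, ENNReal.ofReal_mul (p := a₁) (by positivity), ha₁, ha₂,
    ENNReal.ofReal_toReal l₁.2.ne, ENNReal.ofReal_toReal l₂.2.ne]

theorem fb_tb {K ε R : ℝ} (hK : 0 ≤ K) (hε : 0 < ε) {h : ℝ → ℂ} (mh : Measurable h)
    {B : ℝ} (hB : ∀ x, ‖h x‖ ≤ B) (H : FB K ε R h) : TB K ε R h := by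
  intro f g nf ng
  refine ⟨?_, ?_, ?_, ?_⟩
  · rw [trunc_eq, TT_rot]
    exact op_form hK hε mh hB (fun g₁ g₂ g₃ n₁ n₂ n₃ => (H g₁ g₂ g₃ n₁ n₂ n₃).1) nf ng
  · rw [trunc_eq, TT_23]
    exact op_form hK hε mh hB (fun g₁ g₂ g₃ n₁ n₂ n₃ => (H g₁ g₂ g₃ n₁ n₂ n₃).2.1) nf ng
  · rw [trunc_eq]
    exact op_form hK hε mh hB (fun g₁ g₂ g₃ n₁ n₂ n₃ => (H g₁ g₂ g₃ n₁ n₂ n₃).2.2.1) nf ng
  · intro k nk
    have l₁ := nf.memLp (p := 3) (by norm_num) (by norm_num)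
    have l₂ := ng.memLp (p := 3) (by norm_num) (by norm_num)
    have l₃ := nk.memLp (p := 3) (by norm_num) (by norm_num)
    have h1 : ∫ x, truncTHT f g k ε R x * h x = ∫ p, wk ε R 0 1 2 3 h f g k p := by
      rw [Measure.volume_eq_prod, integral_prod _ (wk_int hε mh hB nf ng nk), trunc_eq]
      congr 1
      funext x
      unfold TT
      rw [← integral_mul_const]
      congr 1
      funext t
      unfold ph FF uu wk bk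
      by_cases ht : ε < |t| ∧ |t| < R
      · rw [indicator_of_mem (show t ∈ {t : ℝ | ε < |t| ∧ |t| < R} from ht), if_pos ht]
        simp only [zero_mul, sub_zero]
        ring
      · rw [indicator_of_notMem (show t ∉ {t : ℝ | ε < |t| ∧ |t| < R} from ht), if_neg ht]
        simp
    have h2 := (H f g k nf ng nk).2.2.2
    rw [h1, ← ofReal_norm]
    refine (ENNReal.ofReal_le_ofReal h2).trans (le_of_eq ?_)
    unfold n3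
    rw [ENNReal.ofReal_mul hK,
      ENNReal.ofReal_mul (q := (eLpNorm k 3 volume).toReal) (by positivity),
      ENNReal.ofReal_mul (q := (eLpNorm g 3 volume).toReal) (by positivity),
      ENNReal.ofReal_toReal l₁.2.ne, ENNReal.ofReal_toReal l₂.2.ne, ENNReal.ofReal_toReal l₃.2.ne]

theorem quasi (β : ℝ) : Measure.QuasiMeasurePreserving (fun p : ℝ × ℝ => p.1 - β * p.2)
    volume volume := by
  have h1 : Measure.QuasiMeasurePreserving (fun p : ℝ × ℝ => p.1) volume volume :=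
    Measure.quasiMeasurePreserving_fst
  have h2 := (cshear (-β)).quasiMeasurePreserving
  have h3 := h1.comp h2
  have h4 : (fun p : ℝ × ℝ => p.1 - β * p.2)
      = (fun p : ℝ × ℝ => p.1) ∘ (fun p : ℝ × ℝ => (p.1 + -β * p.2, p.2)) := by
    funext p
    simp [sub_eq_add_neg]
  rw [h4]
  exact h3

theorem wk_lim {ε R α₀ α₁ α₂ α₃ : ℝ} (hε : 0 < ε) {h : ℝ → ℂ} {hn : ℕ → ℝ → ℂ} {B K : ℝ}
    (mh : ∀ n, Measurable (hn n)) (hB : ∀ n x, ‖hn n x‖ ≤ B)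
    (hlim : ∀ᵐ x, Tendsto (fun n => hn n x) atTop (𝓝 (h x))) {g₁ g₂ g₃ : ℝ → ℂ}
    (n₁ : Nice g₁) (n₂ : Nice g₂) (n₃ : Nice g₃)
    (hb : ∀ᶠ n in atTop, ‖∫ p, wk ε R α₀ α₁ α₂ α₃ (hn n) g₁ g₂ g₃ p‖ ≤ K) :
    ‖∫ p, wk ε R α₀ α₁ α₂ α₃ h g₁ g₂ g₃ p‖ ≤ K := by
  have hl : Tendsto (fun n => ∫ p, wk ε R α₀ α₁ α₂ α₃ (hn n) g₁ g₂ g₃ p) atTop
      (𝓝 (∫ p, wk ε R α₀ α₁ α₂ α₃ h g₁ g₂ g₃ p)) := by
    refine tendsto_integral_of_dominated_convergence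
      (fun p => ‖bk ε R α₁ α₂ α₃ g₁ g₂ g₃ p‖ * B)
      (fun n => (wk_meas (mh n) n₁.meas n₂.meas n₃.meas).aestronglyMeasurable)
      ((bk_int hε n₁ n₂ n₃).norm.mul_const _) (fun n => ae_of_all _ fun p => ?_) ?_
    · unfold wk
      rw [norm_mul]
      gcongr
      exact hB _ _
    · filter_upwards [(quasi α₀).ae hlim] with p hp
      exact hp.const_mul _
  exact le_of_tendsto hl.norm hb

theorem fb_lim {K ε R : ℝ} (hε : 0 < ε) {h : ℝ → ℂ} {hn : ℕ → ℝ → ℂ} {B : ℝ}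
    (mh : ∀ n, Measurable (hn n)) (hB : ∀ n x, ‖hn n x‖ ≤ B)
    (hlim : ∀ᵐ x, Tendsto (fun n => hn n x) atTop (𝓝 (h x)))
    (H : ∀ᶠ n in atTop, FB K ε R (hn n)) : FB K ε R h := by
  intro g₁ g₂ g₃ n₁ n₂ n₃
  refine ⟨?_, ?_, ?_, ?_⟩
  · exact wk_lim hε mh hB hlim n₁ n₂ n₃ (H.mono fun n hn => (hn g₁ g₂ g₃ n₁ n₂ n₃).1)
  · exact wk_lim hε mh hB hlim n₁ n₂ n₃ (H.mono fun n hn => (hn g₁ g₂ g₃ n₁ n₂ n₃).2.1)
  · exact wk_lim hε mh hB hlim n₁ n₂ n₃ (H.mono fun n hn => (hn g₁ g₂ g₃ n₁ n₂ n₃).2.2.1)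
  · exact wk_lim hε mh hB hlim n₁ n₂ n₃ (H.mono fun n hn => (hn g₁ g₂ g₃ n₁ n₂ n₃).2.2.2)

/-- a function with a representation is bounded by the mass -/
theorem Rep.bdd {κ L : ℝ} (hκ : 0 ≤ κ) (hL : 0 ≤ L) {h : ℝ → ℂ} (H : Rep κ L h) :
    ‖h 0‖ ≤ κ := by
  obtain ⟨Ω, mΩ, μ, H₀, H₁, H₂, hμ, m₀, m₁, m₂, b₀, b₁, b₂, e⟩ := H
  have hf : IsFiniteMeasure μ := ⟨hμ.trans_lt ENNReal.ofReal_lt_top⟩
  have e0 := e 0 0 0 (by simpa using hL) (by simpa using hL) (by simpa using hL)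
  simp only [add_zero] at e0
  rw [e0]
  have h1 : ∀ ω, ‖H₀ (ω, 0, 0) * H₁ (ω, 0, 0) * H₂ (ω, 0, 0)‖ ≤ 1 := by
    intro ω
    rw [norm_mul, norm_mul]
    calc _ ≤ (1 : ℝ) * 1 * 1 := by
          have := b₀ (ω, 0, 0)
          have := b₁ (ω, 0, 0)
          have := b₂ (ω, 0, 0)
          gcongr
      _ = 1 := by ring
  refine (norm_integral_le_of_norm_le_const (ae_of_all _ h1)).trans ?_
  rw [one_mul]
  exact ENNReal.toReal_le_of_le_ofReal hκ hμ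

theorem rep_bdd {κ L : ℝ} (hκ : 0 ≤ κ) (hL : 0 ≤ L) {h : ℝ → ℂ}
    (H : ∀ y, Rep κ L fun x => h (x + y)) (y : ℝ) : ‖h y‖ ≤ κ := by
  have := (H y).bdd hκ hL
  simpa using this

end Vale.Agent.P141.R2.H106
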