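import Vale.Agent.P141.R2.H106.NearT
import Vale.Agent.P141.R2.H106.Form

/-!
# Near and far together
-/

namespace Vale.Agent.P141.R2.H106

open MeasureTheory Set Filter Topology
open scoped ENNReal
open Vale.Agent.P141.H97

/-- locally structured functions: structure at the scale of the distance to `E` -/
def LS (κ c : ℝ) (E : Finset ℝ) (h : ℝ → ℂ) : Prop :=
  Measurable h ∧ (∀ x, ‖h x‖ ≤ κ) ∧ ∀ y, y ∉ E → Rep κ (c * dE E y) (fun x => h (x + y))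

theorem one_form (α₀ α₁ α₂ α₃ : ℝ) (h12 : α₁ ≠ α₂) (h13 : α₁ ≠ α₃) (h23 : α₂ ≠ α₃) {c : ℝ}
    (hc : 0 < c) : ∃ C : ℝ, 0 ≤ C ∧ ∀ κ ε R : ℝ, 0 ≤ κ → 0 < ε → ε < R → ∀ n : ℕ,
      ∀ E : Finset ℝ, E.Nonempty → E.card < 2 ^ n → ∀ h : ℝ → ℂ, LS κ c E h →
      ∀ g₁ g₂ g₃ : ℝ → ℂ, Nice g₁ → Nice g₂ → Nice g₃ →
        ‖∫ p, wk ε R α₀ α₁ α₂ α₃ h g₁ g₂ g₃ p‖ ≤ C * κ * (1 + n) * n3 g₁ g₂ g₃ := by
  obtain ⟨C₁, η, hC₁, hη, k1, k3, H⟩ := near α₀ α₁ α₂ α₃ h12 h23 hc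
  obtain ⟨C₂, hC₂, H₂⟩ := far hη h12 h13 h23 k1 k3
  refine ⟨C₁ + C₂.toReal, by positivity, ?_⟩
  intro κ ε R hκ hε hR n E hE hcard h hh g₁ g₂ g₃ n₁ n₂ n₃
  obtain ⟨mh, hb, hr⟩ := hh
  have a1 := H κ ε R hκ hε hR E hE h mh hb hr g₁ g₂ g₃ n₁ n₂ n₃
  have a2 := H₂ n E hcard g₁ g₂ g₃ n₁.meas n₂.meas n₃.meas
  have l₁ := n₁.memLp (p := 3) (by norm_num) (by norm_num)
  have l₂ := n₂.memLp (p := 3) (by norm_num) (by norm_num)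
  have l₃ := n₃.memLp (p := 3) (by norm_num) (by norm_num)
  have hn : 0 ≤ n3 g₁ g₂ g₃ := by unfold n3; positivity
  have e1 : eLpNorm g₁ 3 volume * eLpNorm g₂ 3 volume * eLpNorm g₃ 3 volume =
      ENNReal.ofReal (n3 g₁ g₂ g₃) := by
    unfold n3
    rw [ENNReal.ofReal_mul (by positivity), ENNReal.ofReal_mul (by positivity),
      ENNReal.ofReal_toReal l₁.2.ne, ENNReal.ofReal_toReal l₂.2.ne, ENNReal.ofReal_toReal l₃.2.ne]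
  have e2 : (n : ℝ≥0∞) = ENNReal.ofReal (n : ℝ) := by simp
  have a3 : ‖∫ p, wk ε R α₀ α₁ α₂ α₃ h g₁ g₂ g₃ p‖ₑ ≤
      ENNReal.ofReal (C₁ * κ * n3 g₁ g₂ g₃ + κ * (n * C₂.toReal * n3 g₁ g₂ g₃)) := by
    refine a1.trans ?_
    calc _ ≤ ENNReal.ofReal (C₁ * κ) * ENNReal.ofReal (n3 g₁ g₂ g₃) +
          ENNReal.ofReal κ * (ENNReal.ofReal (n : ℝ) * ENNReal.ofReal C₂.toReal *
            ENNReal.ofReal (n3 g₁ g₂ g₃)) := by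
          rw [← e1, ← e2, ENNReal.ofReal_toReal hC₂.ne]
          gcongr
      _ = _ := by
          rw [← ENNReal.ofReal_mul (by positivity), ← ENNReal.ofReal_mul (by positivity),
            ← ENNReal.ofReal_mul (by positivity), ← ENNReal.ofReal_mul hκ,
            ← ENNReal.ofReal_add (by positivity) (by positivity)]
  rw [← ofReal_norm] at a3
  have a4 := (ENNReal.ofReal_le_ofReal_iff (by positivity)).1 a3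
  refine a4.trans ?_
  have hn' : (0 : ℝ) ≤ n := Nat.cast_nonneg n
  have hC₂' : 0 ≤ C₂.toReal := ENNReal.toReal_nonneg
  have : (C₁ + C₂.toReal) * κ * (1 + n) * n3 g₁ g₂ g₃ -
      (C₁ * κ * n3 g₁ g₂ g₃ + κ * (n * C₂.toReal * n3 g₁ g₂ g₃)) =
      C₁ * κ * n * n3 g₁ g₂ g₃ + C₂.toReal * κ * n3 g₁ g₂ g₃ := by ring
  have h0 : 0 ≤ C₁ * κ * n * n3 g₁ g₂ g₃ + C₂.toReal * κ * n3 g₁ g₂ g₃ := by positivity
  linarith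

/-- the four form bounds for locally structured functions -/
theorem fb_ls {c : ℝ} (hc : 0 < c) : ∃ C : ℝ, 0 < C ∧ ∀ κ ε R : ℝ, 0 ≤ κ → 0 < ε → ε < R →
    ∀ n : ℕ, ∀ E : Finset ℝ, E.Nonempty → E.card < 2 ^ n → ∀ h : ℝ → ℂ, LS κ c E h →
      FB (C * κ * (1 + n)) ε R h := by
  obtain ⟨C₁, hC₁, H₁⟩ := one_form 1 0 2 3 (by norm_num) (by norm_num) (by norm_num) hc
  obtain ⟨C₂, hC₂, H₂⟩ := one_form 2 0 1 3 (by norm_num) (by norm_num) (by norm_num) hc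
  obtain ⟨C₃, hC₃, H₃⟩ := one_form 3 0 1 2 (by norm_num) (by norm_num) (by norm_num) hc
  obtain ⟨C₄, hC₄, H₄⟩ := one_form 0 1 2 3 (by norm_num) (by norm_num) (by norm_num) hc
  refine ⟨C₁ + C₂ + C₃ + C₄ + 1, by positivity, ?_⟩
  intro κ ε R hκ hε hR n E hE hn h hh g₁ g₂ g₃ n₁ n₂ n₃
  have hn3 : 0 ≤ n3 g₁ g₂ g₃ := by unfold n3; positivity
  have up : ∀ C, 0 ≤ C → C ≤ C₁ + C₂ + C₃ + C₄ + 1 → ∀ X, X ≤ C * κ * (1 + n) * n3 g₁ g₂ g₃ →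
      X ≤ (C₁ + C₂ + C₃ + C₄ + 1) * κ * (1 + n) * n3 g₁ g₂ g₃ := by
    intro C _ hC X hX
    refine hX.trans ?_
    gcongr
  exact ⟨up C₁ hC₁ (by linarith) _ (H₁ κ ε R hκ hε hR n E hE hn h hh g₁ g₂ g₃ n₁ n₂ n₃),
    up C₂ hC₂ (by linarith) _ (H₂ κ ε R hκ hε hR n E hE hn h hh g₁ g₂ g₃ n₁ n₂ n₃),
    up C₃ hC₃ (by linarith) _ (H₃ κ ε R hκ hε hR n E hE hn h hh g₁ g₂ g₃ n₁ n₂ n₃),
    up C₄ hC₄ (by linarith) _ (H₄ κ ε R hκ hε hR n E hE hn h hh g₁ g₂ g₃ n₁ n₂ n₃)⟩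

end Vale.Agent.P141.R2.H106
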