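import Vale.Agent.P141.R2.H106.Nof

/-!
# The twisted bilinear Hilbert form, one function compactly supported
-/

namespace Vale.Agent.P141.R2.H106

open MeasureTheory Set
open scoped ENNReal
open Vale.Agent.P075.R (kern full)
open Vale.Agent.P141.H97

/-- the integrand of the bilinear Hilbert form, times `h` at a fourth slope -/
noncomputable def wk (ε R α₀ α₁ α₂ α₃ : ℝ) (h g₁ g₂ g₃ : ℝ → ℂ) (p : ℝ × ℝ) : ℂ :=
  bk ε R α₁ α₂ α₃ g₁ g₂ g₃ p * h (p.1 - α₀ * p.2)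

theorem wk_cs (α₀ α₁ α₂ α₃ : ℝ) (h12 : α₁ ≠ α₂) (h23 : α₂ ≠ α₃) :
    ∃ C c : ℝ, 0 ≤ C ∧ 0 < c ∧ ∀ κ N : ℝ, 0 ≤ κ → 0 < N → ∀ h : ℝ → ℂ, Measurable h →
      (∃ B, ∀ x, ‖h x‖ ≤ B) → Rep κ (c * N) h →
      ∀ g₁ g₂ g₃ : ℝ → ℂ, Measurable g₁ → Measurable g₂ → Measurable g₃ →
      MemLp g₁ 3 volume → MemLp g₂ 3 volume → MemLp g₃ 3 volume →
      (∀ u, N < |u| → g₂ u = 0) → ∀ ε R : ℝ, 0 < ε → ε < R → R ≤ N →
        ‖∫ p, wk ε R α₀ α₁ α₂ α₃ h g₁ g₂ g₃ p‖ ≤ C * κ * ((eLpNorm g₁ 3 volume).toReal *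
          (eLpNorm g₂ 3 volume).toReal * (eLpNorm g₃ 3 volume).toReal) := by
  obtain ⟨C₀, hC00, hC₀⟩ := kern_rep
  have hδ : 0 < |α₂ - α₁| := abs_pos.2 (sub_ne_zero.2 (Ne.symm h12))
  have hδ' : α₁ - α₂ ≠ 0 := sub_ne_zero.2 h12
  have hδ'' : α₂ - α₁ ≠ 0 := sub_ne_zero.2 (Ne.symm h12)
  have hγ : 0 < |α₂ - α₃| := abs_pos.2 (sub_ne_zero.2 h23)
  have hγ' : α₂ - α₃ ≠ 0 := sub_ne_zero.2 h23
  set θ : ℝ := (1 + |α₃ - α₂|) / |α₂ - α₁| with hθ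
  have hθ0 : 0 ≤ θ := by positivity
  set ρ : ℝ := 2 * θ / |α₂ - α₃| with hρ
  have hρ0 : 0 ≤ ρ := by positivity
  refine ⟨|α₂ - α₁| * (C₀ * ((1 / |α₂ - α₁|) ^ ((1 : ℝ) / 3) * (1 / |α₁ - α₂|) ^ ((1 : ℝ) / 3)
    * ρ ^ ((1 : ℝ) / 3))),
    (2 + θ) * (|α₂ - α₀| + |α₃ - α₀| + |α₁ - α₀| + 1), by positivity, by positivity, ?_⟩
  intro κ N hκ hNpos h mh hB hrep g₁ g₂ g₃ m₁ m₂ m₃ l₁ l₂ l₃ hM ε R hε hR hRN
  obtain ⟨B, hB⟩ := hB
  have hN0 : 0 ≤ N := hNpos.le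
  set K : ℝ := N * θ with hK
  have hK0 : 0 ≤ K := by positivity
  have hKK : (N + |α₃ - α₂| * N) / |α₂ - α₁| ≤ K := by
    apply le_of_eq
    rw [hK, hθ]
    ring
  obtain ⟨Ω, mΩ, μ, H₀, H₁, H₂, hμ, mH₀, mH₁, mH₂, bH₀, bH₁, bH₂, hH⟩ := hrep
  set G₀ : ℝ × ℝ → ℂ := fun p => g₁ ((α₂ - α₁) * p.1 + (α₃ - α₁) * p.2) *
    (Icc 0 N).indicator 1 p.2 with hG₀
  set G₁ : ℝ × ℝ → ℂ := fun p => g₂ ((α₁ - α₂) * p.2 + (α₃ - α₂) * p.1) *
    (Icc 0 N).indicator 1 p.1 with hG₁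
  set G₂ : ℝ × ℝ → ℂ := fun p => g₃ ((α₂ - α₃) * p.2 + (α₁ - α₃) * p.1) *
    (Icc (-K) K).indicator 1 p.1 with hG₂
  have v1 : volume (Icc 0 N) = ENNReal.ofReal N := by rw [Real.volume_Icc, sub_zero]
  have v2 : volume (Icc (-K) K) = ENNReal.ofReal (2 * K) := by
    rw [Real.volume_Icc]; congr 1; ring
  have n0 : eLpNorm G₀ 3 volume = ENNReal.ofReal ((N / |α₂ - α₁|) ^ ((1 : ℝ) / 3)) *
      eLpNorm g₁ 3 volume := nrm2 _ _ hδ'' _ measurableSet_Icc N hN0 v1 g₁ m₁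
  have n1 : eLpNorm G₁ 3 volume = ENNReal.ofReal ((N / |α₁ - α₂|) ^ ((1 : ℝ) / 3)) *
      eLpNorm g₂ 3 volume := nrm1 _ _ hδ' _ measurableSet_Icc N hN0 v1 g₂ m₂
  have n2 : eLpNorm G₂ 3 volume = ENNReal.ofReal ((2 * K / |α₂ - α₃|) ^ ((1 : ℝ) / 3)) *
      eLpNorm g₃ 3 volume := nrm1 _ _ hγ' _ measurableSet_Icc (2 * K) (by positivity) v2 g₃ m₃
  have hi1 : Measurable ((Icc 0 N).indicator (1 : ℝ → ℂ)) :=
    measurable_one.indicator measurableSet_Icc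
  have hi2 : Measurable ((Icc (-K) K).indicator (1 : ℝ → ℂ)) :=
    measurable_one.indicator measurableSet_Icc
  have mG0 : Measurable G₀ :=
    (m₁.comp ((measurable_const.mul measurable_fst).add (measurable_const.mul measurable_snd))).mul
      (hi1.comp measurable_snd)
  have mG1 : Measurable G₁ :=
    (m₂.comp ((measurable_const.mul measurable_snd).add (measurable_const.mul measurable_fst))).mul
      (hi1.comp measurable_fst)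
  have mG2 : Measurable G₂ :=
    (m₃.comp ((measurable_const.mul measurable_snd).add (measurable_const.mul measurable_fst))).mul
      (hi2.comp measurable_fst)
  have L0 : MemLp G₀ 3 volume := ⟨mG0.aestronglyMeasurable, by
    rw [n0]; exact ENNReal.mul_lt_top ENNReal.ofReal_lt_top l₁.2⟩
  have L1 : MemLp G₁ 3 volume := ⟨mG1.aestronglyMeasurable, by
    rw [n1]; exact ENNReal.mul_lt_top ENNReal.ofReal_lt_top l₂.2⟩
  have L2 : MemLp G₂ 3 volume := ⟨mG2.aestronglyMeasurable, by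
    rw [n2]; exact ENNReal.mul_lt_top ENNReal.ofReal_lt_top l₃.2⟩
  obtain ⟨hI, hbd⟩ := hC₀ Ω mΩ μ H₀ H₁ H₂ κ hκ hμ mH₀ mH₁ mH₂ bH₀ bH₁ bH₂
    (α₂ - α₀) (α₃ - α₀) (α₁ - α₀) G₀ G₁ G₂ L0 L1 L2 ε R hε hR
  -- the representation of `h` on the support of the kernel
  have hkh : ∀ x : ℝ × ℝ × ℝ, ∫ ω, kern ε R G₀ G₁ G₂ x *
      (H₀ (ω, (α₂ - α₀) * x.1, (α₃ - α₀) * x.2.1) *
      H₁ (ω, (α₃ - α₀) * x.2.1, (α₁ - α₀) * x.2.2) *
      H₂ (ω, (α₁ - α₀) * x.2.2, (α₂ - α₀) * x.1)) ∂μ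
      = kern ε R G₀ G₁ G₂ x *
        h ((α₂ - α₀) * x.1 + (α₃ - α₀) * x.2.1 + (α₁ - α₀) * x.2.2) := by
    rintro ⟨a, b, c⟩
    by_cases hz : kern ε R G₀ G₁ G₂ (a, b, c) = 0
    · simp [hz]
    have hb : b ∈ Icc 0 N := by
      by_contra hb
      apply hz
      simp [kern, hG₁, indicator_of_notMem hb]
    have hc : c ∈ Icc (-K) K := by
      by_contra hc
      apply hz
      simp [kern, hG₂, indicator_of_notMem hc]
    have ht : |a + b + c| < R := by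
      by_contra ht
      apply hz
      simp [kern, ht]
    have hc' : |c| ≤ K := abs_le.2 hc
    have hb' : |b| ≤ N := abs_le.2 ⟨by linarith [hb.1], hb.2⟩
    have ha' : |a| ≤ N * (2 + θ) := by
      have h1 : a = (a + b + c) - b - c := by ring
      have h2 : |a| ≤ |a + b + c| + |b| + |c| := by
        calc |a| = |(a + b + c) - b - c| := by rw [← h1]
          _ ≤ |(a + b + c) - b| + |c| := abs_sub _ _
          _ ≤ |a + b + c| + |b| + |c| := by linarith [abs_sub (a + b + c) b]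
      rw [hK] at hc'
      nlinarith
    rw [integral_const_mul]
    congr 1
    symm
    apply hH
    · rw [abs_mul]
      calc |α₂ - α₀| * |a| ≤ |α₂ - α₀| * (N * (2 + θ)) := by gcongr
        _ ≤ (|α₂ - α₀| + |α₃ - α₀| + |α₁ - α₀| + 1) * (N * (2 + θ)) := by
          gcongr
          linarith [abs_nonneg (α₃ - α₀), abs_nonneg (α₁ - α₀)]
        _ = _ := by ring
    · rw [abs_mul]
      calc |α₃ - α₀| * |b| ≤ |α₃ - α₀| * (N * (2 + θ)) := by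
            gcongr
            nlinarith
        _ ≤ (|α₂ - α₀| + |α₃ - α₀| + |α₁ - α₀| + 1) * (N * (2 + θ)) := by
          gcongr
          linarith [abs_nonneg (α₂ - α₀), abs_nonneg (α₁ - α₀)]
        _ = _ := by ring
    · rw [abs_mul]
      calc |α₁ - α₀| * |c| ≤ |α₁ - α₀| * (N * (2 + θ)) := by
            gcongr
            rw [hK] at hc'
            nlinarith
        _ ≤ (|α₂ - α₀| + |α₃ - α₀| + |α₁ - α₀| + 1) * (N * (2 + θ)) := by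
          gcongr
          linarith [abs_nonneg (α₂ - α₀), abs_nonneg (α₃ - α₀)]
        _ = _ := by ring
  simp only [hkh] at hbd
  have hIh : Integrable (fun x : ℝ × ℝ × ℝ => kern ε R G₀ G₁ G₂ x *
      h ((α₂ - α₀) * x.1 + (α₃ - α₀) * x.2.1 + (α₁ - α₀) * x.2.2)) volume := by
    refine hI.mul_bdd (c := B) ?_ (ae_of_all _ fun x => hB _)
    exact (mh.comp (by fun_prop)).aestronglyMeasurable
  have hform : ∫ x : ℝ × ℝ × ℝ, kern ε R G₀ G₁ G₂ x *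
      h ((α₂ - α₀) * x.1 + (α₃ - α₀) * x.2.1 + (α₁ - α₀) * x.2.2)
      = (N * |α₂ - α₁|⁻¹) • ∫ p, wk ε R α₀ α₁ α₂ α₃ h g₁ g₂ g₃ p := by
    have h1 : ∫ x : ℝ × ℝ × ℝ, kern ε R G₀ G₁ G₂ x *
        h ((α₂ - α₀) * x.1 + (α₃ - α₀) * x.2.1 + (α₁ - α₀) * x.2.2)
        = ∫ w : ℝ × ℝ × ℝ, kern ε R G₀ G₁ G₂ (w.2.1, w.1, w.2.2) *
          h ((α₂ - α₀) * w.2.1 + (α₃ - α₀) * w.1 + (α₁ - α₀) * w.2.2) :=
      (mp_mid.integral_comp mid_emb (fun x : ℝ × ℝ × ℝ => kern ε R G₀ G₁ G₂ x *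
        h ((α₂ - α₀) * x.1 + (α₃ - α₀) * x.2.1 + (α₁ - α₀) * x.2.2))).symm
    have hI' : Integrable (fun w : ℝ × ℝ × ℝ => kern ε R G₀ G₁ G₂ (w.2.1, w.1, w.2.2) *
        h ((α₂ - α₀) * w.2.1 + (α₃ - α₀) * w.1 + (α₁ - α₀) * w.2.2)) volume :=
      (mp_mid.integrable_comp_emb mid_emb).2 hIh
    rw [h1, Measure.volume_eq_prod, integral_prod _ hI']
    have h2 : ∀ b : ℝ, ∫ q : ℝ × ℝ, kern ε R G₀ G₁ G₂ (q.1, b, q.2) *
        h ((α₂ - α₀) * q.1 + (α₃ - α₀) * b + (α₁ - α₀) * q.2)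
        = (Icc 0 N).indicator
          (fun _ => |α₂ - α₁|⁻¹ • ∫ p, wk ε R α₀ α₁ α₂ α₃ h g₁ g₂ g₃ p) b := by
      intro b
      have h3 : ∀ q : ℝ × ℝ, kern ε R G₀ G₁ G₂ (q.1, b, q.2) *
          h ((α₂ - α₀) * q.1 + (α₃ - α₀) * b + (α₁ - α₀) * q.2) = (Icc 0 N).indicator 1 b *
          wk ε R α₀ α₁ α₂ α₃ h g₁ g₂ g₃
            (α₂ * q.1 + α₁ * q.2 + α₃ * b, 1 * q.1 + 1 * q.2 + b) := by
        intro q
        rw [kern_eq_bk h12 hM hN0 hKK q.1 b q.2, wk, mul_assoc]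
        congr 3
        ring
      simp only [h3]
      rw [integral_const_mul, lin2 α₂ α₁ 1 1 (by simpa using hδ'') (α₃ * b) b]
      by_cases hb : b ∈ Icc 0 N
      · rw [indicator_of_mem hb, indicator_of_mem hb]
        simp
      · rw [indicator_of_notMem hb, indicator_of_notMem hb, zero_mul]
    simp only [h2]
    rw [integral_indicator measurableSet_Icc, setIntegral_const, measureReal_def, v1,
      ENNReal.toReal_ofReal hN0, smul_smul]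
  rw [hform, norm_smul, n0, n1, n2, ENNReal.toReal_mul, ENNReal.toReal_mul, ENNReal.toReal_mul,
    ENNReal.toReal_ofReal (by positivity), ENNReal.toReal_ofReal (by positivity),
    ENNReal.toReal_ofReal (by positivity), Real.norm_of_nonneg (by positivity)] at hbd
  set X := ‖∫ p, wk ε R α₀ α₁ α₂ α₃ h g₁ g₂ g₃ p‖ with hX
  set a₁ := (eLpNorm g₁ 3 volume).toReal
  set a₂ := (eLpNorm g₂ 3 volume).toReal
  set a₃ := (eLpNorm g₃ 3 volume).toReal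
  have ha1 : 0 ≤ a₁ := ENNReal.toReal_nonneg
  have ha2 : 0 ≤ a₂ := ENNReal.toReal_nonneg
  have ha3 : 0 ≤ a₃ := ENNReal.toReal_nonneg
  set ν : ℝ := N ^ ((1 : ℝ) / 3) with hν
  have hν3 : ν ^ 3 = N := by
    rw [hν, ← Real.rpow_natCast, ← Real.rpow_mul hN0]; norm_num
  have e1 : (N / |α₂ - α₁|) ^ ((1 : ℝ) / 3) = ν * (1 / |α₂ - α₁|) ^ ((1 : ℝ) / 3) := by
    rw [hν, ← Real.mul_rpow hN0 (by positivity), mul_one_div]
  have e2 : (N / |α₁ - α₂|) ^ ((1 : ℝ) / 3) = ν * (1 / |α₁ - α₂|) ^ ((1 : ℝ) / 3) := by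
    rw [hν, ← Real.mul_rpow hN0 (by positivity), mul_one_div]
  have e3 : (2 * K / |α₂ - α₃|) ^ ((1 : ℝ) / 3) = ν * ρ ^ ((1 : ℝ) / 3) := by
    rw [hν, ← Real.mul_rpow hN0 (by positivity)]
    congr 1
    rw [hK, hρ]; ring
  rw [e1, e2, e3] at hbd
  set d₁ := (1 / |α₂ - α₁|) ^ ((1 : ℝ) / 3)
  set d₂ := (1 / |α₁ - α₂|) ^ ((1 : ℝ) / 3)
  set d₃ := ρ ^ ((1 : ℝ) / 3)
  have hd1 : 0 ≤ d₁ := by positivity
  have hd2 : 0 ≤ d₂ := by positivity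
  have hd3 : 0 ≤ d₃ := by positivity
  have h5 : N * (|α₂ - α₁|⁻¹ * X) ≤ N * (κ * (C₀ * (d₁ * d₂ * d₃ * (a₁ * a₂ * a₃)))) := by
    calc N * (|α₂ - α₁|⁻¹ * X) = N * |α₂ - α₁|⁻¹ * X := by ring
      _ ≤ κ * (C₀ * (ν * d₁ * a₁ * (ν * d₂ * a₂) * (ν * d₃ * a₃))) := hbd
      _ = ν ^ 3 * (κ * (C₀ * (d₁ * d₂ * d₃ * (a₁ * a₂ * a₃)))) := by ring
      _ = _ := by rw [hν3]
  have h6 := le_of_mul_le_mul_left h5 hNpos
  have h7 : X ≤ |α₂ - α₁| * (κ * (C₀ * (d₁ * d₂ * d₃ * (a₁ * a₂ * a₃)))) := by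
    have := mul_le_mul_of_nonneg_left h6 hδ.le
    rwa [← mul_assoc, mul_inv_cancel₀ hδ.ne', one_mul] at this
  calc X ≤ _ := h7
    _ = _ := by ring

end Vale.Agent.P141.R2.H106
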