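import Vale.Agent.P141.R2.H106.Nil

/-!
# Dual functions of the third Gowers norm at scale `L` are structured at scale `L`
-/

namespace Vale.Agent.P141.R2.H106

open MeasureTheory Set Filter Topology
open scoped ENNReal

/-- the product in the dual function -/
noncomputable def dprod (g : Fin 7 → ℝ → ℂ) (x : ℝ) (s : ℝ × ℝ × ℝ) : ℂ :=
  g 0 (x + s.1) * g 1 (x + s.2.1) * g 2 (x + s.2.2) * g 3 (x + s.1 + s.2.1) *
    g 4 (x + s.1 + s.2.2) * g 5 (x + s.2.1 + s.2.2) * g 6 (x + s.1 + s.2.1 + s.2.2)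

/-- the dual function at scale `L` of seven functions -/
noncomputable def dualFn (L : ℝ) (g : Fin 7 → ℝ → ℂ) (x : ℝ) : ℂ :=
  (((2 * L) ^ 3)⁻¹ : ℝ) • ∫ s in Icc (-L) L ×ˢ Icc (-L) L ×ˢ Icc (-L) L, dprod g x s

theorem box_meas (L : ℝ) : MeasurableSet (Icc (-L) L ×ˢ Icc (-L) L ×ˢ Icc (-L) L) :=
  measurableSet_Icc.prod (measurableSet_Icc.prod measurableSet_Icc)

theorem box_vol {L : ℝ} (hL : 0 ≤ L) :
    volume (Icc (-L) L ×ˢ Icc (-L) L ×ˢ Icc (-L) L) = ENNReal.ofReal ((2 * L) ^ 3) := by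
  rw [Measure.volume_eq_prod, Measure.prod_prod, Measure.volume_eq_prod, Measure.prod_prod,
    Real.volume_Icc, ← ENNReal.ofReal_mul (by linarith), ← ENNReal.ofReal_mul (by linarith)]
  congr 1
  ring

theorem dprod_meas {g : Fin 7 → ℝ → ℂ} (hg : ∀ i, Measurable (g i)) :
    Measurable fun p : ℝ × ℝ × ℝ × ℝ => dprod g p.1 p.2 := by
  unfold dprod
  refine ((((((Measurable.mul ?_ ?_).mul ?_).mul ?_).mul ?_).mul ?_).mul ?_)
  all_goals exact (hg _).comp (by fun_prop)

theorem dprod_norm {g : Fin 7 → ℝ → ℂ} (hb : ∀ i x, ‖g i x‖ ≤ 1) (x : ℝ) (s : ℝ × ℝ × ℝ) :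
    ‖dprod g x s‖ ≤ 1 := by
  unfold dprod
  simp only [norm_mul]
  calc _ ≤ (1 : ℝ) * 1 * 1 * 1 * 1 * 1 * 1 := by
        gcongr <;> exact hb _ _
    _ = 1 := by ring

theorem dualFn_norm {L : ℝ} (hL : 0 < L) {g : Fin 7 → ℝ → ℂ} (hb : ∀ i x, ‖g i x‖ ≤ 1) (x : ℝ) :
    ‖dualFn L g x‖ ≤ 1 := by
  unfold dualFn
  rw [norm_smul, Real.norm_of_nonneg (by positivity)]
  have h1 : ‖∫ s in Icc (-L) L ×ˢ Icc (-L) L ×ˢ Icc (-L) L, dprod g x s‖ ≤
      1 * volume.real (Icc (-L) L ×ˢ Icc (-L) L ×ˢ Icc (-L) L) :=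
    norm_setIntegral_le_of_norm_le_const (by rw [box_vol hL.le]; exact ENNReal.ofReal_lt_top)
      (fun s _ => dprod_norm hb x s)
  rw [measureReal_def, box_vol hL.le, ENNReal.toReal_ofReal (by positivity), one_mul] at h1
  calc _ ≤ ((2 * L) ^ 3)⁻¹ * (2 * L) ^ 3 := by gcongr
    _ = 1 := inv_mul_cancel₀ (by positivity)

theorem dualFn_meas (L : ℝ) {g : Fin 7 → ℝ → ℂ} (hg : ∀ i, Measurable (g i)) :
    Measurable (dualFn L g) := by
  unfold dualFn
  have h := ((dprod_meas hg).stronglyMeasurable.integral_prod_right'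
    (ν := volume.restrict (Icc (-L) L ×ˢ Icc (-L) L ×ˢ Icc (-L) L))).measurable
  exact h.const_smul (((2 * L) ^ 3)⁻¹ : ℝ)

theorem dualFn_shift (L : ℝ) (g : Fin 7 → ℝ → ℂ) (y : ℝ) :
    (fun x => dualFn L g (x + y)) = dualFn L fun i u => g i (u + y) := by
  funext x
  unfold dualFn
  congr 2
  funext s
  unfold dprod
  congr 1
  · congr 1
    · congr 1
      · congr 1
        · congr 1
          · congr 1 <;> congr 1 <;> ring
          · congr 1; ring
        · congr 1; ring
      · congr 1; ring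
    · congr 1; ring
  · congr 1; ring

/-- indicator of `|u - a| ≤ L` -/
noncomputable def ind (L u a : ℝ) : ℂ := (Icc (-L) L).indicator 1 (u - a)

theorem ind_norm (L u a : ℝ) : ‖ind L u a‖ ≤ 1 := by
  unfold ind
  by_cases h : u - a ∈ Icc (-L) L
  · rw [indicator_of_mem h]; simp
  · rw [indicator_of_notMem h]; simp

theorem ind_meas (L : ℝ) : Measurable fun p : ℝ × ℝ => ind L p.1 p.2 :=
  (measurable_one.indicator measurableSet_Icc).comp (measurable_fst.sub measurable_snd)

theorem right_inv3 : (volume : Measure (ℝ × ℝ × ℝ)).IsAddRightInvariant := by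
  have : (volume : Measure (ℝ × ℝ)).IsAddRightInvariant := inferInstance
  rw [Measure.volume_eq_prod]
  infer_instance

theorem dual_rep {L c : ℝ} (hL : 0 < L) (hc : 0 ≤ c) {g : Fin 7 → ℝ → ℂ}
    (hg : ∀ i, Measurable (g i)) (hb : ∀ i x, ‖g i x‖ ≤ 1) :
    Rep ((1 + c) ^ 3) (c * L) (dualFn L g) := by
  set D : ℝ := (1 + c) * L with hD
  have hD0 : 0 < D := by positivity
  set X : Set (ℝ × ℝ × ℝ) := Icc (-D) D ×ˢ Icc (-D) D ×ˢ Icc (-D) D with hX
  have hXm : MeasurableSet X := box_meas D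
  have q1 : Measurable fun p : (ℝ × ℝ × ℝ) × ℝ × ℝ => ind L p.1.1 p.2.1 :=
    (ind_meas L).comp ((measurable_fst.comp measurable_fst).prodMk
      (measurable_fst.comp measurable_snd))
  have q2 : Measurable fun p : (ℝ × ℝ × ℝ) × ℝ × ℝ => ind L p.1.2.1 p.2.1 :=
    (ind_meas L).comp ((measurable_fst.comp (measurable_snd.comp measurable_fst)).prodMk
      (measurable_fst.comp measurable_snd))
  have q3 : Measurable fun p : (ℝ × ℝ × ℝ) × ℝ × ℝ => ind L p.1.2.2 p.2.1 :=
    (ind_meas L).comp ((measurable_snd.comp (measurable_snd.comp measurable_fst)).prodMk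
      (measurable_fst.comp measurable_snd))
  refine ⟨ℝ × ℝ × ℝ, inferInstance, ENNReal.ofReal (((2 * L) ^ 3)⁻¹) • volume.restrict X,
    fun p => g 2 (p.2.1 + p.2.2 + p.1.2.2) * ind L p.1.1 p.2.1 * g 6 (p.1.1 + p.1.2.1 + p.1.2.2),
    fun p => g 0 (p.2.1 + p.2.2 + p.1.1) * g 4 (p.2.1 + p.1.1 + p.1.2.2) * ind L p.1.2.1 p.2.1,
    fun p => g 1 (p.2.1 + p.2.2 + p.1.2.1) * g 3 (p.2.1 + p.1.1 + p.1.2.1) *
      g 5 (p.2.2 + p.1.2.1 + p.1.2.2) * ind L p.1.2.2 p.2.1, ?_, ?_, ?_, ?_, ?_, ?_, ?_, ?_⟩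
  · rw [Measure.smul_apply, Measure.restrict_apply_univ, hX, box_vol hD0.le, smul_eq_mul,
      ← ENNReal.ofReal_mul (by positivity)]
    apply ENNReal.ofReal_le_ofReal
    apply le_of_eq
    rw [hD]
    field_simp
  · refine Measurable.mul (Measurable.mul ?_ ?_) ?_
    · exact (hg _).comp (by fun_prop)
    · exact q1
    · exact (hg _).comp (by fun_prop)
  · refine Measurable.mul (Measurable.mul ?_ ?_) ?_
    · exact (hg _).comp (by fun_prop)
    · exact (hg _).comp (by fun_prop)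
    · exact q2
  · refine Measurable.mul (Measurable.mul (Measurable.mul ?_ ?_) ?_) ?_
    · exact (hg _).comp (by fun_prop)
    · exact (hg _).comp (by fun_prop)
    · exact (hg _).comp (by fun_prop)
    · exact q3
  · intro p
    simp only [norm_mul]
    calc _ ≤ (1 : ℝ) * 1 * 1 := by
          gcongr
          · exact hb _ _
          · exact ind_norm _ _ _
          · exact hb _ _
      _ = 1 := by ring
  · intro p
    simp only [norm_mul]
    calc _ ≤ (1 : ℝ) * 1 * 1 := by
          gcongr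
          · exact hb _ _
          · exact hb _ _
          · exact ind_norm _ _ _
      _ = 1 := by ring
  · intro p
    simp only [norm_mul]
    calc _ ≤ (1 : ℝ) * 1 * 1 * 1 := by
          gcongr
          · exact hb _ _
          · exact hb _ _
          · exact hb _ _
          · exact ind_norm _ _ _
      _ = 1 := by ring
  · intro a b e ha hb' he
    rw [integral_smul_measure, ENNReal.toReal_ofReal (by positivity)]
    unfold dualFn
    congr 1
    rw [← integral_indicator (box_meas L)]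
    have := right_inv3
    have h1 := integral_sub_right_eq_self (μ := (volume : Measure (ℝ × ℝ × ℝ)))
      ((Icc (-L) L ×ˢ Icc (-L) L ×ˢ Icc (-L) L).indicator (dprod g (a + b + e))) (a, b, e)
    rw [← h1, ← setIntegral_eq_integral_of_forall_compl_eq_zero (s := X)]
    · refine setIntegral_congr_fun hXm fun u _ => ?_
      simp only []
      by_cases hu : u - (a, b, e) ∈ Icc (-L) L ×ˢ Icc (-L) L ×ˢ Icc (-L) L
      · rw [indicator_of_mem hu]
        have k1 : u.1 - a ∈ Icc (-L) L := hu.1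
        have k2 : u.2.1 - b ∈ Icc (-L) L := hu.2.1
        have k3 : u.2.2 - e ∈ Icc (-L) L := hu.2.2
        unfold ind dprod
        rw [indicator_of_mem k1, indicator_of_mem k2, indicator_of_mem k3]
        simp only [Prod.fst_sub, Prod.snd_sub, Pi.one_apply]
        have e0 : a + b + e + (u.1 - a) = b + e + u.1 := by ring
        have e1 : a + b + e + (u.2.1 - b) = e + a + u.2.1 := by ring
        have e2 : a + b + e + (u.2.2 - e) = a + b + u.2.2 := by ring
        have e3 : b + e + u.1 + (u.2.1 - b) = e + u.1 + u.2.1 := by ring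
        have e4 : b + e + u.1 + (u.2.2 - e) = b + u.1 + u.2.2 := by ring
        have e5 : e + a + u.2.1 + (u.2.2 - e) = a + u.2.1 + u.2.2 := by ring
        have e6 : e + u.1 + u.2.1 + (u.2.2 - e) = u.1 + u.2.1 + u.2.2 := by ring
        rw [e0, e1, e2, e3, e4, e5, e6]
        ring
      · rw [indicator_of_notMem hu]
        have k : u.1 - a ∉ Icc (-L) L ∨ u.2.1 - b ∉ Icc (-L) L ∨ u.2.2 - e ∉ Icc (-L) L := by
          by_contra hcon
          push Not at hcon
          exact hu ⟨hcon.1, hcon.2.1, hcon.2.2⟩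
        unfold ind
        rcases k with k | k | k
        · rw [indicator_of_notMem k]; ring
        · rw [indicator_of_notMem k]; ring
        · rw [indicator_of_notMem k]; ring
    · intro u hu
      apply indicator_of_notMem
      intro hcon
      apply hu
      have k1 : u.1 - a ∈ Icc (-L) L := hcon.1
      have k2 : u.2.1 - b ∈ Icc (-L) L := hcon.2.1
      have k3 : u.2.2 - e ∈ Icc (-L) L := hcon.2.2
      have ha' := abs_le.1 ha
      have hb'' := abs_le.1 hb'
      have he' := abs_le.1 he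
      have hDe : D = L + c * L := by rw [hD]; ring
      exact ⟨⟨by linarith [k1.1, ha'.1], by linarith [k1.2, ha'.2]⟩,
        ⟨by linarith [k2.1, hb''.1], by linarith [k2.2, hb''.2]⟩,
        ⟨by linarith [k3.1, he'.1], by linarith [k3.2, he'.2]⟩⟩

theorem dual_str {L c : ℝ} (hL : 0 < L) (hc : 0 ≤ c) {g : Fin 7 → ℝ → ℂ}
    (hg : ∀ i, Measurable (g i)) (hb : ∀ i x, ‖g i x‖ ≤ 1) :
    Str ((1 + c) ^ 3) (c * L) (dualFn L g) := by
  refine ⟨dualFn_meas L hg, ⟨1, dualFn_norm hL hb⟩, fun y => ?_⟩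
  rw [dualFn_shift]
  exact dual_rep hL hc (fun i => (hg i).comp (measurable_id.add_const y)) fun i x => hb i _

end Vale.Agent.P141.R2.H106
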