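import Vale.Agent.P141.R2.H131.Hardy
import Vale.Agent.P141.R2.H106.Form

/-!
# The far part: `|t|` at least a multiple of the distance to a finite set
-/

namespace Vale.Agent.P141.R2.H106

open MeasureTheory Set Filter Topology
open scoped ENNReal
open Vale.Agent.P141.H97

/-- the positive form on a region -/
noncomputable def PF (A : Set (ℝ × ℝ)) (α₁ α₂ α₃ : ℝ) (g₁ g₂ g₃ : ℝ → ℂ) : ℝ≥0∞ :=
  ∫⁻ p, A.indicator (fun p : ℝ × ℝ => ENNReal.ofReal |p.2|⁻¹ * (‖g₁ (p.1 - α₁ * p.2)‖ₑ *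
    ‖g₂ (p.1 - α₂ * p.2)‖ₑ * ‖g₃ (p.1 - α₃ * p.2)‖ₑ)) p

/-- the region of one point -/
def R1 (η α s : ℝ) : Set (ℝ × ℝ) := {p | η * |p.1 - α * p.2 - s| ≤ |p.2|}

/-- the region of a finite set -/
def RE (E : Finset ℝ) (η α : ℝ) : Set (ℝ × ℝ) := {p | ∃ s ∈ E, p ∈ R1 η α s}

theorem R1_meas (η α s : ℝ) : MeasurableSet (R1 η α s) :=
  measurableSet_le (by fun_prop) (by fun_prop)

theorem RE_meas (E : Finset ℝ) (η α : ℝ) : MeasurableSet (RE E η α) := by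
  have : RE E η α = ⋃ s ∈ E, R1 η α s := by
    ext p
    simp [RE]
  rw [this]
  exact Finset.measurableSet_biUnion _ fun s _ => R1_meas η α s

theorem pf_fun_meas {α₁ α₂ α₃ : ℝ} {g₁ g₂ g₃ : ℝ → ℂ} (m₁ : Measurable g₁) (m₂ : Measurable g₂)
    (m₃ : Measurable g₃) : Measurable (fun p : ℝ × ℝ => ENNReal.ofReal |p.2|⁻¹ *
      (‖g₁ (p.1 - α₁ * p.2)‖ₑ * ‖g₂ (p.1 - α₂ * p.2)‖ₑ * ‖g₃ (p.1 - α₃ * p.2)‖ₑ)) := by
  have k : ∀ (g : ℝ → ℂ) (a : ℝ), Measurable g →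
      Measurable fun p : ℝ × ℝ => ‖g (p.1 - a * p.2)‖ₑ := fun g a hg =>
    (hg.comp (by fun_prop : Measurable fun p : ℝ × ℝ => p.1 - a * p.2)).enorm
  have k0 : Measurable fun p : ℝ × ℝ => ENNReal.ofReal |p.2|⁻¹ := by fun_prop
  exact k0.mul (((k g₁ α₁ m₁).mul (k g₂ α₂ m₂)).mul (k g₃ α₃ m₃))

theorem shift_norm {g : ℝ → ℂ} (hg : Measurable g) (s : ℝ) (p : ℝ≥0∞) :
    eLpNorm (fun v => g (v + s)) p volume = eLpNorm g p volume := by
  have := eLpNorm_shift hg (-s) p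
  simpa using this

/-- one point -/
theorem far_one {η α₁ α₂ α₃ : ℝ} (hη : 0 < η) (h12 : α₁ ≠ α₂) (h13 : α₁ ≠ α₃) (h23 : α₂ ≠ α₃) :
    ∃ C : ℝ≥0∞, C < ∞ ∧ ∀ s : ℝ, ∀ g₁ g₂ g₃ : ℝ → ℂ, Measurable g₁ → Measurable g₂ →
      Measurable g₃ → PF (R1 η α₂ s) α₁ α₂ α₃ g₁ g₂ g₃ ≤
        C * (eLpNorm g₁ 3 volume * eLpNorm g₂ 3 volume * eLpNorm g₃ 3 volume) := by
  obtain ⟨C, hC, H⟩ := H131.hardy h12 h13 h23 α₂ hη
  refine ⟨C, hC, fun s g₁ g₂ g₃ m₁ m₂ m₃ => ?_⟩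
  unfold PF
  refine le_trans (lintegral_mono fun p => ?_) (H s g₁ g₂ g₃ m₁ m₂ m₃)
  by_cases hp : η * |p.1 - α₂ * p.2 - s| ≤ |p.2|
  · rw [indicator_of_mem (show p ∈ R1 η α₂ s from hp),
      indicator_of_mem (show p ∈ H131.reg η α₂ s from hp)]
    rcases eq_or_ne p.2 0 with h0 | h0
    · simp [h0]
    · have h1 : ‖p.2‖ₑ⁻¹ = ENNReal.ofReal |p.2|⁻¹ := by
        rw [ENNReal.ofReal_inv_of_pos (abs_pos.2 h0), Real.enorm_eq_ofReal_abs]
      rw [h1, mul_comm]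
  · rw [indicator_of_notMem (show p ∉ R1 η α₂ s from hp)]
    exact bot_le

/-- Hoelder for two terms -/
theorem two_hold {a₁ a₂ a₃ b₁ b₂ b₃ A₁ A₂ A₃ : ℝ≥0∞}
    (h₁ : a₁ ^ (3 : ℝ) + b₁ ^ (3 : ℝ) ≤ A₁ ^ (3 : ℝ))
    (h₂ : a₂ ^ (3 : ℝ) + b₂ ^ (3 : ℝ) ≤ A₂ ^ (3 : ℝ))
    (h₃ : a₃ ^ (3 : ℝ) + b₃ ^ (3 : ℝ) ≤ A₃ ^ (3 : ℝ)) :
    a₁ * a₂ * a₃ + b₁ * b₂ * b₃ ≤ A₁ * A₂ * A₃ := by
  have key := ENNReal.lintegral_prod_norm_pow_le (μ := (Measure.count : Measure Bool))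
    (Finset.univ : Finset (Fin 3))
    (f := fun i => ![fun x : Bool => bif x then a₁ ^ (3 : ℝ) else b₁ ^ (3 : ℝ),
      fun x : Bool => bif x then a₂ ^ (3 : ℝ) else b₂ ^ (3 : ℝ),
      fun x : Bool => bif x then a₃ ^ (3 : ℝ) else b₃ ^ (3 : ℝ)] i) (p := fun _ => (1 / 3 : ℝ))
    (by
      intro i _
      exact (measurable_of_countable _).aemeasurable)
    (by simp) (by intro i _; norm_num)
  simp only [Fin.prod_univ_three, lintegral_count, tsum_bool] at key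
  have h : ∀ a : ℝ≥0∞, (a ^ (3 : ℝ)) ^ (1 / 3 : ℝ) = a := by
    intro a
    rw [← ENNReal.rpow_mul]
    norm_num
  have key' : (b₁ ^ (3 : ℝ)) ^ (1 / 3 : ℝ) * (b₂ ^ (3 : ℝ)) ^ (1 / 3 : ℝ) *
      (b₃ ^ (3 : ℝ)) ^ (1 / 3 : ℝ) + (a₁ ^ (3 : ℝ)) ^ (1 / 3 : ℝ) *
      (a₂ ^ (3 : ℝ)) ^ (1 / 3 : ℝ) * (a₃ ^ (3 : ℝ)) ^ (1 / 3 : ℝ) ≤
      (b₁ ^ (3 : ℝ) + a₁ ^ (3 : ℝ)) ^ (1 / 3 : ℝ) * (b₂ ^ (3 : ℝ) + a₂ ^ (3 : ℝ)) ^ (1 / 3 : ℝ) *
      (b₃ ^ (3 : ℝ) + a₃ ^ (3 : ℝ)) ^ (1 / 3 : ℝ) := key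
  rw [h, h, h, h, h, h] at key'
  rw [add_comm]
  refine key'.trans ?_
  have q : ∀ {a b A : ℝ≥0∞}, a ^ (3 : ℝ) + b ^ (3 : ℝ) ≤ A ^ (3 : ℝ) →
      (b ^ (3 : ℝ) + a ^ (3 : ℝ)) ^ (1 / 3 : ℝ) ≤ A := by
    intro a b A hA
    rw [add_comm, ← h A]
    exact ENNReal.rpow_le_rpow hA (by norm_num)
  exact mul_le_mul' (mul_le_mul' (q h₁) (q h₂)) (q h₃)

/-- restriction to a half-line -/
noncomputable def up (s : ℝ) (g : ℝ → ℂ) : ℝ → ℂ := (Ioi s).indicator g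

noncomputable def dn (s : ℝ) (g : ℝ → ℂ) : ℝ → ℂ := (Iio s).indicator g

theorem up_meas {g : ℝ → ℂ} (hg : Measurable g) (s : ℝ) : Measurable (up s g) :=
  hg.indicator measurableSet_Ioi

theorem dn_meas {g : ℝ → ℂ} (hg : Measurable g) (s : ℝ) : Measurable (dn s g) :=
  hg.indicator measurableSet_Iio

theorem up_dn {g : ℝ → ℂ} (hg : Measurable g) (s : ℝ) :
    (eLpNorm (up s g) 3 volume) ^ (3 : ℝ) + (eLpNorm (dn s g) 3 volume) ^ (3 : ℝ) ≤
      (eLpNorm g 3 volume) ^ (3 : ℝ) := by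
  rw [elp3, elp3, elp3, ← lintegral_add_left (((up_meas hg s).enorm).pow_const _)]
  apply lintegral_mono
  intro x
  unfold up dn
  rcases lt_trichotomy x s with h | h | h
  · simp only [indicator_of_notMem (show x ∉ Ioi s from not_lt.2 h.le),
      indicator_of_mem (show x ∈ Iio s from h)]
    simp
  · simp only [indicator_of_notMem (show x ∉ Ioi s from not_lt.2 h.le),
      indicator_of_notMem (show x ∉ Iio s from not_lt.2 h.ge)]
    simp
  · simp only [indicator_of_mem (show x ∈ Ioi s from h),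
      indicator_of_notMem (show x ∉ Iio s from not_lt.2 h.le)]
    simp

/-- a median -/
theorem exists_median (n : ℕ) (E : Finset ℝ) (hE : E.Nonempty) (hc : E.card < 2 ^ (n + 1)) :
    ∃ s ∈ E, (E.filter (· < s)).card < 2 ^ n ∧ (E.filter (s < ·)).card < 2 ^ n := by
  classical
  set S : Finset ℝ := E.filter (fun s => (E.filter (· < s)).card < 2 ^ n) with hS
  have hSn : S.Nonempty := by
    refine ⟨E.min' hE, ?_⟩
    rw [hS, Finset.mem_filter]
    refine ⟨E.min'_mem hE, ?_⟩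
    have h0 : E.filter (· < E.min' hE) = ∅ := by
      rw [Finset.filter_eq_empty_iff]
      intro x hx
      exact not_lt.2 (E.min'_le x hx)
    rw [h0]
    simp
  set s := S.max' hSn with hs
  have hsS : s ∈ S := S.max'_mem hSn
  rw [hS, Finset.mem_filter] at hsS
  refine ⟨s, hsS.1, hsS.2, ?_⟩
  by_contra hcon
  push Not at hcon
  have hne : (E.filter (s < ·)).Nonempty := by
    rw [← Finset.card_pos]
    exact lt_of_lt_of_le (by positivity) hcon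
  set s' := (E.filter (s < ·)).min' hne with hs'
  have hs'm : s' ∈ E.filter (s < ·) := Finset.min'_mem _ hne
  rw [Finset.mem_filter] at hs'm
  have h1 : s' ∉ S := fun hc => absurd (S.le_max' s' hc) (not_le.2 hs'm.2)
  have h2 : 2 ^ n ≤ (E.filter (· < s')).card := by
    by_contra h3
    push Not at h3
    exact h1 (by rw [hS, Finset.mem_filter]; exact ⟨hs'm.1, h3⟩)
  have h4 : (E.filter (· < s')) ⊆ E.filter (fun x => ¬ s < x) := by
    intro x hx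
    rw [Finset.mem_filter] at hx ⊢
    refine ⟨hx.1, fun hsx => ?_⟩
    exact absurd ((E.filter (s < ·)).min'_le x (by
      rw [Finset.mem_filter]; exact ⟨hx.1, hsx⟩)) (not_le.2 hx.2)
  have h5 := Finset.card_le_card h4
  have h6 := Finset.card_filter_add_card_filter_not (s := E) (fun x => s < x)
  rw [pow_succ] at hc
  omega

/-- **the far part for a finite set** -/
theorem far {η α₁ α₂ α₃ : ℝ} (hη : 0 < η) (h12 : α₁ ≠ α₂) (h13 : α₁ ≠ α₃) (h23 : α₂ ≠ α₃)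
    (k1 : |α₂ - α₁| * η ≤ 1) (k3 : |α₂ - α₃| * η ≤ 1) :
    ∃ C : ℝ≥0∞, C < ∞ ∧ ∀ n : ℕ, ∀ E : Finset ℝ, E.card < 2 ^ n → ∀ g₁ g₂ g₃ : ℝ → ℂ,
      Measurable g₁ → Measurable g₂ → Measurable g₃ → PF (RE E η α₂) α₁ α₂ α₃ g₁ g₂ g₃ ≤
        n * C * (eLpNorm g₁ 3 volume * eLpNorm g₂ 3 volume * eLpNorm g₃ 3 volume) := by
  classical
  obtain ⟨C, hC, H⟩ := far_one hη h12 h13 h23
  refine ⟨C, hC, fun n => ?_⟩
  induction n with
  | zero =>
    intro E hE g₁ g₂ g₃ _ _ _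
    have : E = ∅ := by
      rw [← Finset.card_eq_zero]
      simpa using hE
    subst this
    have h0 : RE (∅ : Finset ℝ) η α₂ = ∅ := by
      ext p
      simp [RE]
    unfold PF
    rw [h0]
    simp
  | succ n ih =>
    intro E hE g₁ g₂ g₃ m₁ m₂ m₃
    rcases E.eq_empty_or_nonempty with h0 | hne
    · subst h0
      have h0 : RE (∅ : Finset ℝ) η α₂ = ∅ := by
        ext p
        simp [RE]
      unfold PF
      rw [h0]
      simp
    obtain ⟨s, hs, c1, c2⟩ := exists_median n E hne hE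
    have u1 := ih _ c2 (up s g₁) (up s g₂) (up s g₃) (up_meas m₁ s) (up_meas m₂ s) (up_meas m₃ s)
    have u2 := ih _ c1 (dn s g₁) (dn s g₂) (dn s g₃) (dn_meas m₁ s) (dn_meas m₂ s) (dn_meas m₃ s)
    have u0 := H s g₁ g₂ g₃ m₁ m₂ m₃
    have hsplit : PF (RE E η α₂) α₁ α₂ α₃ g₁ g₂ g₃ ≤ PF (R1 η α₂ s) α₁ α₂ α₃ g₁ g₂ g₃ +
        (PF (RE (E.filter (s < ·)) η α₂) α₁ α₂ α₃ (up s g₁) (up s g₂) (up s g₃) +
        PF (RE (E.filter (· < s)) η α₂) α₁ α₂ α₃ (dn s g₁) (dn s g₂) (dn s g₃)) := by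
      unfold PF
      have mm1 := ((pf_fun_meas (α₁ := α₁) (α₂ := α₂) (α₃ := α₃) m₁ m₂ m₃).indicator
        (R1_meas η α₂ s))
      have mm2 := ((pf_fun_meas (α₁ := α₁) (α₂ := α₂) (α₃ := α₃)
        (up_meas m₁ s) (up_meas m₂ s) (up_meas m₃ s)).indicator
        (RE_meas (E.filter (s < ·)) η α₂))
      rw [← lintegral_add_left mm2, ← lintegral_add_left mm1]
      apply lintegral_mono
      intro p
      beta_reduce
      by_cases hp : p ∈ RE E η α₂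
      swap
      · rw [indicator_of_notMem hp]; exact bot_le
      rw [indicator_of_mem hp]
      by_cases h1 : p ∈ R1 η α₂ s
      · rw [indicator_of_mem h1]
        exact le_self_add
      have h1' : |p.2| < η * |p.1 - α₂ * p.2 - s| := not_le.1 h1
      obtain ⟨s', hs', hp'⟩ := hp
      have hp'' : η * |p.1 - α₂ * p.2 - s'| ≤ |p.2| := hp'
      set u := p.1 - α₂ * p.2 with hu
      have hlt : |u - s'| < |u - s| := by
        have : η * |u - s'| < η * |u - s| := lt_of_le_of_lt hp'' h1'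
        exact lt_of_mul_lt_mul_left this hη.le
      have hmove : ∀ a, |α₂ - a| * η ≤ 1 → |(α₂ - a) * p.2| < |u - s| := by
        intro a ha
        rw [abs_mul]
        have hus : 0 < |u - s| := lt_of_le_of_lt (abs_nonneg _) hlt
        rcases eq_or_lt_of_le (abs_nonneg (α₂ - a)) with h0 | h0
        · rw [← h0, zero_mul]; exact hus
        · calc |α₂ - a| * |p.2| < |α₂ - a| * (η * |u - s|) := mul_lt_mul_of_pos_left h1' h0
            _ = (|α₂ - a| * η) * |u - s| := by ring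
            _ ≤ 1 * |u - s| := by gcongr
            _ = _ := one_mul _
      have v1 := abs_lt.1 (hmove α₁ k1)
      have v3 := abs_lt.1 (hmove α₃ k3)
      have e1 : p.1 - α₁ * p.2 = u + (α₂ - α₁) * p.2 := by rw [hu]; ring
      have e3 : p.1 - α₃ * p.2 = u + (α₂ - α₃) * p.2 := by rw [hu]; ring
      rcases lt_trichotomy s u with h | h | h
      · -- above
        have hus : |u - s| = u - s := abs_of_pos (by linarith)
        rw [hus] at hlt v1 v3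
        have hs'2 : s < s' := by
          by_contra hcon
          push Not at hcon
          rw [abs_of_nonneg (by linarith)] at hlt
          linarith
        have hmem : p ∈ RE (E.filter (s < ·)) η α₂ :=
          ⟨s', Finset.mem_filter.2 ⟨hs', hs'2⟩, hp'⟩
        have g1 : up s g₁ (p.1 - α₁ * p.2) = g₁ (p.1 - α₁ * p.2) :=
          indicator_of_mem (show p.1 - α₁ * p.2 ∈ Ioi s by rw [e1]; show s < _; linarith) _
        have g2 : up s g₂ u = g₂ u := indicator_of_mem (show u ∈ Ioi s from h) _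
        have g3 : up s g₃ (p.1 - α₃ * p.2) = g₃ (p.1 - α₃ * p.2) :=
          indicator_of_mem (show p.1 - α₃ * p.2 ∈ Ioi s by rw [e3]; show s < _; linarith) _
        rw [indicator_of_mem hmem (fun p : ℝ × ℝ => ENNReal.ofReal |p.2|⁻¹ *
          (‖up s g₁ (p.1 - α₁ * p.2)‖ₑ * ‖up s g₂ (p.1 - α₂ * p.2)‖ₑ *
            ‖up s g₃ (p.1 - α₃ * p.2)‖ₑ)), g1, ← hu, g2, g3]
        exact le_add_left le_self_add
      · exfalso
        rw [← h, sub_self, abs_zero] at hlt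
        exact absurd hlt (not_lt.2 (abs_nonneg _))
      · -- below
        have hus : |u - s| = s - u := by rw [abs_sub_comm]; exact abs_of_pos (by linarith)
        rw [hus] at hlt v1 v3
        have hs'2 : s' < s := by
          by_contra hcon
          push Not at hcon
          rw [abs_of_nonpos (by linarith)] at hlt
          linarith
        have hmem : p ∈ RE (E.filter (· < s)) η α₂ :=
          ⟨s', Finset.mem_filter.2 ⟨hs', hs'2⟩, hp'⟩
        have g1 : dn s g₁ (p.1 - α₁ * p.2) = g₁ (p.1 - α₁ * p.2) :=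
          indicator_of_mem (show p.1 - α₁ * p.2 ∈ Iio s by rw [e1]; show _ < s; linarith) _
        have g2 : dn s g₂ u = g₂ u := indicator_of_mem (show u ∈ Iio s from h) _
        have g3 : dn s g₃ (p.1 - α₃ * p.2) = g₃ (p.1 - α₃ * p.2) :=
          indicator_of_mem (show p.1 - α₃ * p.2 ∈ Iio s by rw [e3]; show _ < s; linarith) _
        rw [indicator_of_mem hmem (fun p : ℝ × ℝ => ENNReal.ofReal |p.2|⁻¹ *
          (‖dn s g₁ (p.1 - α₁ * p.2)‖ₑ * ‖dn s g₂ (p.1 - α₂ * p.2)‖ₑ *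
            ‖dn s g₃ (p.1 - α₃ * p.2)‖ₑ)), g1, ← hu, g2, g3]
        exact le_add_left le_add_self
    have ht := two_hold (up_dn m₁ s) (up_dn m₂ s) (up_dn m₃ s)
    calc PF (RE E η α₂) α₁ α₂ α₃ g₁ g₂ g₃
        ≤ C * (eLpNorm g₁ 3 volume * eLpNorm g₂ 3 volume * eLpNorm g₃ 3 volume) +
          (n * C * (eLpNorm (up s g₁) 3 volume * eLpNorm (up s g₂) 3 volume *
            eLpNorm (up s g₃) 3 volume) +
          n * C * (eLpNorm (dn s g₁) 3 volume * eLpNorm (dn s g₂) 3 volume *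
            eLpNorm (dn s g₃) 3 volume)) := hsplit.trans (add_le_add u0 (add_le_add u1 u2))
      _ = C * (eLpNorm g₁ 3 volume * eLpNorm g₂ 3 volume * eLpNorm g₃ 3 volume) +
          n * C * (eLpNorm (up s g₁) 3 volume * eLpNorm (up s g₂) 3 volume *
            eLpNorm (up s g₃) 3 volume + eLpNorm (dn s g₁) 3 volume *
            eLpNorm (dn s g₂) 3 volume * eLpNorm (dn s g₃) 3 volume) := by ring
      _ ≤ C * (eLpNorm g₁ 3 volume * eLpNorm g₂ 3 volume * eLpNorm g₃ 3 volume) +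
          n * C * (eLpNorm g₁ 3 volume * eLpNorm g₂ 3 volume * eLpNorm g₃ 3 volume) := by
          gcongr
      _ = _ := by push_cast; ring

end Vale.Agent.P141.R2.H106
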