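import Vale.Agent.P141.R2.H106.NearT

/-!
# The near part for a general scale function
-/

namespace Vale.Agent.P141.R2.H106

open MeasureTheory Set Filter Topology
open scoped ENNReal
open Vale.Agent.P141.H97

/-- scale functions -/
structure Sc (d : ℝ → ℝ) : Prop where
  nonneg : ∀ x, 0 ≤ d x
  lip : ∀ x y, d x ≤ d y + |x - y|
  ae : ∀ᵐ x : ℝ, 0 < d x

theorem Sc.meas {d : ℝ → ℝ} (sc : Sc d) : Measurable d := by
  have : LipschitzWith 1 d := LipschitzWith.of_dist_le_mul fun x y => by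
    rw [Real.dist_eq, Real.dist_eq, NNReal.coe_one, one_mul, abs_sub_le_iff]
    have h1 := sc.lip x y
    have h2 := sc.lip y x
    rw [abs_sub_comm] at h2
    exact ⟨by linarith, by linarith⟩
  exact this.continuous.measurable

namespace G

/-- the measure `dy / d(y)` -/
noncomputable def nu (d : ℝ → ℝ) : Measure ℝ :=
  volume.withDensity fun y => ENNReal.ofReal (d y)⁻¹

theorem nu_sfinite (d : ℝ → ℝ) : SFinite (nu d) := by unfold nu; infer_instance

theorem nu_ac (d : ℝ → ℝ) : nu d ≪ volume := withDensity_absolutelyContinuous _ _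

/-- the set of centres of the windows that contain `u` -/
def Aw (d : ℝ → ℝ) (l u : ℝ) : Set ℝ := {y | |u - y| ≤ l * d y}

theorem Aw_meas {d : ℝ → ℝ} (sc : Sc d) (l u : ℝ) : MeasurableSet (Aw d l u) :=
  measurableSet_le (by fun_prop) (sc.meas.const_mul l)

theorem nu_le {d : ℝ → ℝ} (sc : Sc d) {l u : ℝ} (hl0 : 0 ≤ l) (hl : l ≤ 1 / 2) (hu : 0 < d u) :
    nu d (Aw d l u) ≤ 4 := by
  have h1 : nu d (Aw d l u) = ∫⁻ y in Aw d l u, ENNReal.ofReal (d y)⁻¹ :=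
    withDensity_apply _ (Aw_meas sc l u)
  rw [h1]
  have hA : ∀ y ∈ Aw d l u, (d y)⁻¹ ≤ 2 / d u ∧ y ∈ Icc (u - 2 * l * d u)
      (u + 2 * l * d u) := by
    intro y hy
    have hy' : |u - y| ≤ l * d y := hy
    have h2 := sc.lip u y
    have h3 := sc.lip y u
    rw [abs_sub_comm] at h3
    have h0 := sc.nonneg y
    have h4 : l * d y ≤ 1 / 2 * d y := by gcongr
    have h5 : d u ≤ 2 * d y := by linarith
    have h6 : d y ≤ 2 * d u := by linarith
    have h7 : 0 < d y := by linarith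
    refine ⟨?_, ?_⟩
    · rw [inv_eq_one_div, div_le_div_iff₀ h7 hu]
      linarith
    · have h8 : |u - y| ≤ 2 * l * d u := by
        calc |u - y| ≤ l * d y := hy'
          _ ≤ l * (2 * d u) := by gcongr
          _ = _ := by ring
      have h9 := abs_le.1 h8
      exact ⟨by linarith [h9.2], by linarith [h9.1]⟩
  calc ∫⁻ y in Aw d l u, ENNReal.ofReal (d y)⁻¹
      ≤ ∫⁻ y in Aw d l u, ENNReal.ofReal (2 / d u) :=
        setLIntegral_mono measurable_const fun y hy => ENNReal.ofReal_le_ofReal (hA y hy).1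
    _ = ENNReal.ofReal (2 / d u) * volume (Aw d l u) := by rw [setLIntegral_const]
    _ ≤ ENNReal.ofReal (2 / d u) * volume (Icc (u - 2 * l * d u) (u + 2 * l * d u)) := by
        gcongr
        exact fun y hy => (hA y hy).2
    _ = ENNReal.ofReal (8 * l) := by
        rw [Real.volume_Icc, ← ENNReal.ofReal_mul (by positivity)]
        congr 1
        field_simp
        ring
    _ ≤ ENNReal.ofReal 4 := ENNReal.ofReal_le_ofReal (by linarith)
    _ = 4 := by norm_num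

theorem nu_ge {d : ℝ → ℝ} (sc : Sc d) {l u : ℝ} (hl0 : 0 < l) (hl : l ≤ 1 / 2) (hu : 0 < d u) :
    ENNReal.ofReal (l / 2) ≤ nu d (Aw d l u) := by
  have h1 : nu d (Icc (u - l / 2 * d u) (u + l / 2 * d u)) =
      ∫⁻ y in Icc (u - l / 2 * d u) (u + l / 2 * d u), ENNReal.ofReal (d y)⁻¹ :=
    withDensity_apply _ measurableSet_Icc
  have hA : ∀ y ∈ Icc (u - l / 2 * d u) (u + l / 2 * d u),
      (2 * d u)⁻¹ ≤ (d y)⁻¹ ∧ y ∈ Aw d l u := by
    intro y hy
    have h8 : |u - y| ≤ l / 2 * d u := by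
      rw [abs_le]
      exact ⟨by linarith [hy.2], by linarith [hy.1]⟩
    have h2 := sc.lip u y
    have h3 := sc.lip y u
    rw [abs_sub_comm] at h3
    have h4 : l / 2 * d u ≤ 1 / 4 * d u := by
      have : l / 2 ≤ 1 / 4 := by linarith
      gcongr
    have h5 : d u ≤ 2 * d y := by linarith
    have h6 : d y ≤ 2 * d u := by linarith
    have h7 : 0 < d y := by linarith
    refine ⟨?_, ?_⟩
    · exact inv_anti₀ h7 h6
    · show |u - y| ≤ l * d y
      calc |u - y| ≤ l / 2 * d u := h8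
        _ ≤ l / 2 * (2 * d y) := by gcongr
        _ = _ := by ring
  calc ENNReal.ofReal (l / 2)
      = ENNReal.ofReal (2 * d u)⁻¹ *
          volume (Icc (u - l / 2 * d u) (u + l / 2 * d u)) := by
        rw [Real.volume_Icc, ← ENNReal.ofReal_mul (by positivity)]
        congr 1
        field_simp
        ring
    _ = ∫⁻ y in Icc (u - l / 2 * d u) (u + l / 2 * d u), ENNReal.ofReal (2 * d u)⁻¹ := by
        rw [setLIntegral_const]
    _ ≤ ∫⁻ y in Icc (u - l / 2 * d u) (u + l / 2 * d u), ENNReal.ofReal (d y)⁻¹ :=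
        setLIntegral_mono ((sc.meas.inv).ennreal_ofReal)
          fun y hy => ENNReal.ofReal_le_ofReal (hA y hy).1
    _ = nu d (Icc (u - l / 2 * d u) (u + l / 2 * d u)) := h1.symm
    _ ≤ nu d (Aw d l u) := measure_mono fun y hy => (hA y hy).2

theorem lcv_meas2 {d : ℝ → ℝ} (sc : Sc d) (D : ℝ) {g : ℝ → ℂ} (hg : Measurable g) :
    Measurable fun p : ℝ × ℝ => lc (D * d p.1) g p.1 p.2 := by
  have h : (fun p : ℝ × ℝ => lc (D * d p.1) g p.1 p.2) =
      {p : ℝ × ℝ | |p.2| ≤ D * d p.1}.indicator fun p => g (p.2 + p.1) := by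
    funext p
    by_cases hp : |p.2| ≤ D * d p.1
    · rw [indicator_of_mem (show p ∈ {p : ℝ × ℝ | |p.2| ≤ D * d p.1} from hp), lc_of_abs hp]
    · rw [indicator_of_notMem (show p ∉ {p : ℝ × ℝ | |p.2| ≤ D * d p.1} from hp),
        lc_of_gt (not_le.1 hp)]
  rw [h]
  refine Measurable.indicator (hg.comp (by fun_prop)) ?_
  exact measurableSet_le (by fun_prop) ((sc.meas.comp measurable_fst).const_mul D)

theorem lcv_cube_meas {d : ℝ → ℝ} (sc : Sc d) (D : ℝ) {g : ℝ → ℂ} (hg : Measurable g) :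
    Measurable fun y => (eLpNorm (lc (D * d y) g y) 3 volume) ^ (3 : ℝ) := by
  simp only [elp3]
  exact ((lcv_meas2 sc D hg).enorm.pow_const _).lintegral_prod_right'

theorem lcv_cube {d : ℝ → ℝ} (sc : Sc d) {D : ℝ} (hD0 : 0 ≤ D) (hD : D ≤ 1 / 2)
    {g : ℝ → ℂ} (hg : Measurable g) :
    ∫⁻ y, (eLpNorm (lc (D * d y) g y) 3 volume) ^ (3 : ℝ) ∂(nu d) ≤
      4 * (eLpNorm g 3 volume) ^ (3 : ℝ) := by
  simp only [elp3]
  set Φ : ℝ → ℝ → ℝ≥0∞ := fun y u => (Aw d D u).indicator (fun _ => ‖g u‖ₑ ^ (3 : ℝ)) y with hΦ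
  have h1 : ∀ y, ∫⁻ v, ‖lc (D * d y) g y v‖ₑ ^ (3 : ℝ) = ∫⁻ u, Φ y u := by
    intro y
    rw [← lintegral_add_right_eq_self (fun u => Φ y u) y]
    apply lintegral_congr
    intro v
    simp only [hΦ]
    by_cases hv : |v| ≤ D * d y
    · rw [lc_of_abs hv, indicator_of_mem (show y ∈ Aw d D (v + y) by
        show |v + y - y| ≤ D * d y
        rwa [add_sub_cancel_right])]
    · rw [lc_of_gt (not_le.1 hv), indicator_of_notMem (show y ∉ Aw d D (v + y) by
        intro hc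
        apply hv
        have hc' : |v + y - y| ≤ D * d y := hc
        rwa [add_sub_cancel_right] at hc')]
      simp
  simp only [h1]
  have hm : Measurable (Function.uncurry Φ) := by
    have h : Function.uncurry Φ = {p : ℝ × ℝ | |p.2 - p.1| ≤ D * d p.1}.indicator
        fun p => ‖g p.2‖ₑ ^ (3 : ℝ) := by
      funext p
      simp only [Function.uncurry, hΦ]
      by_cases hp : |p.2 - p.1| ≤ D * d p.1
      · rw [indicator_of_mem (show p ∈ {p : ℝ × ℝ | |p.2 - p.1| ≤ D * d p.1} from hp),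
          indicator_of_mem (show p.1 ∈ Aw d D p.2 from hp)]
      · rw [indicator_of_notMem (show p ∉ {p : ℝ × ℝ | |p.2 - p.1| ≤ D * d p.1} from hp),
          indicator_of_notMem (show p.1 ∉ Aw d D p.2 from hp)]
    rw [h]
    refine Measurable.indicator ((hg.comp measurable_snd).enorm.pow_const _) ?_
    exact measurableSet_le (by fun_prop) ((sc.meas.comp measurable_fst).const_mul D)
  have := nu_sfinite d
  rw [lintegral_lintegral_swap hm.aemeasurable,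
    ← lintegral_const_mul _ (hg.enorm.pow_const (3 : ℝ))]
  apply lintegral_mono_ae
  filter_upwards [sc.ae] with u hu
  simp only [hΦ]
  rw [lintegral_indicator (Aw_meas sc D u), setLIntegral_const, mul_comm]
  gcongr
  exact nu_le sc hD0 hD hu

/-- the local form around `y` -/
noncomputable def lf (d : ℝ → ℝ) (D₁ D₃ η ε R α₀ α₁ α₂ α₃ : ℝ) (h g₁ g₂ g₃ : ℝ → ℂ)
    (y : ℝ) : ℂ :=
  ∫ p, wk ε (min R (η * d y)) α₀ α₁ α₂ α₃ (fun x => h (x + y))
    (lc (D₁ * η * d y) g₁ y) (lc (η * d y) g₂ y) (lc (D₃ * η * d y) g₃ y) p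

/-- the window set, as a set of centres, for a point of the plane -/
def Bw (d : ℝ → ℝ) (η α₂ : ℝ) (p : ℝ × ℝ) : Set ℝ :=
  {y | |p.1 - α₂ * p.2 - y| ≤ η * d y ∧ |p.2| < η * d y}

theorem Bw_meas {d : ℝ → ℝ} (sc : Sc d) (η α₂ : ℝ) (p : ℝ × ℝ) : MeasurableSet (Bw d η α₂ p) :=
  (measurableSet_le (by fun_prop) (sc.meas.const_mul η)).inter
    (measurableSet_lt measurable_const (sc.meas.const_mul η))

theorem Bw_sub (d : ℝ → ℝ) (η α₂ : ℝ) (p : ℝ × ℝ) :
    Bw d η α₂ p ⊆ Aw d η (p.1 - α₂ * p.2) := fun _ h => h.1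

/-- the twisted integrand restricted to the window of `y` -/
noncomputable def wi (d : ℝ → ℝ) (η ε R α₀ α₁ α₂ α₃ : ℝ) (h g₁ g₂ g₃ : ℝ → ℂ) (y : ℝ)
    (p : ℝ × ℝ) : ℂ :=
  (Bw d η α₂ p).indicator (fun _ => wk ε R α₀ α₁ α₂ α₃ h g₁ g₂ g₃ p) y

theorem lf_eq {d : ℝ → ℝ} (sc : Sc d) {D₁ D₃ η ε R α₀ α₁ α₂ α₃ : ℝ} (hη : 0 ≤ η)
    (h1 : 1 + |α₂ - α₁| ≤ D₁) (h3 : 1 + |α₂ - α₃| ≤ D₃) (h g₁ g₂ g₃ : ℝ → ℂ) (y : ℝ) :
    lf d D₁ D₃ η ε R α₀ α₁ α₂ α₃ h g₁ g₂ g₃ y
      = ∫ p, wi d η ε R α₀ α₁ α₂ α₃ h g₁ g₂ g₃ y p := by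
  unfold lf
  rw [← integral_add_right_eq_self (μ := (volume : Measure (ℝ × ℝ)))
    (wi d η ε R α₀ α₁ α₂ α₃ h g₁ g₂ g₃ y) (y, 0)]
  congr 1
  funext p
  have e2 : p.1 + y - α₂ * p.2 - y = p.1 - α₂ * p.2 := by ring
  have hmem : y ∈ Bw d η α₂ (p + (y, 0)) ↔
      |p.1 - α₂ * p.2| ≤ η * d y ∧ |p.2| < η * d y := by
    show |p.1 + y - α₂ * (p.2 + 0) - y| ≤ η * d y ∧ |p.2 + 0| < η * d y ↔ _
    rw [add_zero, e2]
  unfold wi
  by_cases hA : ε < |p.2| ∧ |p.2| < R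
  swap
  · have z1 : wk ε (min R (η * d y)) α₀ α₁ α₂ α₃ (fun x => h (x + y))
        (lc (D₁ * η * d y) g₁ y) (lc (η * d y) g₂ y) (lc (D₃ * η * d y) g₃ y) p = 0 := by
      unfold wk bk
      rw [if_neg (fun hc => hA ⟨hc.1, hc.2.trans_le (min_le_left _ _)⟩), zero_mul]
    have z2 : wk ε R α₀ α₁ α₂ α₃ h g₁ g₂ g₃ (p + (y, 0)) = 0 := by
      unfold wk bk
      simp only [Prod.snd_add, add_zero]
      rw [if_neg hA, zero_mul]
    rw [z1, z2]
    simp
  by_cases ht : |p.2| < η * d y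
  swap
  · have z1 : wk ε (min R (η * d y)) α₀ α₁ α₂ α₃ (fun x => h (x + y))
        (lc (D₁ * η * d y) g₁ y) (lc (η * d y) g₂ y) (lc (D₃ * η * d y) g₃ y) p = 0 := by
      unfold wk bk
      rw [if_neg (fun hc => ht (hc.2.trans_le (min_le_right _ _))), zero_mul]
    rw [z1, indicator_of_notMem (fun hc => ht (hmem.1 hc).2)]
  by_cases hu : |p.1 - α₂ * p.2| ≤ η * d y
  swap
  · rw [indicator_of_notMem (fun hc => hu (hmem.1 hc).1)]
    unfold wk bk
    rw [lc_of_gt (v := p.1 - α₂ * p.2) (not_le.1 hu)]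
    simp
  rw [indicator_of_mem (hmem.2 ⟨hu, ht⟩)]
  have hd := sc.nonneg y
  have b : ∀ a D : ℝ, 1 + |α₂ - a| ≤ D → |p.1 - a * p.2| ≤ D * η * d y := by
    intro a D hD
    have e : p.1 - a * p.2 = (p.1 - α₂ * p.2) + (α₂ - a) * p.2 := by ring
    have h2 : |p.1 - a * p.2| ≤ |p.1 - α₂ * p.2| + |α₂ - a| * |p.2| := by
      rw [e, ← abs_mul]; exact abs_add_le _ _
    have h3 : |α₂ - a| * |p.2| ≤ |α₂ - a| * (η * d y) :=
      mul_le_mul_of_nonneg_left ht.le (abs_nonneg _)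
    have h4 : (1 + |α₂ - a|) * (η * d y) ≤ D * (η * d y) := by gcongr
    calc |p.1 - a * p.2| ≤ (1 + |α₂ - a|) * (η * d y) := by linarith
      _ ≤ D * (η * d y) := h4
      _ = _ := by ring
  unfold wk bk
  simp only [Prod.fst_add, Prod.snd_add, add_zero]
  rw [if_pos ⟨hA.1, lt_min hA.2 ht⟩, if_pos hA, lc_of_abs (b α₁ D₁ h1), lc_of_abs hu,
    lc_of_abs (b α₃ D₃ h3)]
  have e3 : p.1 - α₁ * p.2 + y = p.1 + y - α₁ * p.2 := by ring
  have e4 : p.1 - α₂ * p.2 + y = p.1 + y - α₂ * p.2 := by ring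
  have e5 : p.1 - α₃ * p.2 + y = p.1 + y - α₃ * p.2 := by ring
  have e6 : p.1 - α₀ * p.2 + y = p.1 + y - α₀ * p.2 := by ring
  rw [e3, e4, e5, e6]

theorem wi_meas {d : ℝ → ℝ} (sc : Sc d) {η ε R α₀ α₁ α₂ α₃ : ℝ} {h g₁ g₂ g₃ : ℝ → ℂ} (mh : Measurable h)
    (m₁ : Measurable g₁) (m₂ : Measurable g₂) (m₃ : Measurable g₃) :
    Measurable (Function.uncurry (wi d η ε R α₀ α₁ α₂ α₃ h g₁ g₂ g₃)) := by
  have e : Function.uncurry (wi d η ε R α₀ α₁ α₂ α₃ h g₁ g₂ g₃) =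
      ({q : ℝ × ℝ × ℝ | |q.2.1 - α₂ * q.2.2 - q.1| ≤ η * d q.1 ∧
        |q.2.2| < η * d q.1}).indicator
        (fun q => wk ε R α₀ α₁ α₂ α₃ h g₁ g₂ g₃ q.2) := by
    funext q
    simp only [Function.uncurry, wi]
    by_cases hq : q.1 ∈ Bw d η α₂ q.2
    · rw [indicator_of_mem hq, indicator_of_mem (show q ∈ {q : ℝ × ℝ × ℝ |
        |q.2.1 - α₂ * q.2.2 - q.1| ≤ η * d q.1 ∧ |q.2.2| < η * d q.1} from hq)]
    · rw [indicator_of_notMem hq, indicator_of_notMem (show q ∉ {q : ℝ × ℝ × ℝ |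
        |q.2.1 - α₂ * q.2.2 - q.1| ≤ η * d q.1 ∧ |q.2.2| < η * d q.1} from hq)]
  rw [e]
  refine Measurable.indicator ((wk_meas mh m₁ m₂ m₃).comp measurable_snd) ?_
  exact (measurableSet_le (by fun_prop) ((sc.meas.comp measurable_fst).const_mul η)).inter
    (measurableSet_lt (by fun_prop) ((sc.meas.comp measurable_fst).const_mul η))

/-- the weight of a point -/
noncomputable def wt (d : ℝ → ℝ) (η u : ℝ) : ℝ := ((nu d) (Aw d η u)).toReal

theorem wt_meas {d : ℝ → ℝ} (sc : Sc d) (η : ℝ) : Measurable (wt d η) := by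
  have := nu_sfinite d
  have h : MeasurableSet {q : ℝ × ℝ | |q.1 - q.2| ≤ η * d q.2} :=
    measurableSet_le (by fun_prop) ((sc.meas.comp measurable_snd).const_mul η)
  exact (measurable_measure_prodMk_left (ν := nu d) h).ennreal_toReal

theorem wt_ge {d : ℝ → ℝ} (sc : Sc d) {η u : ℝ} (hη : 0 < η) (hη2 : η ≤ 1 / 2) (hu : 0 < d u) :
    η / 2 ≤ wt d η u := by
  have h1 := nu_ge sc hη hη2 hu
  have h2 := nu_le sc hη.le hη2 hu
  exact (ENNReal.ofReal_le_iff_le_toReal (h2.trans_lt (by norm_num)).ne).1 h1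

/-- division by the weight -/
noncomputable def dv (d : ℝ → ℝ) (η : ℝ) (g : ℝ → ℂ) (u : ℝ) : ℂ :=
  if d u = 0 then 0 else g u / (wt d η u : ℂ)

theorem dv_meas {d : ℝ → ℝ} (sc : Sc d) {η : ℝ} {g : ℝ → ℂ} (hg : Measurable g) :
    Measurable (dv d η g) :=
  Measurable.ite (sc.meas (measurableSet_singleton 0)) measurable_const
    (hg.div (Complex.measurable_ofReal.comp (wt_meas sc η)))

theorem dv_norm {d : ℝ → ℝ} (sc : Sc d) {η : ℝ} (hη : 0 < η) (hη2 : η ≤ 1 / 2) (g : ℝ → ℂ) (u : ℝ) :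
    ‖dv d η g u‖ ≤ 2 / η * ‖g u‖ := by
  unfold dv
  split_ifs with h0
  · rw [norm_zero]; positivity
  · have hu : 0 < d u := lt_of_le_of_ne (sc.nonneg u) (Ne.symm h0)
    have h1 := wt_ge sc hη hη2 hu
    rw [norm_div, Complex.norm_real, Real.norm_of_nonneg (by linarith : 0 ≤ wt d η u),
      div_eq_mul_inv, mul_comm]
    have h2 : (wt d η u)⁻¹ ≤ 2 / η := by
      rw [← inv_div]
      exact inv_anti₀ (by positivity) h1
    gcongr

theorem dv_nice {d : ℝ → ℝ} (sc : Sc d) {η : ℝ} (hη : 0 < η) (hη2 : η ≤ 1 / 2) {g : ℝ → ℂ} (hg : Nice g) :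
    Nice (dv d η g) := by
  obtain ⟨B, hB⟩ := hg.bdd
  refine ⟨dv_meas sc hg.meas, ⟨2 / η * B, fun x => (dv_norm sc hη hη2 g x).trans ?_⟩, ?_⟩
  · have := hB x
    gcongr
  · exact (hg.int.norm.const_mul (2 / η)).mono' (dv_meas sc hg.meas).aestronglyMeasurable
      (ae_of_all _ fun x => dv_norm sc hη hη2 g x)

theorem dv_elp {d : ℝ → ℝ} (sc : Sc d) {η : ℝ} (hη : 0 < η) (hη2 : η ≤ 1 / 2) (g : ℝ → ℂ) :
    eLpNorm (dv d η g) 3 volume ≤ ENNReal.ofReal (2 / η) * eLpNorm g 3 volume :=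
  eLpNorm_le_mul_eLpNorm_of_ae_le_mul (ae_of_all _ fun x => dv_norm sc hη hη2 g x) 3

theorem near (α₀ α₁ α₂ α₃ : ℝ) (h12 : α₁ ≠ α₂) (h23 : α₂ ≠ α₃) {c : ℝ} (hc : 0 < c) :
    ∃ C η' : ℝ, 0 ≤ C ∧ 0 < η' ∧ |α₂ - α₁| * η' ≤ 1 ∧ |α₂ - α₃| * η' ≤ 1 ∧
      ∀ κ ε R : ℝ, 0 ≤ κ → 0 < ε → ε < R → ∀ d : ℝ → ℝ, Sc d → ∀ h : ℝ → ℂ,
      Measurable h → (∀ x, ‖h x‖ ≤ κ) →
      (∀ y, 0 < d y → Rep κ (c * d y) (fun x => h (x + y))) →
      ∀ g₁ g₂ g₃ : ℝ → ℂ, Nice g₁ → Nice g₂ → Nice g₃ →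
        ‖∫ p, wk ε R α₀ α₁ α₂ α₃ h g₁ g₂ g₃ p‖ₑ ≤ ENNReal.ofReal (C * κ) *
          (eLpNorm g₁ 3 volume * eLpNorm g₂ 3 volume * eLpNorm g₃ 3 volume) +
          ENNReal.ofReal κ * PF {p : ℝ × ℝ | η' * d (p.1 - α₂ * p.2) ≤ |p.2|} α₁ α₂ α₃ g₁ g₂ g₃ := by
  obtain ⟨C₀, c₀, hC₀, hc₀, H⟩ := wk_cs α₀ α₁ α₂ α₃ h12 h23
  set D₁ : ℝ := 1 + |α₂ - α₁| with hD₁
  set D₃ : ℝ := 1 + |α₂ - α₃| with hD₃
  have hD₁1 : 1 ≤ D₁ := by rw [hD₁]; linarith [abs_nonneg (α₂ - α₁)]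
  have hD₃1 : 1 ≤ D₃ := by rw [hD₃]; linarith [abs_nonneg (α₂ - α₃)]
  set η : ℝ := min (1 / (2 * (D₁ + D₃))) (c / c₀) with hηd
  have hη : 0 < η := lt_min (by positivity) (by positivity)
  have hη1 : η ≤ 1 / (2 * (D₁ + D₃)) := min_le_left _ _
  have hηc : c₀ * η ≤ c := by
    have : η ≤ c / c₀ := min_le_right _ _
    rw [le_div_iff₀ hc₀] at this
    linarith
  have hDη : (D₁ + D₃) * η ≤ 1 / 2 := by
    calc (D₁ + D₃) * η ≤ (D₁ + D₃) * (1 / (2 * (D₁ + D₃))) := by gcongr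
      _ = 1 / 2 := by field_simp
  have hD₁η : D₁ * η ≤ 1 / 2 := by nlinarith
  have hD₃η : D₃ * η ≤ 1 / 2 := by nlinarith
  have hη2 : η ≤ 1 / 2 := by nlinarith
  set η' : ℝ := η / (1 + η) with hη'
  have hη'0 : 0 < η' := by positivity
  have hη'η : η' ≤ η := div_le_self hη.le (by linarith)
  refine ⟨C₀ * 4 * (2 / η), η', by positivity, hη'0, ?_, ?_, ?_⟩
  · calc |α₂ - α₁| * η' ≤ D₁ * η := by
          have : |α₂ - α₁| ≤ D₁ := by rw [hD₁]; linarith
          gcongr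
      _ ≤ 1 := by linarith
  · calc |α₂ - α₃| * η' ≤ D₃ * η := by
          have : |α₂ - α₃| ≤ D₃ := by rw [hD₃]; linarith
          gcongr
      _ ≤ 1 := by linarith
  intro κ ε R hκ hε hR d sc h mh hB hrep g₁ g₂ g₃ n₁ n₂ n₃
  have sf := nu_sfinite d
  set q₂ : ℝ → ℂ := dv d η g₂ with hq₂
  have nq : Nice q₂ := dv_nice sc hη hη2 n₂
  have l₁ := n₁.memLp (p := 3) (by norm_num) (by norm_num)
  have lq := nq.memLp (p := 3) (by norm_num) (by norm_num)
  have l₃ := n₃.memLp (p := 3) (by norm_num) (by norm_num)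
  set F : ℝ → ℂ := lf d D₁ D₃ η ε R α₀ α₁ α₂ α₃ h g₁ q₂ g₃ with hF
  set W : ℝ × ℝ → ℂ := wk ε R α₀ α₁ α₂ α₃ h g₁ q₂ g₃ with hW
  have hWi : Integrable W volume := wk_int hε mh hB n₁ nq n₃
  -- (1) the local forms
  have hFb : ∀ᵐ y ∂(nu d), ‖F y‖ₑ ≤ ENNReal.ofReal (C₀ * κ) *
      (eLpNorm (lc (D₁ * η * d y) g₁ y) 3 volume * eLpNorm (lc (η * d y) q₂ y) 3 volume *
        eLpNorm (lc (D₃ * η * d y) g₃ y) 3 volume) := by
    filter_upwards [(nu_ac d).ae_le sc.ae] with y hy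
    have hd : 0 < d y := hy
    have k₁ := lc_memLp (D := D₁ * η * d y) n₁.meas l₁ y
    have k₂ := lc_memLp (D := η * d y) nq.meas lq y
    have k₃ := lc_memLp (D := D₃ * η * d y) n₃.meas l₃ y
    rcases lt_or_ge ε (min R (η * d y)) with hlt | hge
    · have hr : Rep κ (c₀ * (η * d y)) (fun x => h (x + y)) := by
        refine (hrep y hy).mono ?_
        calc c₀ * (η * d y) = (c₀ * η) * d y := by ring
          _ ≤ c * d y := by gcongr
      have h1 := H κ (η * d y) hκ (by positivity) (fun x => h (x + y))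
        (mh.comp (measurable_id.add_const y)) ⟨κ, fun x => hB _⟩ hr
        (lc (D₁ * η * d y) g₁ y) (lc (η * d y) q₂ y) (lc (D₃ * η * d y) g₃ y)
        (lc_meas _ n₁.meas y) (lc_meas _ nq.meas y) (lc_meas _ n₃.meas y) k₁ k₂ k₃
        (fun u hu => lc_of_gt hu _ _) ε (min R (η * d y)) hε hlt (min_le_right _ _)
      show ‖lf d D₁ D₃ η ε R α₀ α₁ α₂ α₃ h g₁ q₂ g₃ y‖ₑ ≤ _
      unfold lf
      rw [← ofReal_norm]
      refine (ENNReal.ofReal_le_ofReal h1).trans (le_of_eq ?_)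
      rw [ENNReal.ofReal_mul (p := C₀ * κ) (by positivity),
        ENNReal.ofReal_mul (q := (eLpNorm (lc (D₃ * η * d y) g₃ y) 3 volume).toReal)
          (by positivity),
        ENNReal.ofReal_mul (q := (eLpNorm (lc (η * d y) q₂ y) 3 volume).toReal)
          (by positivity),
        ENNReal.ofReal_toReal k₁.2.ne, ENNReal.ofReal_toReal k₂.2.ne,
        ENNReal.ofReal_toReal k₃.2.ne]
    · have h0 : F y = 0 := by
        show lf d D₁ D₃ η ε R α₀ α₁ α₂ α₃ h g₁ q₂ g₃ y = 0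
        unfold lf
        have : ∀ p : ℝ × ℝ, wk ε (min R (η * d y)) α₀ α₁ α₂ α₃ (fun x => h (x + y))
            (lc (D₁ * η * d y) g₁ y) (lc (η * d y) q₂ y)
            (lc (D₃ * η * d y) g₃ y) p = 0 := by
          intro p
          unfold wk bk
          rw [if_neg (fun hcon => absurd (hcon.1.trans hcon.2) (not_lt.2 hge)), zero_mul]
        simp [this]
      rw [h0]
      simp
  have hF1 : ‖∫ y, F y ∂(nu d)‖ₑ ≤ ENNReal.ofReal (C₀ * 4 * (2 / η) * κ) *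
      (eLpNorm g₁ 3 volume * eLpNorm g₂ 3 volume * eLpNorm g₃ 3 volume) := by
    refine (enorm_integral_le_lintegral_enorm F).trans ?_
    refine (lintegral_mono_ae hFb).trans ?_
    rw [lintegral_const_mul' _ _ ENNReal.ofReal_ne_top]
    have hc1 := lcv_cube (D := D₁ * η) sc (by positivity) hD₁η n₁.meas
    have hc2 := lcv_cube (D := η) sc (by positivity) hη2 nq.meas
    have hc3 := lcv_cube (D := D₃ * η) sc (by positivity) hD₃η n₃.meas
    calc ENNReal.ofReal (C₀ * κ) * ∫⁻ y, (eLpNorm (lc (D₁ * η * d y) g₁ y) 3 volume *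
          eLpNorm (lc (η * d y) q₂ y) 3 volume *
          eLpNorm (lc (D₃ * η * d y) g₃ y) 3 volume) ∂(nu d)
        ≤ ENNReal.ofReal (C₀ * κ) * ((4 * (eLpNorm g₁ 3 volume) ^ (3 : ℝ)) ^ (1 / 3 : ℝ) *
          (4 * (eLpNorm q₂ 3 volume) ^ (3 : ℝ)) ^ (1 / 3 : ℝ) *
          (4 * (eLpNorm g₃ 3 volume) ^ (3 : ℝ)) ^ (1 / 3 : ℝ)) := by
          gcongr
          refine (hold3' (nu d) (lcv_cube_meas sc (D₁ * η) n₁.meas)
            (lcv_cube_meas sc η nq.meas) (lcv_cube_meas sc (D₃ * η) n₃.meas)).trans ?_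
          gcongr
      _ = ENNReal.ofReal (C₀ * κ) * (4 * (eLpNorm g₁ 3 volume * eLpNorm q₂ 3 volume *
          eLpNorm g₃ 3 volume)) := by rw [four_cube]
      _ ≤ ENNReal.ofReal (C₀ * κ) * (4 * (eLpNorm g₁ 3 volume *
          (ENNReal.ofReal (2 / η) * eLpNorm g₂ 3 volume) * eLpNorm g₃ 3 volume)) := by
          gcongr
          exact dv_elp sc hη hη2 g₂
      _ = _ := by
          have e4 : (4 : ℝ≥0∞) = ENNReal.ofReal 4 := by norm_num
          have e5 : ENNReal.ofReal (C₀ * 4 * (2 / η) * κ) =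
              ENNReal.ofReal (C₀ * κ) * ENNReal.ofReal 4 * ENNReal.ofReal (2 / η) := by
            rw [← ENNReal.ofReal_mul (by positivity), ← ENNReal.ofReal_mul (by positivity)]
            congr 1
            ring
          rw [e5, e4]
          ring
  -- (2) Fubini
  have hae : ∀ᵐ p : ℝ × ℝ, 0 < d (p.1 - α₂ * p.2) := by
    filter_upwards [(quasi α₂).ae sc.ae] with p hp
    exact hp
  set V : ℝ × ℝ → ℝ := fun p => ((nu d) (Bw d η α₂ p)).toReal with hV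
  have hVle : ∀ p : ℝ × ℝ, 0 < d (p.1 - α₂ * p.2) → V p ≤ wt d η (p.1 - α₂ * p.2) ∧
      wt d η (p.1 - α₂ * p.2) ≤ 4 ∧ (nu d) (Bw d η α₂ p) ≤ 4 := by
    intro p hp
    have h1 := nu_le sc hη.le hη2 hp
    have h2 := measure_mono (μ := nu d) (Bw_sub d η α₂ p)
    refine ⟨ENNReal.toReal_mono (h1.trans_lt (by norm_num)).ne h2, ?_, h2.trans h1⟩
    have h4 := ENNReal.toReal_mono (by norm_num : (4 : ℝ≥0∞) ≠ ∞) h1
    unfold wt
    simpa using h4
  have hwm := wi_meas sc (η := η) (ε := ε) (R := R) (α₀ := α₀) (α₁ := α₁) (α₂ := α₂)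
    (α₃ := α₃) mh n₁.meas nq.meas n₃.meas
  have hint : Integrable (Function.uncurry (wi d η ε R α₀ α₁ α₂ α₃ h g₁ q₂ g₃))
      ((nu d).prod volume) := by
    rw [integrable_prod_iff' hwm.aestronglyMeasurable]
    constructor
    · filter_upwards [hae] with p hp
      show Integrable (fun y => (Bw d η α₂ p).indicator (fun _ => W p) y) (nu d)
      rw [integrable_indicator_iff (Bw_meas sc η α₂ p)]
      exact integrableOn_const ((hVle p hp).2.2.trans_lt (by norm_num)).ne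
    · refine (hWi.norm.const_mul 4).mono' ?_ ?_
      · exact (hwm.norm.stronglyMeasurable.integral_prod_left' (μ := nu d)).aestronglyMeasurable
      · filter_upwards [hae] with p hp
        have h1 : ∫ y, ‖Function.uncurry (wi d η ε R α₀ α₁ α₂ α₃ h g₁ q₂ g₃) (y, p)‖ ∂(nu d)
            = V p * ‖W p‖ := by
          have h2 : ∀ y, ‖Function.uncurry (wi d η ε R α₀ α₁ α₂ α₃ h g₁ q₂ g₃) (y, p)‖
              = (Bw d η α₂ p).indicator (fun _ => ‖W p‖) y := by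
            intro y
            show ‖(Bw d η α₂ p).indicator (fun _ => W p) y‖ = _
            by_cases hy : y ∈ Bw d η α₂ p
            · rw [indicator_of_mem hy, indicator_of_mem hy]
            · rw [indicator_of_notMem hy, indicator_of_notMem hy, norm_zero]
          simp only [h2]
          rw [integral_indicator_const _ (Bw_meas sc η α₂ p), smul_eq_mul]
          rfl
        rw [h1, Real.norm_of_nonneg (by positivity)]
        have h3 := hVle p hp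
        have : V p ≤ 4 := h3.1.trans h3.2.1
        gcongr
  have hFub : ∫ y, F y ∂(nu d) = ∫ p, (V p : ℂ) * W p := by
    have h1 : ∀ y, F y = ∫ p, wi d η ε R α₀ α₁ α₂ α₃ h g₁ q₂ g₃ y p := fun y =>
      lf_eq sc hη.le le_rfl le_rfl h g₁ q₂ g₃ y
    simp only [h1]
    rw [integral_integral_swap hint]
    congr 1
    funext p
    show ∫ y, (Bw d η α₂ p).indicator (fun _ => W p) y ∂(nu d) = _
    rw [integral_indicator_const _ (Bw_meas sc η α₂ p), Complex.real_smul]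
    rfl
  -- (3) the difference
  have hVW : Integrable (fun p => (V p : ℂ) * W p) volume := by
    refine (hWi.norm.const_mul 4).mono' ?_ ?_
    · have hVm : Measurable V := by
        have hs : MeasurableSet {q : (ℝ × ℝ) × ℝ | |q.1.1 - α₂ * q.1.2 - q.2| ≤ η * d q.2 ∧
            |q.1.2| < η * d q.2} :=
          (measurableSet_le (by fun_prop) ((sc.meas.comp measurable_snd).const_mul η)).inter
            (measurableSet_lt (by fun_prop) ((sc.meas.comp measurable_snd).const_mul η))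
        exact (measurable_measure_prodMk_left (ν := nu d) hs).ennreal_toReal
      exact (Complex.measurable_ofReal.comp hVm).aestronglyMeasurable.mul hWi.1
    · filter_upwards [hae] with p hp
      have h3 := hVle p hp
      rw [norm_mul, Complex.norm_real, Real.norm_of_nonneg ENNReal.toReal_nonneg]
      have : V p ≤ 4 := h3.1.trans h3.2.1
      gcongr
  have hgi := wk_int (R := R) (α₀ := α₀) (α₁ := α₁) (α₂ := α₂) (α₃ := α₃) hε mh hB n₁ n₂ n₃
  have hrel : ∀ p : ℝ × ℝ, 0 < d (p.1 - α₂ * p.2) →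
      wk ε R α₀ α₁ α₂ α₃ h g₁ g₂ g₃ p = (wt d η (p.1 - α₂ * p.2) : ℂ) * W p := by
    intro p hp
    have hw0 := wt_ge sc hη hη2 hp
    have hw1 : (wt d η (p.1 - α₂ * p.2) : ℂ) ≠ 0 := by
      have : wt d η (p.1 - α₂ * p.2) ≠ 0 := by linarith
      exact_mod_cast this
    have hg : g₂ (p.1 - α₂ * p.2) = (wt d η (p.1 - α₂ * p.2) : ℂ) * q₂ (p.1 - α₂ * p.2) := by
      show _ = _ * dv d η g₂ _
      unfold dv
      rw [if_neg hp.ne']
      field_simp
    rw [hW]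
    unfold wk bk
    rw [hg]
    split_ifs
    · ring
    · ring
  have hdiff : ‖(∫ p, wk ε R α₀ α₁ α₂ α₃ h g₁ g₂ g₃ p) - ∫ y, F y ∂(nu d)‖ₑ ≤
      ENNReal.ofReal κ * PF {p : ℝ × ℝ | η' * d (p.1 - α₂ * p.2) ≤ |p.2|} α₁ α₂ α₃ g₁ g₂ g₃ := by
    rw [hFub, ← integral_sub hgi hVW]
    refine (enorm_integral_le_lintegral_enorm _).trans ?_
    unfold PF
    rw [← lintegral_const_mul' _ _ ENNReal.ofReal_ne_top]
    apply lintegral_mono_ae
    filter_upwards [hae] with p hp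
    have h3 := hVle p hp
    have hV0 : 0 ≤ V p := ENNReal.toReal_nonneg
    by_cases hreg : p ∈ {p : ℝ × ℝ | η' * d (p.1 - α₂ * p.2) ≤ |p.2|}
    · rw [indicator_of_mem hreg]
      refine le_trans ?_ (wk_norm (ε := ε) (R := R) (α₀ := α₀) hB p)
      rw [hrel p hp, ← sub_mul, enorm_mul, enorm_mul]
      gcongr
      rw [← Complex.ofReal_sub, ← ofReal_norm, ← ofReal_norm, Complex.norm_real,
        Complex.norm_real, Real.norm_of_nonneg (by linarith [h3.1]),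
        Real.norm_of_nonneg (hV0.trans h3.1)]
      exact ENNReal.ofReal_le_ofReal (by linarith)
    · have hsmall : |p.2| < η' * d (p.1 - α₂ * p.2) := by
        exact not_le.1 hreg
      have hset : Bw d η α₂ p = Aw d η (p.1 - α₂ * p.2) := by
        apply Subset.antisymm (Bw_sub d η α₂ p)
        intro y hy
        have hy' : |p.1 - α₂ * p.2 - y| ≤ η * d y := hy
        refine ⟨hy', ?_⟩
        have h4 := sc.lip (p.1 - α₂ * p.2) y
        calc |p.2| < η' * d (p.1 - α₂ * p.2) := hsmall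
          _ ≤ η' * ((1 + η) * d y) := by
              gcongr
              linarith
          _ = η * d y := by rw [hη']; field_simp
      have hVw : V p = wt d η (p.1 - α₂ * p.2) := by
        simp only [hV, hset]
        rfl
      rw [hrel p hp, hVw, sub_self, enorm_zero]
      exact bot_le
  calc ‖∫ p, wk ε R α₀ α₁ α₂ α₃ h g₁ g₂ g₃ p‖ₑ
      = ‖(∫ y, F y ∂(nu d)) + ((∫ p, wk ε R α₀ α₁ α₂ α₃ h g₁ g₂ g₃ p) -
        ∫ y, F y ∂(nu d))‖ₑ := by rw [add_sub_cancel]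
    _ ≤ ‖∫ y, F y ∂(nu d)‖ₑ + ‖(∫ p, wk ε R α₀ α₁ α₂ α₃ h g₁ g₂ g₃ p) -
        ∫ y, F y ∂(nu d)‖ₑ := enorm_add_le _ _
    _ ≤ _ := add_le_add hF1 hdiff

end G

end Vale.Agent.P141.R2.H106
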