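import Vale.Agent.P141.R2.H106.Main
import Vale.Agent.P141.R2.H106.ScaleNear
import Vale.Agent.P141.R2.H106.AikD

/-!
# General scale functions
-/

namespace Vale.Agent.P141.R2.H106

open MeasureTheory Set Filter Topology
open scoped ENNReal SchwartzMap
open Vale.Agent.P141.H97

/-- structured at the scale `c d(y)` around every point `y` with `d(y) > 0` -/
def LSd (κ c : ℝ) (d : ℝ → ℝ) (h : ℝ → ℂ) : Prop :=
  Measurable h ∧ (∀ x, ‖h x‖ ≤ κ) ∧ ∀ y, 0 < d y → Rep κ (c * d y) (fun x => h (x + y))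

theorem LSd.fin {κ c : ℝ} {E : Finset ℝ} (hE : E.Nonempty) {h : ℝ → ℂ}
    (H : LSd κ c (fun x => Metric.infDist x (E : Set ℝ)) h) : LS κ c E h :=
  ⟨H.1, H.2.1, fun y hy => H.2.2 y (dE_pos hE hy)⟩

theorem _root_.Vale.Agent.P141.R2.H106.P4.Aik.sc {d : ℝ → ℝ} {a K : ℝ} (h : P4.Aik d a K) :
    Sc d := ⟨h.nonneg, h.lip, h.ae_pos⟩

theorem far_aik {η α₁ α₂ α₃ : ℝ} (hη : 0 < η) (h12 : α₁ ≠ α₂) (h13 : α₁ ≠ α₃) (h23 : α₂ ≠ α₃)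
    (a K : ℝ) : ∃ C : ℝ≥0∞, C < ∞ ∧ ∀ d : ℝ → ℝ, P4.Aik d a K → ∀ g₁ g₂ g₃ : ℝ → ℂ,
      Measurable g₁ → Measurable g₂ → Measurable g₃ →
      PF {p : ℝ × ℝ | η * d (p.1 - α₂ * p.2) ≤ |p.2|} α₁ α₂ α₃ g₁ g₂ g₃ ≤
        C * (eLpNorm g₁ 3 volume * eLpNorm g₂ 3 volume * eLpNorm g₃ 3 volume) := by
  obtain ⟨C, hC, H⟩ := P4.hardy_d (c₁ := α₁ - α₂) (c₂ := α₂ - α₂) (c₃ := α₃ - α₂) hη
    (by simpa [sub_eq_zero] using h12) (by simpa using h13)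
    (by rw [sub_self]; exact (sub_ne_zero.2 h23.symm).symm) a K
  refine ⟨C, hC, fun d hd g₁ g₂ g₃ m₁ m₂ m₃ => ?_⟩
  refine le_trans (le_of_eq ?_) (H d hd g₁ g₂ g₃ m₁ m₂ m₃)
  have hdm := hd.sc.meas
  have hreg : MeasurableSet {p : ℝ × ℝ | η * d (p.1 - α₂ * p.2) ≤ |p.2|} :=
    measurableSet_le ((hdm.comp (by fun_prop)).const_mul η) (by fun_prop)
  have hm := (pf_fun_meas (α₁ := α₁) (α₂ := α₂) (α₃ := α₃) m₁ m₂ m₃).indicator hreg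
  unfold PF
  rw [← (cshear α₂).lintegral_comp hm]
  apply lintegral_congr
  intro p
  have e : ∀ b : ℝ, p.1 + α₂ * p.2 - b * p.2 = p.1 - (b - α₂) * p.2 := fun b => by ring
  have e2 : p.1 + α₂ * p.2 - α₂ * p.2 = p.1 := by ring
  unfold P4.kd
  by_cases hp : η * d p.1 ≤ |p.2|
  · rw [indicator_of_mem (show p ∈ {p : ℝ × ℝ | η * d p.1 ≤ |p.2|} from hp),
      indicator_of_mem (show (p.1 + α₂ * p.2, p.2) ∈
        {p : ℝ × ℝ | η * d (p.1 - α₂ * p.2) ≤ |p.2|} by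
        show η * d (p.1 + α₂ * p.2 - α₂ * p.2) ≤ |p.2|
        rwa [e2])]
    simp only [e]
  · rw [indicator_of_notMem (show p ∉ {p : ℝ × ℝ | η * d p.1 ≤ |p.2|} from hp),
      indicator_of_notMem (show (p.1 + α₂ * p.2, p.2) ∉
        {p : ℝ × ℝ | η * d (p.1 - α₂ * p.2) ≤ |p.2|} by
        intro hc
        apply hp
        have hc' : η * d (p.1 + α₂ * p.2 - α₂ * p.2) ≤ |p.2| := hc
        rwa [e2] at hc'), zero_mul]

theorem one_form_d (α₀ α₁ α₂ α₃ : ℝ) (h12 : α₁ ≠ α₂) (h13 : α₁ ≠ α₃) (h23 : α₂ ≠ α₃) {c : ℝ}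
    (hc : 0 < c) (a K : ℝ) : ∃ C : ℝ, 0 ≤ C ∧ ∀ κ ε R : ℝ, 0 ≤ κ → 0 < ε → ε < R →
      ∀ d : ℝ → ℝ, P4.Aik d a K → ∀ h : ℝ → ℂ, LSd κ c d h →
      ∀ g₁ g₂ g₃ : ℝ → ℂ, Nice g₁ → Nice g₂ → Nice g₃ →
        ‖∫ p, wk ε R α₀ α₁ α₂ α₃ h g₁ g₂ g₃ p‖ ≤ C * κ * n3 g₁ g₂ g₃ := by
  obtain ⟨C₁, η, hC₁, hη, k1, k3, H⟩ := G.near α₀ α₁ α₂ α₃ h12 h23 hc
  obtain ⟨C₂, hC₂, H₂⟩ := far_aik hη h12 h13 h23 a K
  refine ⟨C₁ + C₂.toReal, by positivity, ?_⟩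
  intro κ ε R hκ hε hR d hd h hh g₁ g₂ g₃ n₁ n₂ n₃
  obtain ⟨mh, hb, hr⟩ := hh
  have a1 := H κ ε R hκ hε hR d hd.sc h mh hb hr g₁ g₂ g₃ n₁ n₂ n₃
  have a2 := H₂ d hd g₁ g₂ g₃ n₁.meas n₂.meas n₃.meas
  have l₁ := n₁.memLp (p := 3) (by norm_num) (by norm_num)
  have l₂ := n₂.memLp (p := 3) (by norm_num) (by norm_num)
  have l₃ := n₃.memLp (p := 3) (by norm_num) (by norm_num)
  have hn : 0 ≤ n3 g₁ g₂ g₃ := by unfold n3; positivity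
  have e1 : eLpNorm g₁ 3 volume * eLpNorm g₂ 3 volume * eLpNorm g₃ 3 volume =
      ENNReal.ofReal (n3 g₁ g₂ g₃) := by
    unfold n3
    rw [ENNReal.ofReal_mul (by positivity), ENNReal.ofReal_mul (by positivity),
      ENNReal.ofReal_toReal l₁.2.ne, ENNReal.ofReal_toReal l₂.2.ne, ENNReal.ofReal_toReal l₃.2.ne]
  have a3 : ‖∫ p, wk ε R α₀ α₁ α₂ α₃ h g₁ g₂ g₃ p‖ₑ ≤
      ENNReal.ofReal (C₁ * κ * n3 g₁ g₂ g₃ + κ * (C₂.toReal * n3 g₁ g₂ g₃)) := by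
    refine a1.trans ?_
    calc _ ≤ ENNReal.ofReal (C₁ * κ) * ENNReal.ofReal (n3 g₁ g₂ g₃) +
          ENNReal.ofReal κ * (ENNReal.ofReal C₂.toReal * ENNReal.ofReal (n3 g₁ g₂ g₃)) := by
          rw [← e1, ENNReal.ofReal_toReal hC₂.ne]
          gcongr
      _ = _ := by
          rw [← ENNReal.ofReal_mul (by positivity), ← ENNReal.ofReal_mul (by positivity),
            ← ENNReal.ofReal_mul hκ, ← ENNReal.ofReal_add (by positivity) (by positivity)]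
  rw [← ofReal_norm] at a3
  have a4 := (ENNReal.ofReal_le_ofReal_iff (by positivity)).1 a3
  refine a4.trans (le_of_eq ?_)
  ring

/-- the four form bounds, scale functions with Aikawa's condition -/
theorem fb_d {c : ℝ} (hc : 0 < c) (a K : ℝ) : ∃ C : ℝ, 0 < C ∧ ∀ κ ε R : ℝ, 0 ≤ κ → 0 < ε →
    ε < R → ∀ d : ℝ → ℝ, P4.Aik d a K → ∀ h : ℝ → ℂ, LSd κ c d h → FB (C * κ) ε R h := by
  obtain ⟨C₁, hC₁, H₁⟩ := one_form_d 1 0 2 3 (by norm_num) (by norm_num) (by norm_num) hc a K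
  obtain ⟨C₂, hC₂, H₂⟩ := one_form_d 2 0 1 3 (by norm_num) (by norm_num) (by norm_num) hc a K
  obtain ⟨C₃, hC₃, H₃⟩ := one_form_d 3 0 1 2 (by norm_num) (by norm_num) (by norm_num) hc a K
  obtain ⟨C₄, hC₄, H₄⟩ := one_form_d 0 1 2 3 (by norm_num) (by norm_num) (by norm_num) hc a K
  refine ⟨C₁ + C₂ + C₃ + C₄ + 1, by positivity, ?_⟩
  intro κ ε R hκ hε hR d hd h hh g₁ g₂ g₃ n₁ n₂ n₃
  have hn3 : 0 ≤ n3 g₁ g₂ g₃ := by unfold n3; positivity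
  have up : ∀ C, 0 ≤ C → C ≤ C₁ + C₂ + C₃ + C₄ + 1 → ∀ X, X ≤ C * κ * n3 g₁ g₂ g₃ →
      X ≤ (C₁ + C₂ + C₃ + C₄ + 1) * κ * n3 g₁ g₂ g₃ := by
    intro C _ hC X hX
    refine hX.trans ?_
    gcongr
  exact ⟨up C₁ hC₁ (by linarith) _ (H₁ κ ε R hκ hε hR d hd h hh g₁ g₂ g₃ n₁ n₂ n₃),
    up C₂ hC₂ (by linarith) _ (H₂ κ ε R hκ hε hR d hd h hh g₁ g₂ g₃ n₁ n₂ n₃),
    up C₃ hC₃ (by linarith) _ (H₃ κ ε R hκ hε hR d hd h hh g₁ g₂ g₃ n₁ n₂ n₃),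
    up C₄ hC₄ (by linarith) _ (H₄ κ ε R hκ hε hR d hd h hh g₁ g₂ g₃ n₁ n₂ n₃)⟩

/-- the truncations converge almost everywhere (to `T`) -/
def PV (f₁ f₂ f₃ : ℝ → ℂ) : Prop :=
  ∀ᵐ x : ℝ, Tendsto (fun q : ℝ × ℝ => truncTHT f₁ f₂ f₃ q.1 q.2 x) (𝓝[>] (0 : ℝ) ×ˢ atTop)
    (𝓝 (THT f₁ f₂ f₃ x))

/-- `T` and all its truncations are bounded by `A` with `D` in any of the four places -/
def Bdd4 (A : ℝ) (D : ℝ → ℂ) : Prop :=
  ∀ f g h : 𝓢(ℝ, ℂ),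
    (PV D f g ∧ eLpNorm (THT D f g) (3 / 2) volume ≤
      ENNReal.ofReal A * eLpNorm f 3 volume * eLpNorm g 3 volume) ∧
    (PV f D g ∧ eLpNorm (THT f D g) (3 / 2) volume ≤
      ENNReal.ofReal A * eLpNorm f 3 volume * eLpNorm g 3 volume) ∧
    (PV f g D ∧ eLpNorm (THT f g D) (3 / 2) volume ≤
      ENNReal.ofReal A * eLpNorm f 3 volume * eLpNorm g 3 volume) ∧
    ∀ ε R : ℝ, 0 < ε → ε < R →
      eLpNorm (truncTHT D f g ε R) (3 / 2) volume ≤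
        ENNReal.ofReal A * eLpNorm f 3 volume * eLpNorm g 3 volume ∧
      eLpNorm (truncTHT f D g ε R) (3 / 2) volume ≤
        ENNReal.ofReal A * eLpNorm f 3 volume * eLpNorm g 3 volume ∧
      eLpNorm (truncTHT f g D ε R) (3 / 2) volume ≤
        ENNReal.ofReal A * eLpNorm f 3 volume * eLpNorm g 3 volume ∧
      ‖∫ x, truncTHT f g h ε R x * D x‖ ≤ A * ((eLpNorm f 3 volume).toReal *
        (eLpNorm g 3 volume).toReal * (eLpNorm h 3 volume).toReal)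

theorem bdd4_of_fb {A : ℝ} (hA : 0 ≤ A) {D : ℝ → ℂ} (mD : Measurable D) {B : ℝ}
    (hB : ∀ x, ‖D x‖ ≤ B) (hd : ∀ᵐ x, DifferentiableAt ℝ D x)
    (H : ∀ ε R : ℝ, 0 < ε → ε < R → FB A ε R D) : Bdd4 A D := by
  intro f g h
  have nf := H115.nice_schwartz f
  have ng := H115.nice_schwartz g
  have nh := H115.nice_schwartz h
  have hb : ∃ B, ∀ x, ‖D x‖ ≤ B := ⟨B, hB⟩
  have T : ∀ ε R : ℝ, 0 < ε → ε < R → TB A ε R D := fun ε R hε hR => fb_tb hA hε mD hB (H ε R hε hR)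
  have l1 : PV D f g := by
    filter_upwards [hd] with x hx
    exact lim_exists mD nf.meas ng.meas (pr_int mD nf.meas ng.meas hb nf.bdd ng.bdd
      (Or.inr nf.int) x) hx f.differentiableAt g.differentiableAt
  have l2 : PV f D g := by
    filter_upwards [hd] with x hx
    exact lim_exists nf.meas mD ng.meas (pr_int nf.meas mD ng.meas nf.bdd hb ng.bdd
      (Or.inl nf.int) x) f.differentiableAt hx g.differentiableAt
  have l3 : PV f g D := by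
    filter_upwards [hd] with x hx
    exact lim_exists nf.meas ng.meas mD (pr_int nf.meas ng.meas mD nf.bdd ng.bdd hb
      (Or.inl nf.int) x) f.differentiableAt g.differentiableAt hx
  simp only [mul_assoc (ENNReal.ofReal A)]
  refine ⟨⟨l1, ?_⟩, ⟨l2, ?_⟩, ⟨l3, ?_⟩, fun ε R hε hR => ⟨?_, ?_, ?_, ?_⟩⟩
  · exact tht_le mD nf.meas ng.meas l1 fun ε R hε hR => (T ε R hε hR f g nf ng).1
  · exact tht_le nf.meas mD ng.meas l2 fun ε R hε hR => (T ε R hε hR f g nf ng).2.1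
  · exact tht_le nf.meas ng.meas mD l3 fun ε R hε hR => (T ε R hε hR f g nf ng).2.2.1
  · exact (T ε R hε hR f g nf ng).1
  · exact (T ε R hε hR f g nf ng).2.1
  · exact (T ε R hε hR f g nf ng).2.2.1
  · have k := (T ε R hε hR f g nf ng).2.2.2 h nh
    have l₁ := nf.memLp (p := 3) (by norm_num) (by norm_num)
    have l₂ := ng.memLp (p := 3) (by norm_num) (by norm_num)
    have l₃ := nh.memLp (p := 3) (by norm_num) (by norm_num)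
    have e1 : eLpNorm f 3 volume * eLpNorm g 3 volume * eLpNorm h 3 volume =
        ENNReal.ofReal ((eLpNorm f 3 volume).toReal *
        (eLpNorm g 3 volume).toReal * (eLpNorm h 3 volume).toReal) := by
      rw [ENNReal.ofReal_mul (by positivity), ENNReal.ofReal_mul (by positivity),
        ENNReal.ofReal_toReal l₁.2.ne, ENNReal.ofReal_toReal l₂.2.ne,
        ENNReal.ofReal_toReal l₃.2.ne]
    rw [e1, ← ENNReal.ofReal_mul hA, ← ofReal_norm] at k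
    exact (ENNReal.ofReal_le_ofReal_iff (by positivity)).1 k

/-- finitely many points -/
theorem bdd4_fin {c : ℝ} (hc : 0 < c) : ∃ C : ℝ, 0 < C ∧ ∀ κ : ℝ, 0 ≤ κ → ∀ E : Finset ℝ,
    E.Nonempty → ∀ h : ℝ → ℂ, LSd κ c (fun x => Metric.infDist x (E : Set ℝ)) h →
      (∀ᵐ x, DifferentiableAt ℝ h x) → Bdd4 (C * κ * (1 + Real.log E.card)) h := by
  obtain ⟨C, hC, H⟩ := fb_ls hc
  refine ⟨C * 2, by positivity, fun κ hκ E hE h hh hd => ?_⟩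
  have hh' := hh.fin hE
  obtain ⟨n, hn, hn'⟩ := card_log E hE
  have h1 : 0 ≤ Real.log E.card := Real.log_natCast_nonneg _
  refine bdd4_of_fb (by positivity) hh.1 hh.2.1 hd fun ε R hε hR => ?_
  have h2 := H κ ε R hκ hε hR n E hE hn h hh'
  intro g₁ g₂ g₃ n₁ n₂ n₃
  have hn3 : 0 ≤ n3 g₁ g₂ g₃ := by unfold n3; positivity
  have h3 : C * κ * (1 + n) * n3 g₁ g₂ g₃ ≤
      C * 2 * κ * (1 + Real.log E.card) * n3 g₁ g₂ g₃ := by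
    have : C * κ * (1 + n) ≤ C * 2 * κ * (1 + Real.log E.card) := by
      calc C * κ * (1 + n) ≤ C * κ * (2 * (1 + Real.log E.card)) := by gcongr
        _ = _ := by ring
    gcongr
  obtain ⟨a1, a2, a3, a4⟩ := h2 g₁ g₂ g₃ n₁ n₂ n₃
  exact ⟨a1.trans h3, a2.trans h3, a3.trans h3, a4.trans h3⟩

/-- scale functions with Aikawa's condition -/
theorem bdd4_aik {c : ℝ} (hc : 0 < c) (a K : ℝ) : ∃ C : ℝ, 0 < C ∧ ∀ κ : ℝ, 0 ≤ κ →
    ∀ d : ℝ → ℝ, P4.Aik d a K → ∀ h : ℝ → ℂ, LSd κ c d h →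
      (∀ᵐ x, DifferentiableAt ℝ h x) → Bdd4 (C * κ) h := by
  obtain ⟨C, hC, H⟩ := fb_d hc a K
  exact ⟨C, hC, fun κ hκ d hd h hh hdi => bdd4_of_fb (by positivity) hh.1 hh.2.1 hdi
    fun ε R hε hR => H κ ε R hκ hε hR d hd h hh⟩

end Vale.Agent.P141.R2.H106
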