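import Vale.Agent.P141.R2.H106.Comb
import Vale.Agent.P141.H115.Final

/-!
# The operator on locally structured functions
-/

namespace Vale.Agent.P141.R2.H106

open MeasureTheory Set Filter Topology
open scoped ENNReal SchwartzMap
open Vale.Agent.P141.H97

theorem TT_lit (ε R β₁ β₂ β₃ : ℝ) (f₁ f₂ f₃ : ℝ → ℂ) :
    TT ε R β₁ β₂ β₃ f₁ f₂ f₃ = fun x => ∫ t in {t : ℝ | ε < |t| ∧ |t| < R},
      f₁ (x - β₁ * t) * f₂ (x - β₂ * t) * f₃ (x - β₃ * t) / (t : ℂ) := by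
  funext x
  unfold TT ph FF uu
  rw [← integral_indicator (shell_meas ε R)]
  congr 1
  funext t
  by_cases ht : t ∈ {t : ℝ | ε < |t| ∧ |t| < R}
  · rw [indicator_of_mem ht, indicator_of_mem ht, div_eq_mul_inv]
    ring
  · rw [indicator_of_notMem ht, indicator_of_notMem ht, zero_mul]

/-- the exponent: `K < 2 ^ n` with `1 + n ≤ 2 (1 + log K)` -/
theorem card_log (E : Finset ℝ) (hE : E.Nonempty) :
    ∃ n : ℕ, E.card < 2 ^ n ∧ (1 + (n : ℝ)) ≤ 2 * (1 + Real.log E.card) := by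
  refine ⟨Nat.log 2 E.card + 1, Nat.lt_pow_succ_log_self (by norm_num) _, ?_⟩
  have hK : E.card ≠ 0 := hE.card_ne_zero
  have h1 : 2 ^ Nat.log 2 E.card ≤ E.card := Nat.pow_log_le_self 2 hK
  have h2 : ((2 : ℝ)) ^ Nat.log 2 E.card ≤ (E.card : ℝ) := by exact_mod_cast h1
  have h3 : (Nat.log 2 E.card : ℝ) * Real.log 2 ≤ Real.log E.card := by
    rw [← Real.log_pow]
    exact Real.log_le_log (by positivity) h2
  have h4 : (0.5 : ℝ) < Real.log 2 := by linarith [Real.log_two_gt_d9]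
  have h5 : (0 : ℝ) ≤ (Nat.log 2 E.card : ℝ) := Nat.cast_nonneg _
  have h6 : (Nat.log 2 E.card : ℝ) * 0.5 ≤ Real.log E.card := by
    refine le_trans ?_ h3
    gcongr
  push_cast
  linarith

/-- all truncations, in three slots, and the pairing -/
theorem ls_tb {c : ℝ} (hc : 0 < c) : ∃ C : ℝ, 0 < C ∧ ∀ κ ε R : ℝ, 0 ≤ κ → 0 < ε → ε < R →
    ∀ E : Finset ℝ, E.Nonempty → ∀ h : ℝ → ℂ, LS κ c E h →
      TB (C * κ * (1 + Real.log E.card)) ε R h := by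
  obtain ⟨C, hC, H⟩ := fb_ls hc
  refine ⟨C * 2, by positivity, ?_⟩
  intro κ ε R hκ hε hR E hE h hh
  obtain ⟨n, hn, hn'⟩ := card_log E hE
  have h1 : 0 ≤ Real.log E.card := Real.log_natCast_nonneg _
  have h2 := H κ ε R hκ hε hR n E hE hn h hh
  refine fb_tb (by positivity) hε hh.1 hh.2.1 fun g₁ g₂ g₃ n₁ n₂ n₃ => ?_
  have hn3 : 0 ≤ n3 g₁ g₂ g₃ := by unfold n3; positivity
  have h3 : C * κ * (1 + n) * n3 g₁ g₂ g₃ ≤
      C * 2 * κ * (1 + Real.log E.card) * n3 g₁ g₂ g₃ := by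
    have : C * κ * (1 + n) ≤ C * 2 * κ * (1 + Real.log E.card) := by
      calc C * κ * (1 + n) ≤ C * κ * (2 * (1 + Real.log E.card)) := by gcongr
        _ = _ := by ring
    gcongr
  obtain ⟨a1, a2, a3, a4⟩ := h2 g₁ g₂ g₃ n₁ n₂ n₃
  exact ⟨a1.trans h3, a2.trans h3, a3.trans h3, a4.trans h3⟩

/-- all truncations, general slopes (the slope of the structured function is arbitrary) -/
theorem ls_slopes {c : ℝ} (hc : 0 < c) {β₀ β₁ β₂ : ℝ} (h1 : β₁ ≠ 0) (h2 : β₂ ≠ 0)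
    (h12 : β₁ ≠ β₂) : ∃ C : ℝ, 0 < C ∧ ∀ κ ε R : ℝ, 0 ≤ κ → 0 < ε → ε < R →
    ∀ E : Finset ℝ, E.Nonempty → ∀ h : ℝ → ℂ, LS κ c E h → ∀ f g : ℝ → ℂ, Nice f → Nice g →
      eLpNorm (fun x => ∫ t in {t : ℝ | ε < |t| ∧ |t| < R},
        f (x - β₁ * t) * g (x - β₂ * t) * h (x - β₀ * t) / (t : ℂ)) (3 / 2) volume ≤
      ENNReal.ofReal (C * κ * (1 + Real.log E.card)) * (eLpNorm f 3 volume *
        eLpNorm g 3 volume) := by
  obtain ⟨C, hC, H⟩ := one_form β₀ 0 β₁ β₂ h1.symm h2.symm h12 hc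
  refine ⟨(C + 1) * 2, by positivity, ?_⟩
  intro κ ε R hκ hε hR E hE h hh f g nf ng
  obtain ⟨n, hn, hn'⟩ := card_log E hE
  have hl : 0 ≤ Real.log E.card := Real.log_natCast_nonneg _
  rw [← TT_lit]
  refine op_form (by positivity) hε hh.1 hh.2.1 (fun g₁ g₂ g₃ n₁ n₂ n₃ => ?_) nf ng
  refine (H κ ε R hκ hε hR n E hE hn h hh g₁ g₂ g₃ n₁ n₂ n₃).trans ?_
  have hn3 : 0 ≤ n3 g₁ g₂ g₃ := by unfold n3; positivity
  have : C * κ * (1 + n) ≤ (C + 1) * 2 * κ * (1 + Real.log E.card) := by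
    calc C * κ * (1 + n) ≤ (C + 1) * κ * (2 * (1 + Real.log E.card)) := by
          gcongr
          linarith
      _ = _ := by ring
  gcongr

/-- the operator itself -/
theorem ls_tht {c : ℝ} (hc : 0 < c) : ∃ C : ℝ, 0 < C ∧ ∀ κ : ℝ, 0 ≤ κ →
    ∀ E : Finset ℝ, E.Nonempty → ∀ h : ℝ → ℂ, LS κ c E h → (∀ᵐ x, DifferentiableAt ℝ h x) →
    ∀ f g : 𝓢(ℝ, ℂ),
      ((∀ᵐ x, Tendsto (fun q : ℝ × ℝ => truncTHT h f g q.1 q.2 x)
        (𝓝[>] (0 : ℝ) ×ˢ atTop) (𝓝 (THT h f g x))) ∧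
       (∀ᵐ x, Tendsto (fun q : ℝ × ℝ => truncTHT f h g q.1 q.2 x)
        (𝓝[>] (0 : ℝ) ×ˢ atTop) (𝓝 (THT f h g x))) ∧
       (∀ᵐ x, Tendsto (fun q : ℝ × ℝ => truncTHT f g h q.1 q.2 x)
        (𝓝[>] (0 : ℝ) ×ˢ atTop) (𝓝 (THT f g h x)))) ∧
      eLpNorm (THT h f g) (3 / 2) volume ≤ ENNReal.ofReal (C * κ * (1 + Real.log E.card)) *
        (eLpNorm f 3 volume * eLpNorm g 3 volume) ∧
      eLpNorm (THT f h g) (3 / 2) volume ≤ ENNReal.ofReal (C * κ * (1 + Real.log E.card)) *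
        (eLpNorm f 3 volume * eLpNorm g 3 volume) ∧
      eLpNorm (THT f g h) (3 / 2) volume ≤ ENNReal.ofReal (C * κ * (1 + Real.log E.card)) *
        (eLpNorm f 3 volume * eLpNorm g 3 volume) := by
  obtain ⟨C, hC, H⟩ := ls_tb hc
  refine ⟨C, hC, fun κ hκ E hE h hh hd f g => ?_⟩
  have nf := H115.nice_schwartz f
  have ng := H115.nice_schwartz g
  have hb : ∃ B, ∀ x, ‖h x‖ ≤ B := ⟨κ, hh.2.1⟩
  have l1 : ∀ᵐ x, Tendsto (fun q : ℝ × ℝ => truncTHT h f g q.1 q.2 x)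
        (𝓝[>] (0 : ℝ) ×ˢ atTop) (𝓝 (THT h f g x)) := by
    filter_upwards [hd] with x hx
    exact lim_exists hh.1 nf.meas ng.meas (pr_int hh.1 nf.meas ng.meas hb nf.bdd ng.bdd
      (Or.inr nf.int) x) hx f.differentiableAt g.differentiableAt
  have l2 : ∀ᵐ x, Tendsto (fun q : ℝ × ℝ => truncTHT f h g q.1 q.2 x)
        (𝓝[>] (0 : ℝ) ×ˢ atTop) (𝓝 (THT f h g x)) := by
    filter_upwards [hd] with x hx
    exact lim_exists nf.meas hh.1 ng.meas (pr_int nf.meas hh.1 ng.meas nf.bdd hb ng.bdd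
      (Or.inl nf.int) x) f.differentiableAt hx g.differentiableAt
  have l3 : ∀ᵐ x, Tendsto (fun q : ℝ × ℝ => truncTHT f g h q.1 q.2 x)
        (𝓝[>] (0 : ℝ) ×ˢ atTop) (𝓝 (THT f g h x)) := by
    filter_upwards [hd] with x hx
    exact lim_exists nf.meas ng.meas hh.1 (pr_int nf.meas ng.meas hh.1 nf.bdd ng.bdd hb
      (Or.inl nf.int) x) f.differentiableAt g.differentiableAt hx
  refine ⟨⟨l1, l2, l3⟩, ?_, ?_, ?_⟩
  · exact tht_le hh.1 nf.meas ng.meas l1 fun ε R hε hR =>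
      (H κ ε R hκ hε hR E hE h hh f g nf ng).1
  · exact tht_le nf.meas hh.1 ng.meas l2 fun ε R hε hR =>
      (H κ ε R hκ hε hR E hE h hh f g nf ng).2.1
  · exact tht_le nf.meas ng.meas hh.1 l3 fun ε R hε hR =>
      (H κ ε R hκ hε hR E hE h hh f g nf ng).2.2.1

end Vale.Agent.P141.R2.H106
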