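import Vale.Agent.P141.R2.H106.PhaseLoc
import Vale.Agent.P141.R2.H131.LocMain

/-!
# Final assembly
-/

namespace Vale.Agent.P141.R2.H106

open MeasureTheory Set Filter Topology
open scoped ENNReal SchwartzMap ContDiff
open Vale.Agent.P141.H97

/-- all truncations with general slopes -/
def Tr (β₀ β₁ β₂ A : ℝ) (h : ℝ → ℂ) : Prop :=
  ∀ (f g : 𝓢(ℝ, ℂ)) (ε R : ℝ), 0 < ε → ε < R →
    eLpNorm (fun x => ∫ t in {t : ℝ | ε < |t| ∧ |t| < R},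
      f (x - β₁ * t) * g (x - β₂ * t) * h (x - β₀ * t) / (t : ℂ)) (3 / 2) volume ≤
    ENNReal.ofReal A * (eLpNorm f 3 volume * eLpNorm g 3 volume)

/-- an amplitude: bounded by one, of variation at most one on every interval disjoint from `E` -/
def Amp (E : Finset ℝ) (v : ℝ → ℂ) : Prop :=
  (∀ x, ‖v x‖ ≤ 1) ∧ ∀ s : Set ℝ, s.OrdConnected → (∀ e ∈ E, e ∉ s) → eVariationOn v s ≤ 1

/-- (1) -/
theorem amp_fin {m : ℕ} (φ : (Fin m → ℝ) → ℂ) (h1 : ContDiff ℝ ∞ φ)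
    (h2 : HasCompactSupport φ) : ∃ C : ℝ, ∀ (A : ℝ) (E : Finset ℝ) (v g : ℝ → ℂ), 0 ≤ A →
      E.Nonempty → Amp E v → LocNil φ A (fun x => Metric.infDist x (E : Set ℝ)) g →
        Bdd4 (C * A * (1 + Real.log E.card)) (fun x => v x * g x) := by
  obtain ⟨C, hC, H⟩ := locNil_ls h1 h2
  obtain ⟨C', hC', H'⟩ := H131.fb_la (c := 1 / 8) (by norm_num)
  refine ⟨C' * 2 * C, fun A E v g hA hE hv hg => ?_⟩
  have hls := (H A hA _ g hg).fin hE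
  have hla : H131.LA (C * A) (1 / 8) E (fun x => v x * g x) :=
    ⟨v, g, hls, hv.1, hv.2, fun x => rfl⟩
  obtain ⟨n, hn, hn'⟩ := card_log E hE
  have hlog : 0 ≤ Real.log E.card := Real.log_natCast_nonneg _
  have hdiff : ∀ᵐ x, DifferentiableAt ℝ (fun x => v x * g x) x := by
    refine H131.amp_diff (E := E) (v := v) (g := g) hv.2 ?_ (fun x => rfl)
    filter_upwards [ae_notMem E] with x hx
    exact locNil_diff h1 h2 hg (dE_pos hE hx)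
  refine bdd4_of_fb (by positivity) hla.good.1 hla.good.2 hdiff fun ε R hε hR => ?_
  have k := H' (C * A) ε R (by positivity) hε hR n E hE hn _ hla
  intro g₁ g₂ g₃ n₁ n₂ n₃
  have hn3 : 0 ≤ n3 g₁ g₂ g₃ := by unfold n3; positivity
  have h3 : C' * (C * A) * (1 + n) * n3 g₁ g₂ g₃ ≤
      C' * 2 * C * A * (1 + Real.log E.card) * n3 g₁ g₂ g₃ := by
    have : C' * (C * A) * (1 + n) ≤ C' * 2 * C * A * (1 + Real.log E.card) := by
      calc C' * (C * A) * (1 + n) ≤ C' * (C * A) * (2 * (1 + Real.log E.card)) := by gcongr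
        _ = _ := by ring
    gcongr
  obtain ⟨a1, a2, a3, a4⟩ := k g₁ g₂ g₃ n₁ n₂ n₃
  exact ⟨a1.trans h3, a2.trans h3, a3.trans h3, a4.trans h3⟩

/-- (4), finitely many points -/
theorem tr_fin {c : ℝ} (hc : 0 < c) {β₀ β₁ β₂ : ℝ} (h1 : β₁ ≠ 0) (h2 : β₂ ≠ 0) (h12 : β₁ ≠ β₂) :
    ∃ C : ℝ, ∀ (κ : ℝ) (E : Finset ℝ) (v h : ℝ → ℂ), 0 ≤ κ → E.Nonempty → Amp E v →
      LSd κ c (fun x => Metric.infDist x (E : Set ℝ)) h →
        Tr β₀ β₁ β₂ (C * κ * (1 + Real.log E.card)) (fun x => v x * h x) := by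
  obtain ⟨C, hC, H⟩ := H131.la_slopes hc (β₀ := β₀) h1 h2 h12
  exact ⟨C, fun κ E v h hκ hE hv hh f g ε R hε hR => H κ ε R hκ hε hR E hE _
    ⟨v, h, hh.fin hE, hv.1, hv.2, fun x => rfl⟩ f g (H115.nice_schwartz f) (H115.nice_schwartz g)⟩

/-- (4), scale functions with Aikawa's condition -/
theorem tr_aik {c : ℝ} (hc : 0 < c) {β₀ β₁ β₂ : ℝ} (h1 : β₁ ≠ 0) (h2 : β₂ ≠ 0) (h12 : β₁ ≠ β₂)
    (a K : ℝ) : ∃ C : ℝ, ∀ (κ : ℝ) (d : ℝ → ℝ) (h : ℝ → ℂ), 0 ≤ κ → P4.Aik d a K →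
      LSd κ c d h → Tr β₀ β₁ β₂ (C * κ) h := by
  obtain ⟨C, hC, H⟩ := one_form_d β₀ 0 β₁ β₂ h1.symm h2.symm h12 hc a K
  refine ⟨C, fun κ d h hκ hd hh f g ε R hε hR => ?_⟩
  rw [← TT_lit]
  exact op_form (by positivity) hε hh.1 hh.2.1 (fun g₁ g₂ g₃ n₁ n₂ n₃ =>
    H κ ε R hκ hε hR d hd h hh g₁ g₂ g₃ n₁ n₂ n₃) (H115.nice_schwartz f) (H115.nice_schwartz g)

end Vale.Agent.P141.R2.H106
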