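import Vale.Agent.P141.R2.H106.Cs

/-!
# Localisation: from compactly supported to general functions, at the scale of the truncation
-/

namespace Vale.Agent.P141.R2.H106

open MeasureTheory Set
open scoped ENNReal
open Vale.Agent.P141.H97

/-- the piece of `g` near `y`, translated to the origin -/
noncomputable def lc (D : ℝ) (g : ℝ → ℂ) (y v : ℝ) : ℂ := (Icc (-D) D).indicator 1 v * g (v + y)

theorem lc_meas2 (D : ℝ) {g : ℝ → ℂ} (hg : Measurable g) :
    Measurable fun p : ℝ × ℝ => lc D g p.1 p.2 :=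
  ((measurable_one.indicator measurableSet_Icc).comp measurable_snd).mul
    (hg.comp (measurable_snd.add measurable_fst))

theorem lc_meas (D : ℝ) {g : ℝ → ℂ} (hg : Measurable g) (y : ℝ) : Measurable (lc D g y) :=
  (lc_meas2 D hg).comp (measurable_const.prodMk measurable_id)

theorem lc_norm_le (D : ℝ) (g : ℝ → ℂ) (y v : ℝ) : ‖lc D g y v‖ ≤ ‖g (v + y)‖ := by
  unfold lc
  by_cases hv : v ∈ Icc (-D) D
  · rw [indicator_of_mem hv]; simp
  · rw [indicator_of_notMem hv]; simp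

theorem lc_of_abs {D v : ℝ} (h : |v| ≤ D) (g : ℝ → ℂ) (y : ℝ) : lc D g y v = g (v + y) := by
  unfold lc
  rw [indicator_of_mem (show v ∈ Icc (-D) D from abs_le.1 h)]
  simp

theorem lc_of_gt {D v : ℝ} (h : D < |v|) (g : ℝ → ℂ) (y : ℝ) : lc D g y v = 0 := by
  unfold lc
  rw [indicator_of_notMem (fun hc : v ∈ Icc (-D) D => absurd (abs_le.2 hc) (not_le.2 h))]
  simp

theorem elp3 (f : ℝ → ℂ) : (eLpNorm f 3 volume) ^ (3 : ℝ) = ∫⁻ x, ‖f x‖ₑ ^ (3 : ℝ) := by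
  have h3 : (3 : ℝ≥0∞).toReal = 3 := by norm_num
  rw [eLpNorm_eq_lintegral_rpow_enorm_toReal (by norm_num) (by norm_num), h3, ← ENNReal.rpow_mul]
  norm_num

theorem lc_cube_meas (D : ℝ) {g : ℝ → ℂ} (hg : Measurable g) :
    Measurable fun y => (eLpNorm (lc D g y) 3 volume) ^ (3 : ℝ) := by
  simp only [elp3]
  exact ((lc_meas2 D hg).enorm.pow_const _).lintegral_prod_right'

theorem lc_cube {D : ℝ} (hD : 0 ≤ D) {g : ℝ → ℂ} (hg : Measurable g) :
    ∫⁻ y, (eLpNorm (lc D g y) 3 volume) ^ (3 : ℝ)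
      = ENNReal.ofReal (2 * D) * (eLpNorm g 3 volume) ^ (3 : ℝ) := by
  simp only [elp3]
  rw [lintegral_lintegral_swap (((lc_meas2 D hg).enorm.pow_const _).aemeasurable)]
  have h1 : ∀ v : ℝ, ∫⁻ y, ‖lc D g y v‖ₑ ^ (3 : ℝ)
      = (Icc (-D) D).indicator (fun _ => ∫⁻ x, ‖g x‖ₑ ^ (3 : ℝ)) v := by
    intro v
    by_cases hv : v ∈ Icc (-D) D
    · rw [indicator_of_mem hv]
      have h2 : ∀ y, lc D g y v = g (v + y) := fun y => lc_of_abs (abs_le.2 hv) g y
      simp only [h2]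
      exact lintegral_add_left_eq_self (fun x => ‖g x‖ₑ ^ (3 : ℝ)) v
    · rw [indicator_of_notMem hv]
      have h2 : ∀ y, lc D g y v = 0 := fun y => by
        unfold lc
        rw [indicator_of_notMem hv, zero_mul]
      simp [h2]
  simp only [h1]
  rw [lintegral_indicator measurableSet_Icc, setLIntegral_const, Real.volume_Icc, mul_comm]
  congr 2
  ring

theorem hold3 {a₁ a₂ a₃ : ℝ → ℝ≥0∞} (h₁ : Measurable fun y => a₁ y ^ (3 : ℝ))
    (h₂ : Measurable fun y => a₂ y ^ (3 : ℝ)) (h₃ : Measurable fun y => a₃ y ^ (3 : ℝ)) :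
    ∫⁻ y, a₁ y * a₂ y * a₃ y ≤ (∫⁻ y, a₁ y ^ (3 : ℝ)) ^ (1 / 3 : ℝ) *
      (∫⁻ y, a₂ y ^ (3 : ℝ)) ^ (1 / 3 : ℝ) * (∫⁻ y, a₃ y ^ (3 : ℝ)) ^ (1 / 3 : ℝ) := by
  have key := ENNReal.lintegral_prod_norm_pow_le (μ := (volume : Measure ℝ))
    (Finset.univ : Finset (Fin 3))
    (f := fun i => ![fun y => a₁ y ^ (3 : ℝ), fun y => a₂ y ^ (3 : ℝ),
      fun y => a₃ y ^ (3 : ℝ)] i) (p := fun _ => (1 / 3 : ℝ))
    (by
      intro i _
      fin_cases i
      · exact h₁.aemeasurable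
      · exact h₂.aemeasurable
      · exact h₃.aemeasurable)
    (by simp) (by intro i _; norm_num)
  simp only [Fin.prod_univ_three] at key
  refine le_trans (le_of_eq ?_) key
  apply lintegral_congr
  intro y
  have h : ∀ a : ℝ≥0∞, (a ^ (3 : ℝ)) ^ (1 / 3 : ℝ) = a := by
    intro a
    rw [← ENNReal.rpow_mul]
    norm_num
  show a₁ y * a₂ y * a₃ y = (a₁ y ^ (3 : ℝ)) ^ (1 / 3 : ℝ) * (a₂ y ^ (3 : ℝ)) ^ (1 / 3 : ℝ) *
    (a₃ y ^ (3 : ℝ)) ^ (1 / 3 : ℝ)
  rw [h, h, h]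

theorem cube_rt {D : ℝ} (hD : 0 ≤ D) (A : ℝ≥0∞) :
    (ENNReal.ofReal (2 * D) * A ^ (3 : ℝ)) ^ (1 / 3 : ℝ)
      = ENNReal.ofReal ((2 * D) ^ (1 / 3 : ℝ)) * A := by
  rw [ENNReal.mul_rpow_of_nonneg _ _ (by norm_num), ← ENNReal.rpow_mul,
    ENNReal.ofReal_rpow_of_nonneg (by positivity) (by norm_num)]
  norm_num

theorem wk_meas {ε R α₀ α₁ α₂ α₃ : ℝ} {h g₁ g₂ g₃ : ℝ → ℂ} (mh : Measurable h)
    (h₁ : Measurable g₁) (h₂ : Measurable g₂) (h₃ : Measurable g₃) :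
    Measurable (wk ε R α₀ α₁ α₂ α₃ h g₁ g₂ g₃) :=
  (bk_meas h₁ h₂ h₃).mul (mh.comp (measurable_fst.sub (measurable_const.mul measurable_snd)))

theorem wk_int {ε R α₀ α₁ α₂ α₃ : ℝ} (hε : 0 < ε) {h g₁ g₂ g₃ : ℝ → ℂ} (mh : Measurable h)
    {B : ℝ} (hB : ∀ x, ‖h x‖ ≤ B) (h₁ : Nice g₁) (h₂ : Nice g₂) (h₃ : Nice g₃) :
    Integrable (wk ε R α₀ α₁ α₂ α₃ h g₁ g₂ g₃) volume :=
  (bk_int hε h₁ h₂ h₃).mul_bdd (c := B)
    (mh.comp (measurable_fst.sub (measurable_const.mul measurable_snd))).aestronglyMeasurable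
    (ae_of_all _ fun _ => hB _)

/-- **the twisted form at the scale of the truncation** -/
theorem wk_loc (α₀ α₁ α₂ α₃ : ℝ) (h12 : α₁ ≠ α₂) (h23 : α₂ ≠ α₃) :
    ∃ C c : ℝ, 0 ≤ C ∧ 0 < c ∧ ∀ κ ε R : ℝ, 0 ≤ κ → 0 < ε → ε < R → ∀ h : ℝ → ℂ, Measurable h →
      (∃ B, ∀ x, ‖h x‖ ≤ B) → (∀ y, Rep κ (c * R) (fun x => h (x + y))) →
      ∀ g₁ g₂ g₃ : ℝ → ℂ, Nice g₁ → Nice g₂ → Nice g₃ →
        ‖∫ p, wk ε R α₀ α₁ α₂ α₃ h g₁ g₂ g₃ p‖ ≤ C * κ * ((eLpNorm g₁ 3 volume).toReal *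
          (eLpNorm g₂ 3 volume).toReal * (eLpNorm g₃ 3 volume).toReal) := by
  obtain ⟨C₀, c, hC00, hc, hC₀⟩ := wk_cs α₀ α₁ α₂ α₃ h12 h23
  set D₁ : ℝ := 1 + |α₂ - α₁| with hD₁
  set D₃ : ℝ := 1 + |α₂ - α₃| with hD₃
  have hD₁0 : 0 < D₁ := by positivity
  have hD₃0 : 0 < D₃ := by positivity
  refine ⟨C₀ * (D₁ ^ (1 / 3 : ℝ) * D₃ ^ (1 / 3 : ℝ)), c, by positivity, hc, ?_⟩
  intro κ ε R hκ hε hR h mh hhB hrep g₁ g₂ g₃ n₁ n₂ n₃
  obtain ⟨B, hB⟩ := hhB
  have hR0 : 0 < R := hε.trans hR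
  have l₁ := n₁.memLp (p := 3) (by norm_num) (by norm_num)
  have l₂ := n₂.memLp (p := 3) (by norm_num) (by norm_num)
  have l₃ := n₃.memLp (p := 3) (by norm_num) (by norm_num)
  -- the local pieces
  set F : ℝ → ℂ := fun y => ∫ p, wk ε R α₀ α₁ α₂ α₃ (fun x => h (x + y)) (lc (D₁ * R) g₁ y)
    (lc (1 * R) g₂ y) (lc (D₃ * R) g₃ y) p with hF
  have lm : ∀ (D : ℝ) (g : ℝ → ℂ), Measurable g → MemLp g 3 volume → ∀ y,
      MemLp (lc D g y) 3 volume := by
    intro D g hg hgl y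
    refine MemLp.mono (g := fun v => g (v + y)) ?_ (lc_meas D hg y).aestronglyMeasurable
      (ae_of_all _ fun v => lc_norm_le D g y v)
    exact hgl.comp_measurePreserving (measurePreserving_add_right volume y)
  have hFb : ∀ y, ‖F y‖ₑ ≤ ENNReal.ofReal (C₀ * κ) * (eLpNorm (lc (D₁ * R) g₁ y) 3 volume *
      eLpNorm (lc (1 * R) g₂ y) 3 volume * eLpNorm (lc (D₃ * R) g₃ y) 3 volume) := by
    intro y
    have k₁ := lm (D₁ * R) g₁ n₁.meas l₁ y
    have k₂ := lm (1 * R) g₂ n₂.meas l₂ y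
    have k₃ := lm (D₃ * R) g₃ n₃.meas l₃ y
    have h1 := hC₀ κ R hκ hR0 (fun x => h (x + y)) (mh.comp (measurable_id.add_const y))
      ⟨B, fun x => hB _⟩ (hrep y) (lc (D₁ * R) g₁ y) (lc (1 * R) g₂ y) (lc (D₃ * R) g₃ y)
      (lc_meas _ n₁.meas y) (lc_meas _ n₂.meas y) (lc_meas _ n₃.meas y) k₁ k₂ k₃
      (fun u hu => lc_of_gt (by linarith) _ _) ε R hε hR le_rfl
    rw [← ofReal_norm]
    refine (ENNReal.ofReal_le_ofReal h1).trans (le_of_eq ?_)
    rw [ENNReal.ofReal_mul (p := C₀ * κ) (by positivity),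
      ENNReal.ofReal_mul (q := (eLpNorm (lc (D₃ * R) g₃ y) 3 volume).toReal) (by positivity),
      ENNReal.ofReal_mul (q := (eLpNorm (lc (1 * R) g₂ y) 3 volume).toReal) (by positivity),
      ENNReal.ofReal_toReal k₁.2.ne, ENNReal.ofReal_toReal k₂.2.ne,
      ENNReal.ofReal_toReal k₃.2.ne]
  -- the translation identity
  set G : ℝ → ℝ × ℝ → ℂ := fun y p => (Icc (-R) R).indicator 1 (y - (p.1 - α₂ * p.2)) *
    wk ε R α₀ α₁ α₂ α₃ h g₁ g₂ g₃ p with hG
  have hFG : ∀ y, F y = ∫ p, G y p := by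
    intro y
    change (∫ p, wk ε R α₀ α₁ α₂ α₃ (fun x => h (x + y)) (lc (D₁ * R) g₁ y)
      (lc (1 * R) g₂ y) (lc (D₃ * R) g₃ y) p) = _
    have h1 := integral_add_right_eq_self (μ := (volume : Measure (ℝ × ℝ))) (G y) (y, 0)
    rw [← h1]
    congr 1
    funext p
    simp only [hG, wk, bk, Prod.fst_add, Prod.snd_add, add_zero]
    by_cases hA : ε < |p.2| ∧ |p.2| < R
    swap
    · simp [hA]
    rw [if_pos hA, if_pos hA]
    have e2 : y - (p.1 + y - α₂ * p.2) = -(p.1 - α₂ * p.2) := by ring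
    rw [e2]
    by_cases hu : |p.1 - α₂ * p.2| ≤ R
    · have b1 : |p.1 - α₁ * p.2| ≤ D₁ * R := by
        have e : p.1 - α₁ * p.2 = (p.1 - α₂ * p.2) + (α₂ - α₁) * p.2 := by ring
        have h2 : |p.1 - α₁ * p.2| ≤ |p.1 - α₂ * p.2| + |α₂ - α₁| * |p.2| := by
          rw [e, ← abs_mul]; exact abs_add_le _ _
        have h3 : |α₂ - α₁| * |p.2| ≤ |α₂ - α₁| * R :=
          mul_le_mul_of_nonneg_left hA.2.le (abs_nonneg _)
        rw [hD₁]; linarith
      have b3 : |p.1 - α₃ * p.2| ≤ D₃ * R := by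
        have e : p.1 - α₃ * p.2 = (p.1 - α₂ * p.2) + (α₂ - α₃) * p.2 := by ring
        have h2 : |p.1 - α₃ * p.2| ≤ |p.1 - α₂ * p.2| + |α₂ - α₃| * |p.2| := by
          rw [e, ← abs_mul]; exact abs_add_le _ _
        have h3 : |α₂ - α₃| * |p.2| ≤ |α₂ - α₃| * R :=
          mul_le_mul_of_nonneg_left hA.2.le (abs_nonneg _)
        rw [hD₃]; linarith
      rw [lc_of_abs b1, lc_of_abs (by rw [one_mul]; exact hu), lc_of_abs b3,
        indicator_of_mem (show -(p.1 - α₂ * p.2) ∈ Icc (-R) R from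
          abs_le.1 (by rw [abs_neg]; exact hu))]
      have e3 : p.1 - α₁ * p.2 + y = p.1 + y - α₁ * p.2 := by ring
      have e4 : p.1 - α₂ * p.2 + y = p.1 + y - α₂ * p.2 := by ring
      have e5 : p.1 - α₃ * p.2 + y = p.1 + y - α₃ * p.2 := by ring
      have e6 : p.1 - α₀ * p.2 + y = p.1 + y - α₀ * p.2 := by ring
      rw [e3, e4, e5, e6]
      simp
    · push Not at hu
      rw [lc_of_gt (v := p.1 - α₂ * p.2) (by rw [one_mul]; exact hu),
        indicator_of_notMem (fun hc : -(p.1 - α₂ * p.2) ∈ Icc (-R) R =>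
          absurd (by rw [← abs_neg]; exact abs_le.2 hc) (not_le.2 hu))]
      simp
  have hwi := wk_int (R := R) (α₀ := α₀) (α₁ := α₁) (α₂ := α₂) (α₃ := α₃) hε mh hB n₁ n₂ n₃
  have hIc : ∀ u : ℝ, (fun y : ℝ => (Icc (-R) R).indicator (1 : ℝ → ℂ) (y - u))
      = (Icc (u - R) (u + R)).indicator 1 := by
    intro u
    funext y
    by_cases hy : y ∈ Icc (u - R) (u + R)
    · rw [indicator_of_mem hy, indicator_of_mem (show y - u ∈ Icc (-R) R from
        ⟨by linarith [hy.1], by linarith [hy.2]⟩)]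
      rfl
    · rw [indicator_of_notMem hy, indicator_of_notMem (fun hc : y - u ∈ Icc (-R) R =>
        hy ⟨by linarith [hc.1], by linarith [hc.2]⟩)]
  have hI1 : ∀ u : ℝ, ∫ y : ℝ, (Icc (-R) R).indicator (1 : ℝ → ℂ) (y - u) = 2 * R := by
    intro u
    rw [hIc u, integral_indicator measurableSet_Icc]
    simp only [Pi.one_apply, setIntegral_const, measureReal_def, Real.volume_Icc]
    rw [ENNReal.toReal_ofReal (by linarith)]
    simp only [Complex.real_smul, mul_one]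
    push_cast
    ring
  have hGm : Measurable (Function.uncurry G) := by
    refine Measurable.mul ((measurable_one.indicator measurableSet_Icc).comp ?_)
      ((wk_meas mh n₁.meas n₂.meas n₃.meas).comp measurable_snd)
    fun_prop
  have hGi : Integrable (Function.uncurry G) ((volume : Measure ℝ).prod volume) := by
    rw [integrable_prod_iff' hGm.aestronglyMeasurable]
    constructor
    · refine ae_of_all _ fun p => ?_
      have h1 : (fun y => Function.uncurry G (y, p)) = fun y =>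
          (Icc ((p.1 - α₂ * p.2) - R) ((p.1 - α₂ * p.2) + R)).indicator (1 : ℝ → ℂ) y *
            wk ε R α₀ α₁ α₂ α₃ h g₁ g₂ g₃ p := by
        funext y
        rw [← congrFun (hIc (p.1 - α₂ * p.2)) y]
        rfl
      rw [h1]
      refine Integrable.mul_const ?_ _
      rw [integrable_indicator_iff measurableSet_Icc]
      exact integrableOn_const (by rw [Real.volume_Icc]; exact ENNReal.ofReal_ne_top)
    · have h1 : ∀ p : ℝ × ℝ, ∫ y, ‖Function.uncurry G (y, p)‖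
          = 2 * R * ‖wk ε R α₀ α₁ α₂ α₃ h g₁ g₂ g₃ p‖ := by
        intro p
        have h2 : ∀ y, ‖Function.uncurry G (y, p)‖
            = (Icc ((p.1 - α₂ * p.2) - R) ((p.1 - α₂ * p.2) + R)).indicator
              (fun _ => ‖wk ε R α₀ α₁ α₂ α₃ h g₁ g₂ g₃ p‖) y := by
          intro y
          have h3 : Function.uncurry G (y, p) =
              (Icc ((p.1 - α₂ * p.2) - R) ((p.1 - α₂ * p.2) + R)).indicator (1 : ℝ → ℂ) y *
              wk ε R α₀ α₁ α₂ α₃ h g₁ g₂ g₃ p := by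
            rw [← congrFun (hIc (p.1 - α₂ * p.2)) y]
            rfl
          rw [h3]
          by_cases hy : y ∈ Icc ((p.1 - α₂ * p.2) - R) ((p.1 - α₂ * p.2) + R)
          · rw [indicator_of_mem hy, indicator_of_mem hy]; simp
          · rw [indicator_of_notMem hy, indicator_of_notMem hy]; simp
        simp only [h2]
        rw [integral_indicator measurableSet_Icc, setIntegral_const, measureReal_def,
          Real.volume_Icc, ENNReal.toReal_ofReal (by linarith), smul_eq_mul]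
        congr 1
        ring
      simp only [h1]
      exact hwi.norm.const_mul _
  have hsum : ∫ y, F y = 2 * R * ∫ p, wk ε R α₀ α₁ α₂ α₃ h g₁ g₂ g₃ p := by
    simp only [hFG]
    rw [integral_integral_swap hGi, ← integral_const_mul]
    congr 1
    funext p
    simp only [hG]
    rw [integral_mul_const, hI1]
  -- the conclusion
  have hfin : ENNReal.ofReal (2 * R * ‖∫ p, wk ε R α₀ α₁ α₂ α₃ h g₁ g₂ g₃ p‖) ≤
      ENNReal.ofReal (C₀ * κ) * ((ENNReal.ofReal ((2 * (D₁ * R)) ^ (1 / 3 : ℝ)) *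
        eLpNorm g₁ 3 volume) * (ENNReal.ofReal ((2 * (1 * R)) ^ (1 / 3 : ℝ)) *
        eLpNorm g₂ 3 volume) * (ENNReal.ofReal ((2 * (D₃ * R)) ^ (1 / 3 : ℝ)) *
        eLpNorm g₃ 3 volume)) := by
    have h1 : ‖∫ y, F y‖ = 2 * R * ‖∫ p, wk ε R α₀ α₁ α₂ α₃ h g₁ g₂ g₃ p‖ := by
      rw [hsum, norm_mul, norm_mul, Complex.norm_real, Real.norm_of_nonneg hR0.le]
      simp
    rw [← h1, ofReal_norm]
    refine (enorm_integral_le_lintegral_enorm F).trans ?_
    refine (lintegral_mono hFb).trans ?_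
    rw [lintegral_const_mul' _ _ ENNReal.ofReal_ne_top]
    refine mul_le_mul_right ?_ _
    refine (hold3 (lc_cube_meas _ n₁.meas) (lc_cube_meas _ n₂.meas)
      (lc_cube_meas _ n₃.meas)).trans (le_of_eq ?_)
    rw [lc_cube (by positivity) n₁.meas, lc_cube (by positivity) n₂.meas,
      lc_cube (by positivity) n₃.meas, cube_rt (by positivity), cube_rt (by positivity),
      cube_rt (by positivity)]
  have hfin' := ENNReal.toReal_mono (by
    have := l₁.2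
    have := l₂.2
    have := l₃.2
    finiteness) hfin
  rw [ENNReal.toReal_ofReal (by positivity)] at hfin'
  simp only [ENNReal.toReal_mul] at hfin'
  rw [ENNReal.toReal_ofReal (by positivity), ENNReal.toReal_ofReal (by positivity),
    ENNReal.toReal_ofReal (by positivity), ENNReal.toReal_ofReal (by positivity)] at hfin'
  set X := ‖∫ p, wk ε R α₀ α₁ α₂ α₃ h g₁ g₂ g₃ p‖
  set a₁ := (eLpNorm g₁ 3 volume).toReal
  set a₂ := (eLpNorm g₂ 3 volume).toReal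
  set a₃ := (eLpNorm g₃ 3 volume).toReal
  set ν : ℝ := (2 * R) ^ (1 / 3 : ℝ) with hν
  have hν3 : ν ^ 3 = 2 * R := by
    rw [hν, ← Real.rpow_natCast, ← Real.rpow_mul (by positivity)]; norm_num
  have q1 : (2 * (D₁ * R)) ^ (1 / 3 : ℝ) = D₁ ^ (1 / 3 : ℝ) * ν := by
    rw [hν, ← Real.mul_rpow hD₁0.le (by positivity)]
    congr 1; ring
  have q2 : (2 * (1 * R)) ^ (1 / 3 : ℝ) = ν := by
    rw [hν, one_mul]
  have q3 : (2 * (D₃ * R)) ^ (1 / 3 : ℝ) = D₃ ^ (1 / 3 : ℝ) * ν := by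
    rw [hν, ← Real.mul_rpow hD₃0.le (by positivity)]
    congr 1; ring
  rw [q1, q2, q3] at hfin'
  have h2R : 0 < 2 * R := by positivity
  refine le_of_mul_le_mul_left ?_ h2R
  refine hfin'.trans (le_of_eq ?_)
  rw [← hν3]
  ring

end Vale.Agent.P141.R2.H106
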