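import Vale.Agent.P141.R2.H106.Nu

/-!
# The twisted form, structure at the scale of the distance to a finite set
-/

namespace Vale.Agent.P141.R2.H106

open MeasureTheory Set Filter Topology
open scoped ENNReal
open Vale.Agent.P141.H97

/-- the local form around `y` -/
noncomputable def lf (E : Finset ℝ) (D₁ D₃ η ε R α₀ α₁ α₂ α₃ : ℝ) (h g₁ g₂ g₃ : ℝ → ℂ)
    (y : ℝ) : ℂ :=
  ∫ p, wk ε (min R (η * dE E y)) α₀ α₁ α₂ α₃ (fun x => h (x + y))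
    (lc (D₁ * η * dE E y) g₁ y) (lc (η * dE E y) g₂ y) (lc (D₃ * η * dE E y) g₃ y) p

/-- the window set, as a set of centres, for a point of the plane -/
def Bw (E : Finset ℝ) (η α₂ : ℝ) (p : ℝ × ℝ) : Set ℝ :=
  {y | |p.1 - α₂ * p.2 - y| ≤ η * dE E y ∧ |p.2| < η * dE E y}

theorem Bw_meas (E : Finset ℝ) (η α₂ : ℝ) (p : ℝ × ℝ) : MeasurableSet (Bw E η α₂ p) :=
  (measurableSet_le (by fun_prop) ((dE_meas E).const_mul η)).inter
    (measurableSet_lt measurable_const ((dE_meas E).const_mul η))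

theorem Bw_sub (E : Finset ℝ) (η α₂ : ℝ) (p : ℝ × ℝ) :
    Bw E η α₂ p ⊆ Aw E η (p.1 - α₂ * p.2) := fun _ h => h.1

/-- the twisted integrand restricted to the window of `y` -/
noncomputable def wi (E : Finset ℝ) (η ε R α₀ α₁ α₂ α₃ : ℝ) (h g₁ g₂ g₃ : ℝ → ℂ) (y : ℝ)
    (p : ℝ × ℝ) : ℂ :=
  (Bw E η α₂ p).indicator (fun _ => wk ε R α₀ α₁ α₂ α₃ h g₁ g₂ g₃ p) y

theorem lf_eq {E : Finset ℝ} {D₁ D₃ η ε R α₀ α₁ α₂ α₃ : ℝ} (hη : 0 ≤ η)
    (h1 : 1 + |α₂ - α₁| ≤ D₁) (h3 : 1 + |α₂ - α₃| ≤ D₃) (h g₁ g₂ g₃ : ℝ → ℂ) (y : ℝ) :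
    lf E D₁ D₃ η ε R α₀ α₁ α₂ α₃ h g₁ g₂ g₃ y
      = ∫ p, wi E η ε R α₀ α₁ α₂ α₃ h g₁ g₂ g₃ y p := by
  unfold lf
  rw [← integral_add_right_eq_self (μ := (volume : Measure (ℝ × ℝ)))
    (wi E η ε R α₀ α₁ α₂ α₃ h g₁ g₂ g₃ y) (y, 0)]
  congr 1
  funext p
  have e2 : p.1 + y - α₂ * p.2 - y = p.1 - α₂ * p.2 := by ring
  have hmem : y ∈ Bw E η α₂ (p + (y, 0)) ↔
      |p.1 - α₂ * p.2| ≤ η * dE E y ∧ |p.2| < η * dE E y := by
    show |p.1 + y - α₂ * (p.2 + 0) - y| ≤ η * dE E y ∧ |p.2 + 0| < η * dE E y ↔ _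
    rw [add_zero, e2]
  unfold wi
  by_cases hA : ε < |p.2| ∧ |p.2| < R
  swap
  · have z1 : wk ε (min R (η * dE E y)) α₀ α₁ α₂ α₃ (fun x => h (x + y))
        (lc (D₁ * η * dE E y) g₁ y) (lc (η * dE E y) g₂ y) (lc (D₃ * η * dE E y) g₃ y) p = 0 := by
      unfold wk bk
      rw [if_neg (fun hc => hA ⟨hc.1, hc.2.trans_le (min_le_left _ _)⟩), zero_mul]
    have z2 : wk ε R α₀ α₁ α₂ α₃ h g₁ g₂ g₃ (p + (y, 0)) = 0 := by
      unfold wk bk
      simp only [Prod.snd_add, add_zero]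
      rw [if_neg hA, zero_mul]
    rw [z1, z2]
    simp
  by_cases ht : |p.2| < η * dE E y
  swap
  · have z1 : wk ε (min R (η * dE E y)) α₀ α₁ α₂ α₃ (fun x => h (x + y))
        (lc (D₁ * η * dE E y) g₁ y) (lc (η * dE E y) g₂ y) (lc (D₃ * η * dE E y) g₃ y) p = 0 := by
      unfold wk bk
      rw [if_neg (fun hc => ht (hc.2.trans_le (min_le_right _ _))), zero_mul]
    rw [z1, indicator_of_notMem (fun hc => ht (hmem.1 hc).2)]
  by_cases hu : |p.1 - α₂ * p.2| ≤ η * dE E y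
  swap
  · rw [indicator_of_notMem (fun hc => hu (hmem.1 hc).1)]
    unfold wk bk
    rw [lc_of_gt (v := p.1 - α₂ * p.2) (not_le.1 hu)]
    simp
  rw [indicator_of_mem (hmem.2 ⟨hu, ht⟩)]
  have hd := dE_nonneg E y
  have b : ∀ a D : ℝ, 1 + |α₂ - a| ≤ D → |p.1 - a * p.2| ≤ D * η * dE E y := by
    intro a D hD
    have e : p.1 - a * p.2 = (p.1 - α₂ * p.2) + (α₂ - a) * p.2 := by ring
    have h2 : |p.1 - a * p.2| ≤ |p.1 - α₂ * p.2| + |α₂ - a| * |p.2| := by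
      rw [e, ← abs_mul]; exact abs_add_le _ _
    have h3 : |α₂ - a| * |p.2| ≤ |α₂ - a| * (η * dE E y) :=
      mul_le_mul_of_nonneg_left ht.le (abs_nonneg _)
    have h4 : (1 + |α₂ - a|) * (η * dE E y) ≤ D * (η * dE E y) := by gcongr
    calc |p.1 - a * p.2| ≤ (1 + |α₂ - a|) * (η * dE E y) := by linarith
      _ ≤ D * (η * dE E y) := h4
      _ = _ := by ring
  unfold wk bk
  simp only [Prod.fst_add, Prod.snd_add, add_zero]
  rw [if_pos ⟨hA.1, lt_min hA.2 ht⟩, if_pos hA, lc_of_abs (b α₁ D₁ h1), lc_of_abs hu,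
    lc_of_abs (b α₃ D₃ h3)]
  have e3 : p.1 - α₁ * p.2 + y = p.1 + y - α₁ * p.2 := by ring
  have e4 : p.1 - α₂ * p.2 + y = p.1 + y - α₂ * p.2 := by ring
  have e5 : p.1 - α₃ * p.2 + y = p.1 + y - α₃ * p.2 := by ring
  have e6 : p.1 - α₀ * p.2 + y = p.1 + y - α₀ * p.2 := by ring
  rw [e3, e4, e5, e6]

theorem wi_meas {E : Finset ℝ} {η ε R α₀ α₁ α₂ α₃ : ℝ} {h g₁ g₂ g₃ : ℝ → ℂ} (mh : Measurable h)
    (m₁ : Measurable g₁) (m₂ : Measurable g₂) (m₃ : Measurable g₃) :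
    Measurable (Function.uncurry (wi E η ε R α₀ α₁ α₂ α₃ h g₁ g₂ g₃)) := by
  have e : Function.uncurry (wi E η ε R α₀ α₁ α₂ α₃ h g₁ g₂ g₃) =
      ({q : ℝ × ℝ × ℝ | |q.2.1 - α₂ * q.2.2 - q.1| ≤ η * dE E q.1 ∧
        |q.2.2| < η * dE E q.1}).indicator
        (fun q => wk ε R α₀ α₁ α₂ α₃ h g₁ g₂ g₃ q.2) := by
    funext q
    simp only [Function.uncurry, wi]
    by_cases hq : q.1 ∈ Bw E η α₂ q.2
    · rw [indicator_of_mem hq, indicator_of_mem (show q ∈ {q : ℝ × ℝ × ℝ |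
        |q.2.1 - α₂ * q.2.2 - q.1| ≤ η * dE E q.1 ∧ |q.2.2| < η * dE E q.1} from hq)]
    · rw [indicator_of_notMem hq, indicator_of_notMem (show q ∉ {q : ℝ × ℝ × ℝ |
        |q.2.1 - α₂ * q.2.2 - q.1| ≤ η * dE E q.1 ∧ |q.2.2| < η * dE E q.1} from hq)]
  rw [e]
  refine Measurable.indicator ((wk_meas mh m₁ m₂ m₃).comp measurable_snd) ?_
  exact (measurableSet_le (by fun_prop) (((dE_meas E).comp measurable_fst).const_mul η)).inter
    (measurableSet_lt (by fun_prop) (((dE_meas E).comp measurable_fst).const_mul η))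

/-- the weight of a point -/
noncomputable def wt (E : Finset ℝ) (η u : ℝ) : ℝ := ((nu E) (Aw E η u)).toReal

theorem wt_meas (E : Finset ℝ) (η : ℝ) : Measurable (wt E η) := by
  have := nu_sfinite E
  have h : MeasurableSet {q : ℝ × ℝ | |q.1 - q.2| ≤ η * dE E q.2} :=
    measurableSet_le (by fun_prop) (((dE_meas E).comp measurable_snd).const_mul η)
  exact (measurable_measure_prodMk_left (ν := nu E) h).ennreal_toReal

theorem wt_ge {E : Finset ℝ} {η u : ℝ} (hη : 0 < η) (hη2 : η ≤ 1 / 2) (hu : 0 < dE E u) :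
    η / 2 ≤ wt E η u := by
  have h1 := nu_ge hη hη2 hu
  have h2 := nu_le hη.le hη2 hu
  exact (ENNReal.ofReal_le_iff_le_toReal (h2.trans_lt (by norm_num)).ne).1 h1

/-- division by the weight -/
noncomputable def dv (E : Finset ℝ) (η : ℝ) (g : ℝ → ℂ) (u : ℝ) : ℂ :=
  if dE E u = 0 then 0 else g u / (wt E η u : ℂ)

theorem dv_meas {E : Finset ℝ} {η : ℝ} {g : ℝ → ℂ} (hg : Measurable g) :
    Measurable (dv E η g) :=
  Measurable.ite ((dE_meas E) (measurableSet_singleton 0)) measurable_const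
    (hg.div (Complex.measurable_ofReal.comp (wt_meas E η)))

theorem dv_norm {E : Finset ℝ} {η : ℝ} (hη : 0 < η) (hη2 : η ≤ 1 / 2) (g : ℝ → ℂ) (u : ℝ) :
    ‖dv E η g u‖ ≤ 2 / η * ‖g u‖ := by
  unfold dv
  split_ifs with h0
  · rw [norm_zero]; positivity
  · have hu : 0 < dE E u := lt_of_le_of_ne (dE_nonneg E u) (Ne.symm h0)
    have h1 := wt_ge hη hη2 hu
    rw [norm_div, Complex.norm_real, Real.norm_of_nonneg (by linarith : 0 ≤ wt E η u),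
      div_eq_mul_inv, mul_comm]
    have h2 : (wt E η u)⁻¹ ≤ 2 / η := by
      rw [← inv_div]
      exact inv_anti₀ (by positivity) h1
    gcongr

theorem dv_nice {E : Finset ℝ} {η : ℝ} (hη : 0 < η) (hη2 : η ≤ 1 / 2) {g : ℝ → ℂ} (hg : Nice g) :
    Nice (dv E η g) := by
  obtain ⟨B, hB⟩ := hg.bdd
  refine ⟨dv_meas hg.meas, ⟨2 / η * B, fun x => (dv_norm hη hη2 g x).trans ?_⟩, ?_⟩
  · have := hB x
    gcongr
  · exact (hg.int.norm.const_mul (2 / η)).mono' (dv_meas hg.meas).aestronglyMeasurable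
      (ae_of_all _ fun x => dv_norm hη hη2 g x)

theorem dv_elp {E : Finset ℝ} {η : ℝ} (hη : 0 < η) (hη2 : η ≤ 1 / 2) (g : ℝ → ℂ) :
    eLpNorm (dv E η g) 3 volume ≤ ENNReal.ofReal (2 / η) * eLpNorm g 3 volume :=
  eLpNorm_le_mul_eLpNorm_of_ae_le_mul (ae_of_all _ fun x => dv_norm hη hη2 g x) 3

end Vale.Agent.P141.R2.H106
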