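import Vale.Agent.P141.R2.H106.Near

/-!
# The near part
-/

namespace Vale.Agent.P141.R2.H106

open MeasureTheory Set Filter Topology
open scoped ENNReal
open Vale.Agent.P141.H97

theorem lc_memLp {D : ℝ} {g : ℝ → ℂ} (hg : Measurable g) (hgl : MemLp g 3 volume) (y : ℝ) :
    MemLp (lc D g y) 3 volume := by
  refine MemLp.mono (g := fun v => g (v + y)) ?_ (lc_meas D hg y).aestronglyMeasurable
    (ae_of_all _ fun v => lc_norm_le D g y v)
  exact hgl.comp_measurePreserving (measurePreserving_add_right volume y)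

theorem four_cube (A B C : ℝ≥0∞) : (4 * A ^ (3 : ℝ)) ^ (1 / 3 : ℝ) *
    (4 * B ^ (3 : ℝ)) ^ (1 / 3 : ℝ) * (4 * C ^ (3 : ℝ)) ^ (1 / 3 : ℝ) = 4 * (A * B * C) := by
  have q : ∀ X : ℝ≥0∞, (4 * X ^ (3 : ℝ)) ^ (1 / 3 : ℝ) = 4 ^ (1 / 3 : ℝ) * X := by
    intro X
    rw [ENNReal.mul_rpow_of_nonneg _ _ (by norm_num), ← ENNReal.rpow_mul]
    norm_num
  have h4 : (4 : ℝ≥0∞) ^ (1 / 3 : ℝ) * 4 ^ (1 / 3 : ℝ) * 4 ^ (1 / 3 : ℝ) = 4 := by
    rw [← ENNReal.rpow_add _ _ (by norm_num) (by norm_num),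
      ← ENNReal.rpow_add _ _ (by norm_num) (by norm_num)]
    norm_num
  rw [q, q, q]
  calc 4 ^ (1 / 3 : ℝ) * A * (4 ^ (1 / 3 : ℝ) * B) * (4 ^ (1 / 3 : ℝ) * C)
      = (4 ^ (1 / 3 : ℝ) * 4 ^ (1 / 3 : ℝ) * 4 ^ (1 / 3 : ℝ)) * (A * B * C) := by ring
    _ = _ := by rw [h4]

theorem wk_norm {ε R α₀ α₁ α₂ α₃ κ : ℝ} {h g₁ g₂ g₃ : ℝ → ℂ} (hκ : ∀ x, ‖h x‖ ≤ κ)
    (p : ℝ × ℝ) : ‖wk ε R α₀ α₁ α₂ α₃ h g₁ g₂ g₃ p‖ₑ ≤ ENNReal.ofReal κ *
      (ENNReal.ofReal |p.2|⁻¹ * (‖g₁ (p.1 - α₁ * p.2)‖ₑ * ‖g₂ (p.1 - α₂ * p.2)‖ₑ *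
        ‖g₃ (p.1 - α₃ * p.2)‖ₑ)) := by
  unfold wk bk
  split_ifs with hA
  · rw [div_eq_mul_inv]
    simp only [enorm_mul]
    have h1 : ‖(((p.2 : ℝ) : ℂ))⁻¹‖ₑ = ENNReal.ofReal |p.2|⁻¹ := by
      rw [← ofReal_norm, norm_inv, Complex.norm_real, Real.norm_eq_abs]
    have h2 : ‖h (p.1 - α₀ * p.2)‖ₑ ≤ ENNReal.ofReal κ := by
      rw [← ofReal_norm]
      exact ENNReal.ofReal_le_ofReal (hκ _)
    rw [h1]
    calc _ ≤ ‖g₁ (p.1 - α₁ * p.2)‖ₑ * ‖g₂ (p.1 - α₂ * p.2)‖ₑ * ‖g₃ (p.1 - α₃ * p.2)‖ₑ *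
          ENNReal.ofReal |p.2|⁻¹ * ENNReal.ofReal κ := by gcongr
      _ = _ := by ring
  · simp

theorem near (α₀ α₁ α₂ α₃ : ℝ) (h12 : α₁ ≠ α₂) (h23 : α₂ ≠ α₃) {c : ℝ} (hc : 0 < c) :
    ∃ C η' : ℝ, 0 ≤ C ∧ 0 < η' ∧ |α₂ - α₁| * η' ≤ 1 ∧ |α₂ - α₃| * η' ≤ 1 ∧
      ∀ κ ε R : ℝ, 0 ≤ κ → 0 < ε → ε < R → ∀ E : Finset ℝ, E.Nonempty → ∀ h : ℝ → ℂ,
      Measurable h → (∀ x, ‖h x‖ ≤ κ) →
      (∀ y, y ∉ E → Rep κ (c * dE E y) (fun x => h (x + y))) →
      ∀ g₁ g₂ g₃ : ℝ → ℂ, Nice g₁ → Nice g₂ → Nice g₃ →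
        ‖∫ p, wk ε R α₀ α₁ α₂ α₃ h g₁ g₂ g₃ p‖ₑ ≤ ENNReal.ofReal (C * κ) *
          (eLpNorm g₁ 3 volume * eLpNorm g₂ 3 volume * eLpNorm g₃ 3 volume) +
          ENNReal.ofReal κ * PF (RE E η' α₂) α₁ α₂ α₃ g₁ g₂ g₃ := by
  obtain ⟨C₀, c₀, hC₀, hc₀, H⟩ := wk_cs α₀ α₁ α₂ α₃ h12 h23
  set D₁ : ℝ := 1 + |α₂ - α₁| with hD₁
  set D₃ : ℝ := 1 + |α₂ - α₃| with hD₃
  have hD₁1 : 1 ≤ D₁ := by rw [hD₁]; linarith [abs_nonneg (α₂ - α₁)]
  have hD₃1 : 1 ≤ D₃ := by rw [hD₃]; linarith [abs_nonneg (α₂ - α₃)]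
  set η : ℝ := min (1 / (2 * (D₁ + D₃))) (c / c₀) with hηd
  have hη : 0 < η := lt_min (by positivity) (by positivity)
  have hη1 : η ≤ 1 / (2 * (D₁ + D₃)) := min_le_left _ _
  have hηc : c₀ * η ≤ c := by
    have : η ≤ c / c₀ := min_le_right _ _
    rw [le_div_iff₀ hc₀] at this
    linarith
  have hDη : (D₁ + D₃) * η ≤ 1 / 2 := by
    calc (D₁ + D₃) * η ≤ (D₁ + D₃) * (1 / (2 * (D₁ + D₃))) := by gcongr
      _ = 1 / 2 := by field_simp
  have hD₁η : D₁ * η ≤ 1 / 2 := by nlinarith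
  have hD₃η : D₃ * η ≤ 1 / 2 := by nlinarith
  have hη2 : η ≤ 1 / 2 := by nlinarith
  set η' : ℝ := η / (1 + η) with hη'
  have hη'0 : 0 < η' := by positivity
  have hη'η : η' ≤ η := div_le_self hη.le (by linarith)
  refine ⟨C₀ * 4 * (2 / η), η', by positivity, hη'0, ?_, ?_, ?_⟩
  · calc |α₂ - α₁| * η' ≤ D₁ * η := by
          have : |α₂ - α₁| ≤ D₁ := by rw [hD₁]; linarith
          gcongr
      _ ≤ 1 := by linarith
  · calc |α₂ - α₃| * η' ≤ D₃ * η := by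
          have : |α₂ - α₃| ≤ D₃ := by rw [hD₃]; linarith
          gcongr
      _ ≤ 1 := by linarith
  intro κ ε R hκ hε hR E hE h mh hB hrep g₁ g₂ g₃ n₁ n₂ n₃
  have sf := nu_sfinite E
  set q₂ : ℝ → ℂ := dv E η g₂ with hq₂
  have nq : Nice q₂ := dv_nice hη hη2 n₂
  have l₁ := n₁.memLp (p := 3) (by norm_num) (by norm_num)
  have lq := nq.memLp (p := 3) (by norm_num) (by norm_num)
  have l₃ := n₃.memLp (p := 3) (by norm_num) (by norm_num)
  set F : ℝ → ℂ := lf E D₁ D₃ η ε R α₀ α₁ α₂ α₃ h g₁ q₂ g₃ with hF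
  set W : ℝ × ℝ → ℂ := wk ε R α₀ α₁ α₂ α₃ h g₁ q₂ g₃ with hW
  have hWi : Integrable W volume := wk_int hε mh hB n₁ nq n₃
  -- (1) the local forms
  have hFb : ∀ᵐ y ∂(nu E), ‖F y‖ₑ ≤ ENNReal.ofReal (C₀ * κ) *
      (eLpNorm (lc (D₁ * η * dE E y) g₁ y) 3 volume * eLpNorm (lc (η * dE E y) q₂ y) 3 volume *
        eLpNorm (lc (D₃ * η * dE E y) g₃ y) 3 volume) := by
    filter_upwards [(nu_ac E).ae_le (ae_notMem E)] with y hy
    have hd : 0 < dE E y := dE_pos hE hy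
    have k₁ := lc_memLp (D := D₁ * η * dE E y) n₁.meas l₁ y
    have k₂ := lc_memLp (D := η * dE E y) nq.meas lq y
    have k₃ := lc_memLp (D := D₃ * η * dE E y) n₃.meas l₃ y
    rcases lt_or_ge ε (min R (η * dE E y)) with hlt | hge
    · have hr : Rep κ (c₀ * (η * dE E y)) (fun x => h (x + y)) := by
        refine (hrep y hy).mono ?_
        calc c₀ * (η * dE E y) = (c₀ * η) * dE E y := by ring
          _ ≤ c * dE E y := by gcongr
      have h1 := H κ (η * dE E y) hκ (by positivity) (fun x => h (x + y))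
        (mh.comp (measurable_id.add_const y)) ⟨κ, fun x => hB _⟩ hr
        (lc (D₁ * η * dE E y) g₁ y) (lc (η * dE E y) q₂ y) (lc (D₃ * η * dE E y) g₃ y)
        (lc_meas _ n₁.meas y) (lc_meas _ nq.meas y) (lc_meas _ n₃.meas y) k₁ k₂ k₃
        (fun u hu => lc_of_gt hu _ _) ε (min R (η * dE E y)) hε hlt (min_le_right _ _)
      show ‖lf E D₁ D₃ η ε R α₀ α₁ α₂ α₃ h g₁ q₂ g₃ y‖ₑ ≤ _
      unfold lf
      rw [← ofReal_norm]
      refine (ENNReal.ofReal_le_ofReal h1).trans (le_of_eq ?_)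
      rw [ENNReal.ofReal_mul (p := C₀ * κ) (by positivity),
        ENNReal.ofReal_mul (q := (eLpNorm (lc (D₃ * η * dE E y) g₃ y) 3 volume).toReal)
          (by positivity),
        ENNReal.ofReal_mul (q := (eLpNorm (lc (η * dE E y) q₂ y) 3 volume).toReal)
          (by positivity),
        ENNReal.ofReal_toReal k₁.2.ne, ENNReal.ofReal_toReal k₂.2.ne,
        ENNReal.ofReal_toReal k₃.2.ne]
    · have h0 : F y = 0 := by
        show lf E D₁ D₃ η ε R α₀ α₁ α₂ α₃ h g₁ q₂ g₃ y = 0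
        unfold lf
        have : ∀ p : ℝ × ℝ, wk ε (min R (η * dE E y)) α₀ α₁ α₂ α₃ (fun x => h (x + y))
            (lc (D₁ * η * dE E y) g₁ y) (lc (η * dE E y) q₂ y)
            (lc (D₃ * η * dE E y) g₃ y) p = 0 := by
          intro p
          unfold wk bk
          rw [if_neg (fun hcon => absurd (hcon.1.trans hcon.2) (not_lt.2 hge)), zero_mul]
        simp [this]
      rw [h0]
      simp
  have hF1 : ‖∫ y, F y ∂(nu E)‖ₑ ≤ ENNReal.ofReal (C₀ * 4 * (2 / η) * κ) *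
      (eLpNorm g₁ 3 volume * eLpNorm g₂ 3 volume * eLpNorm g₃ 3 volume) := by
    refine (enorm_integral_le_lintegral_enorm F).trans ?_
    refine (lintegral_mono_ae hFb).trans ?_
    rw [lintegral_const_mul' _ _ ENNReal.ofReal_ne_top]
    have hc1 := lcv_cube (D := D₁ * η) hE (by positivity) hD₁η n₁.meas
    have hc2 := lcv_cube (D := η) hE (by positivity) hη2 nq.meas
    have hc3 := lcv_cube (D := D₃ * η) hE (by positivity) hD₃η n₃.meas
    calc ENNReal.ofReal (C₀ * κ) * ∫⁻ y, (eLpNorm (lc (D₁ * η * dE E y) g₁ y) 3 volume *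
          eLpNorm (lc (η * dE E y) q₂ y) 3 volume *
          eLpNorm (lc (D₃ * η * dE E y) g₃ y) 3 volume) ∂(nu E)
        ≤ ENNReal.ofReal (C₀ * κ) * ((4 * (eLpNorm g₁ 3 volume) ^ (3 : ℝ)) ^ (1 / 3 : ℝ) *
          (4 * (eLpNorm q₂ 3 volume) ^ (3 : ℝ)) ^ (1 / 3 : ℝ) *
          (4 * (eLpNorm g₃ 3 volume) ^ (3 : ℝ)) ^ (1 / 3 : ℝ)) := by
          gcongr
          refine (hold3' (nu E) (lcv_cube_meas E (D₁ * η) n₁.meas)
            (lcv_cube_meas E η nq.meas) (lcv_cube_meas E (D₃ * η) n₃.meas)).trans ?_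
          gcongr
      _ = ENNReal.ofReal (C₀ * κ) * (4 * (eLpNorm g₁ 3 volume * eLpNorm q₂ 3 volume *
          eLpNorm g₃ 3 volume)) := by rw [four_cube]
      _ ≤ ENNReal.ofReal (C₀ * κ) * (4 * (eLpNorm g₁ 3 volume *
          (ENNReal.ofReal (2 / η) * eLpNorm g₂ 3 volume) * eLpNorm g₃ 3 volume)) := by
          gcongr
          exact dv_elp hη hη2 g₂
      _ = _ := by
          have e4 : (4 : ℝ≥0∞) = ENNReal.ofReal 4 := by norm_num
          have e5 : ENNReal.ofReal (C₀ * 4 * (2 / η) * κ) =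
              ENNReal.ofReal (C₀ * κ) * ENNReal.ofReal 4 * ENNReal.ofReal (2 / η) := by
            rw [← ENNReal.ofReal_mul (by positivity), ← ENNReal.ofReal_mul (by positivity)]
            congr 1
            ring
          rw [e5, e4]
          ring
  -- (2) Fubini
  have hae : ∀ᵐ p : ℝ × ℝ, 0 < dE E (p.1 - α₂ * p.2) := by
    filter_upwards [(quasi α₂).ae (ae_notMem E)] with p hp
    exact dE_pos hE hp
  set V : ℝ × ℝ → ℝ := fun p => ((nu E) (Bw E η α₂ p)).toReal with hV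
  have hVle : ∀ p : ℝ × ℝ, 0 < dE E (p.1 - α₂ * p.2) → V p ≤ wt E η (p.1 - α₂ * p.2) ∧
      wt E η (p.1 - α₂ * p.2) ≤ 4 ∧ (nu E) (Bw E η α₂ p) ≤ 4 := by
    intro p hp
    have h1 := nu_le hη.le hη2 hp
    have h2 := measure_mono (μ := nu E) (Bw_sub E η α₂ p)
    refine ⟨ENNReal.toReal_mono (h1.trans_lt (by norm_num)).ne h2, ?_, h2.trans h1⟩
    have h4 := ENNReal.toReal_mono (by norm_num : (4 : ℝ≥0∞) ≠ ∞) h1
    unfold wt
    simpa using h4
  have hwm := wi_meas (E := E) (η := η) (ε := ε) (R := R) (α₀ := α₀) (α₁ := α₁) (α₂ := α₂)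
    (α₃ := α₃) mh n₁.meas nq.meas n₃.meas
  have hint : Integrable (Function.uncurry (wi E η ε R α₀ α₁ α₂ α₃ h g₁ q₂ g₃))
      ((nu E).prod volume) := by
    rw [integrable_prod_iff' hwm.aestronglyMeasurable]
    constructor
    · filter_upwards [hae] with p hp
      show Integrable (fun y => (Bw E η α₂ p).indicator (fun _ => W p) y) (nu E)
      rw [integrable_indicator_iff (Bw_meas E η α₂ p)]
      exact integrableOn_const ((hVle p hp).2.2.trans_lt (by norm_num)).ne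
    · refine (hWi.norm.const_mul 4).mono' ?_ ?_
      · exact (hwm.norm.stronglyMeasurable.integral_prod_left' (μ := nu E)).aestronglyMeasurable
      · filter_upwards [hae] with p hp
        have h1 : ∫ y, ‖Function.uncurry (wi E η ε R α₀ α₁ α₂ α₃ h g₁ q₂ g₃) (y, p)‖ ∂(nu E)
            = V p * ‖W p‖ := by
          have h2 : ∀ y, ‖Function.uncurry (wi E η ε R α₀ α₁ α₂ α₃ h g₁ q₂ g₃) (y, p)‖
              = (Bw E η α₂ p).indicator (fun _ => ‖W p‖) y := by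
            intro y
            show ‖(Bw E η α₂ p).indicator (fun _ => W p) y‖ = _
            by_cases hy : y ∈ Bw E η α₂ p
            · rw [indicator_of_mem hy, indicator_of_mem hy]
            · rw [indicator_of_notMem hy, indicator_of_notMem hy, norm_zero]
          simp only [h2]
          rw [integral_indicator_const _ (Bw_meas E η α₂ p), smul_eq_mul]
          rfl
        rw [h1, Real.norm_of_nonneg (by positivity)]
        have h3 := hVle p hp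
        have : V p ≤ 4 := h3.1.trans h3.2.1
        gcongr
  have hFub : ∫ y, F y ∂(nu E) = ∫ p, (V p : ℂ) * W p := by
    have h1 : ∀ y, F y = ∫ p, wi E η ε R α₀ α₁ α₂ α₃ h g₁ q₂ g₃ y p := fun y =>
      lf_eq hη.le le_rfl le_rfl h g₁ q₂ g₃ y
    simp only [h1]
    rw [integral_integral_swap hint]
    congr 1
    funext p
    show ∫ y, (Bw E η α₂ p).indicator (fun _ => W p) y ∂(nu E) = _
    rw [integral_indicator_const _ (Bw_meas E η α₂ p), Complex.real_smul]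
    rfl
  -- (3) the difference
  have hVW : Integrable (fun p => (V p : ℂ) * W p) volume := by
    refine (hWi.norm.const_mul 4).mono' ?_ ?_
    · have hVm : Measurable V := by
        have hs : MeasurableSet {q : (ℝ × ℝ) × ℝ | |q.1.1 - α₂ * q.1.2 - q.2| ≤ η * dE E q.2 ∧
            |q.1.2| < η * dE E q.2} :=
          (measurableSet_le (by fun_prop) (((dE_meas E).comp measurable_snd).const_mul η)).inter
            (measurableSet_lt (by fun_prop) (((dE_meas E).comp measurable_snd).const_mul η))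
        exact (measurable_measure_prodMk_left (ν := nu E) hs).ennreal_toReal
      exact (Complex.measurable_ofReal.comp hVm).aestronglyMeasurable.mul hWi.1
    · filter_upwards [hae] with p hp
      have h3 := hVle p hp
      rw [norm_mul, Complex.norm_real, Real.norm_of_nonneg ENNReal.toReal_nonneg]
      have : V p ≤ 4 := h3.1.trans h3.2.1
      gcongr
  have hgi := wk_int (R := R) (α₀ := α₀) (α₁ := α₁) (α₂ := α₂) (α₃ := α₃) hε mh hB n₁ n₂ n₃
  have hrel : ∀ p : ℝ × ℝ, 0 < dE E (p.1 - α₂ * p.2) →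
      wk ε R α₀ α₁ α₂ α₃ h g₁ g₂ g₃ p = (wt E η (p.1 - α₂ * p.2) : ℂ) * W p := by
    intro p hp
    have hw0 := wt_ge hη hη2 hp
    have hw1 : (wt E η (p.1 - α₂ * p.2) : ℂ) ≠ 0 := by
      have : wt E η (p.1 - α₂ * p.2) ≠ 0 := by linarith
      exact_mod_cast this
    have hg : g₂ (p.1 - α₂ * p.2) = (wt E η (p.1 - α₂ * p.2) : ℂ) * q₂ (p.1 - α₂ * p.2) := by
      show _ = _ * dv E η g₂ _
      unfold dv
      rw [if_neg hp.ne']
      field_simp
    rw [hW]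
    unfold wk bk
    rw [hg]
    split_ifs
    · ring
    · ring
  have hdiff : ‖(∫ p, wk ε R α₀ α₁ α₂ α₃ h g₁ g₂ g₃ p) - ∫ y, F y ∂(nu E)‖ₑ ≤
      ENNReal.ofReal κ * PF (RE E η' α₂) α₁ α₂ α₃ g₁ g₂ g₃ := by
    rw [hFub, ← integral_sub hgi hVW]
    refine (enorm_integral_le_lintegral_enorm _).trans ?_
    unfold PF
    rw [← lintegral_const_mul' _ _ ENNReal.ofReal_ne_top]
    apply lintegral_mono_ae
    filter_upwards [hae] with p hp
    have h3 := hVle p hp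
    have hV0 : 0 ≤ V p := ENNReal.toReal_nonneg
    by_cases hreg : p ∈ RE E η' α₂
    · rw [indicator_of_mem hreg]
      refine le_trans ?_ (wk_norm (ε := ε) (R := R) (α₀ := α₀) hB p)
      rw [hrel p hp, ← sub_mul, enorm_mul, enorm_mul]
      gcongr
      rw [← Complex.ofReal_sub, ← ofReal_norm, ← ofReal_norm, Complex.norm_real,
        Complex.norm_real, Real.norm_of_nonneg (by linarith [h3.1]),
        Real.norm_of_nonneg (hV0.trans h3.1)]
      exact ENNReal.ofReal_le_ofReal (by linarith)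
    · have hsmall : |p.2| < η' * dE E (p.1 - α₂ * p.2) := by
        obtain ⟨s, hs, hds⟩ := dE_att hE (p.1 - α₂ * p.2)
        rw [hds]
        by_contra hcon
        exact hreg ⟨s, hs, not_lt.1 hcon⟩
      have hset : Bw E η α₂ p = Aw E η (p.1 - α₂ * p.2) := by
        apply Subset.antisymm (Bw_sub E η α₂ p)
        intro y hy
        have hy' : |p.1 - α₂ * p.2 - y| ≤ η * dE E y := hy
        refine ⟨hy', ?_⟩
        have h4 := dE_lip E (p.1 - α₂ * p.2) y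
        calc |p.2| < η' * dE E (p.1 - α₂ * p.2) := hsmall
          _ ≤ η' * ((1 + η) * dE E y) := by
              gcongr
              linarith
          _ = η * dE E y := by rw [hη']; field_simp
      have hVw : V p = wt E η (p.1 - α₂ * p.2) := by
        simp only [hV, hset]
        rfl
      rw [hrel p hp, hVw, sub_self, enorm_zero]
      exact bot_le
  calc ‖∫ p, wk ε R α₀ α₁ α₂ α₃ h g₁ g₂ g₃ p‖ₑ
      = ‖(∫ y, F y ∂(nu E)) + ((∫ p, wk ε R α₀ α₁ α₂ α₃ h g₁ g₂ g₃ p) -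
        ∫ y, F y ∂(nu E))‖ₑ := by rw [add_sub_cancel]
    _ ≤ ‖∫ y, F y ∂(nu E)‖ₑ + ‖(∫ p, wk ε R α₀ α₁ α₂ α₃ h g₁ g₂ g₃ p) -
        ∫ y, F y ∂(nu E)‖ₑ := enorm_add_le _ _
    _ ≤ _ := add_le_add hF1 hdiff

end Vale.Agent.P141.R2.H106
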