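import Vale.Agent.P141.R2.H106.Op

/-!
# Two-step nilsequences are structured
-/

namespace Vale.Agent.P141.R2.H106

open MeasureTheory Set Filter Topology
open scoped ENNReal

/-- a representation valid for all values of the three variables -/
def RepG (κ : ℝ) (h : ℝ → ℂ) : Prop :=
  ∃ (Ω : Type) (_ : MeasurableSpace Ω) (μ : Measure Ω) (H₀ H₁ H₂ : Ω × ℝ × ℝ → ℂ),
    μ univ ≤ ENNReal.ofReal κ ∧ Measurable H₀ ∧ Measurable H₁ ∧ Measurable H₂ ∧
    (∀ p, ‖H₀ p‖ ≤ 1) ∧ (∀ p, ‖H₁ p‖ ≤ 1) ∧ (∀ p, ‖H₂ p‖ ≤ 1) ∧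
    ∀ a b c : ℝ, h (a + b + c) = ∫ ω, H₀ (ω, a, b) * H₁ (ω, b, c) * H₂ (ω, c, a) ∂μ

theorem RepG.str {κ : ℝ} (hκ : 0 ≤ κ) {h : ℝ → ℂ} (H : RepG κ h) (L : ℝ) : Str κ L h := by
  obtain ⟨Ω, mΩ, μ, H₀, H₁, H₂, hμ, m₀, m₁, m₂, b₀, b₁, b₂, e⟩ := H
  have hf : IsFiniteMeasure μ := ⟨hμ.trans_lt ENNReal.ofReal_lt_top⟩
  have e0 : ∀ x, h x = ∫ ω, H₀ (ω, x, 0) * H₁ (ω, 0, 0) * H₂ (ω, 0, x) ∂μ := by
    intro x
    rw [← e x 0 0]
    simp
  refine ⟨?_, ⟨κ, fun x => ?_⟩, fun y => ?_⟩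
  · have h1 : h = fun x => ∫ ω, H₀ (ω, x, 0) * H₁ (ω, 0, 0) * H₂ (ω, 0, x) ∂μ := funext e0
    rw [h1]
    have h2 : Measurable fun p : ℝ × Ω => H₀ (p.2, p.1, 0) * H₁ (p.2, 0, 0) * H₂ (p.2, 0, p.1) :=
      ((m₀.comp (by fun_prop)).mul (m₁.comp (by fun_prop))).mul (m₂.comp (by fun_prop))
    exact (h2.stronglyMeasurable.integral_prod_right' (ν := μ)).measurable
  · rw [e0 x]
    have h1 : ∀ ω, ‖H₀ (ω, x, 0) * H₁ (ω, 0, 0) * H₂ (ω, 0, x)‖ ≤ 1 := by
      intro ω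
      rw [norm_mul, norm_mul]
      calc _ ≤ (1 : ℝ) * 1 * 1 := by
            have := b₀ (ω, x, 0)
            have := b₁ (ω, 0, 0)
            have := b₂ (ω, 0, x)
            gcongr
        _ = 1 := by ring
    refine (norm_integral_le_of_norm_le_const (ae_of_all _ h1)).trans ?_
    rw [one_mul]
    exact ENNReal.toReal_le_of_le_ofReal hκ hμ
  · refine ⟨Ω, mΩ, μ, fun p => H₀ (p.1, p.2.1 + y, p.2.2), H₁,
      fun p => H₂ (p.1, p.2.1, p.2.2 + y), hμ, m₀.comp (by fun_prop), m₁,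
      m₂.comp (by fun_prop), fun p => b₀ _, b₁, fun p => b₂ _, fun a b c _ _ _ => ?_⟩
    have h1 : a + b + c + y = (a + y) + b + c := by ring
    simp only []
    rw [h1, e (a + y) b c]

/-- complex weights -/
theorem rep_weight {Ω : Type} [MeasurableSpace Ω] (μ : Measure Ω) {w : Ω → ℂ} (hw : Measurable w)
    (hwi : Integrable w μ) {H₀ H₁ H₂ : Ω × ℝ × ℝ → ℂ} (m₀ : Measurable H₀) (m₁ : Measurable H₁)
    (m₂ : Measurable H₂) (b₀ : ∀ p, ‖H₀ p‖ ≤ 1) (b₁ : ∀ p, ‖H₁ p‖ ≤ 1) (b₂ : ∀ p, ‖H₂ p‖ ≤ 1) :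
    ∃ (ν : Measure Ω) (K₀ : Ω × ℝ × ℝ → ℂ), ν univ = ENNReal.ofReal (∫ ω, ‖w ω‖ ∂μ) ∧
      Measurable K₀ ∧ (∀ p, ‖K₀ p‖ ≤ 1) ∧ ∀ a b c,
      ∫ ω, K₀ (ω, a, b) * H₁ (ω, b, c) * H₂ (ω, c, a) ∂ν
        = ∫ ω, w ω * (H₀ (ω, a, b) * H₁ (ω, b, c) * H₂ (ω, c, a)) ∂μ := by
  refine ⟨μ.withDensity fun ω => ENNReal.ofReal ‖w ω‖,
    fun p => (w p.1 / (‖w p.1‖ : ℂ)) * H₀ p, ?_, ?_, ?_, ?_⟩
  · rw [withDensity_apply _ MeasurableSet.univ, Measure.restrict_univ,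
      ofReal_integral_eq_lintegral_ofReal hwi.norm (ae_of_all _ fun _ => norm_nonneg _)]
  · exact ((hw.comp measurable_fst).div
      (Complex.measurable_ofReal.comp (hw.comp measurable_fst).norm)).mul m₀
  · intro p
    rw [norm_mul, norm_div, Complex.norm_real, Real.norm_of_nonneg (norm_nonneg _)]
    have h1 : ‖w p.1‖ / ‖w p.1‖ ≤ 1 := div_self_le_one _
    calc _ ≤ (1 : ℝ) * 1 := by
          have := b₀ p
          gcongr
      _ = 1 := by ring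
  · intro a b c
    rw [integral_withDensity_eq_integral_toReal_smul (hw.norm.ennreal_ofReal)
      (ae_of_all _ fun _ => ENNReal.ofReal_lt_top)]
    congr 1
    funext ω
    simp only [ENNReal.toReal_ofReal (norm_nonneg _), Complex.real_smul]
    by_cases h0 : w ω = 0
    · simp [h0]
    · have h1 : (‖w ω‖ : ℂ) ≠ 0 := by
        simpa using h0
      field_simp

/-- the additive character -/
noncomputable def e1 (x : ℝ) : ℂ := Complex.exp (((2 * Real.pi * x : ℝ) : ℂ) * Complex.I)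

theorem e1_norm (x : ℝ) : ‖e1 x‖ = 1 := Complex.norm_exp_ofReal_mul_I _

theorem e1_add (x y : ℝ) : e1 (x + y) = e1 x * e1 y := by
  unfold e1
  rw [← Complex.exp_add]
  congr 1
  push_cast
  ring

theorem e1_meas : Measurable e1 := by
  unfold e1
  fun_prop

/-- vectors of integers as real vectors -/
def iv {d : ℕ} (n : Fin d → ℤ) : Fin d → ℝ := fun i => (n i : ℝ)

/-- quadratic polynomials without constant term in `(v, x)` -/
noncomputable def qf {d : ℕ} (B : ((Fin d → ℝ) × ℝ) →L[ℝ] ((Fin d → ℝ) × ℝ) →L[ℝ] ℝ)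
    (l : ((Fin d → ℝ) × ℝ) →L[ℝ] ℝ) (z : (Fin d → ℝ) × ℝ) : ℝ := B z z + l z

theorem qf_id {d : ℕ} (B : ((Fin d → ℝ) × ℝ) →L[ℝ] ((Fin d → ℝ) × ℝ) →L[ℝ] ℝ)
    (l : ((Fin d → ℝ) × ℝ) →L[ℝ] ℝ) (x y z w : (Fin d → ℝ) × ℝ) :
    qf B l (x + y + z + w) = (qf B l (x + y + w) - qf B l (x + w)) +
      (qf B l (y + z + w) - qf B l (y + w)) +
      (qf B l (z + x + w) - qf B l (z + w) + qf B l w) := by
  simp only [qf, map_add, ContinuousLinearMap.add_apply]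
  ring

theorem qf_cont {d : ℕ} (B : ((Fin d → ℝ) × ℝ) →L[ℝ] ((Fin d → ℝ) × ℝ) →L[ℝ] ℝ)
    (l : ((Fin d → ℝ) × ℝ) →L[ℝ] ℝ) : Continuous (qf B l) := by
  unfold qf
  fun_prop

/-- the nilsequence with horizontal frequencies `θ` -/
noncomputable def nil {d : ℕ} (φ : (Fin d → ℝ) → ℂ) (θ : Fin d → ℝ)
    (B : ((Fin d → ℝ) × ℝ) →L[ℝ] ((Fin d → ℝ) × ℝ) →L[ℝ] ℝ)
    (l : ((Fin d → ℝ) × ℝ) →L[ℝ] ℝ) (x : ℝ) : ℂ :=
  ∑' n : Fin d → ℤ, φ (x • θ - iv n) * e1 (qf B l (iv n, x))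

/-- the floor of a vector -/
noncomputable def fl {d : ℕ} (θ : Fin d → ℝ) (a : ℝ) : Fin d → ℤ := fun i => ⌊a * θ i⌋

theorem fl_meas {d : ℕ} (θ : Fin d → ℝ) : Measurable fun a => iv (fl θ a) := by
  unfold iv fl
  fun_prop

theorem nil_rep {d : ℕ} {φ : (Fin d → ℝ) → ℂ} {ψ : EuclideanSpace ℝ (Fin d) → ℂ}
    (hψm : Measurable ψ) (hψi : Integrable ψ volume)
    (hφ : ∀ v, φ v = ∫ ξ : EuclideanSpace ℝ (Fin d), e1 (∑ i, ξ i * v i) * ψ ξ) (M : ℕ)
    (hM : ∀ v, (∃ i, (M : ℝ) < |v i|) → φ v = 0) (θ : Fin d → ℝ)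
    (B : ((Fin d → ℝ) × ℝ) →L[ℝ] ((Fin d → ℝ) × ℝ) →L[ℝ] ℝ)
    (l : ((Fin d → ℝ) × ℝ) →L[ℝ] ℝ) :
    RepG ((2 * M + 3) ^ d * ∫ ξ, ‖ψ ξ‖) (nil φ θ B l) := by
  classical
  set J : Finset (Fin d → ℤ) := Fintype.piFinset fun _ => Finset.Icc (-(M : ℤ)) (M + 2) with hJ
  have hcard : (J.card : ℝ) = (2 * M + 3) ^ d := by
    rw [hJ, Fintype.card_piFinset_const, Int.card_Icc]
    have h1 : ((M : ℤ) + 2 + 1 - -(M : ℤ)).toNat = 2 * M + 3 := by omega
    rw [h1]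
    push_cast
    ring
  -- the measure space
  set μ : Measure (J × EuclideanSpace ℝ (Fin d)) := (Measure.count : Measure J).prod volume
    with hμ
  set w : J × EuclideanSpace ℝ (Fin d) → ℂ := fun ω => ψ ω.2 with hw
  have hwm : Measurable w := hψm.comp measurable_snd
  have hwi : Integrable w μ := hψi.comp_snd _
  have hwn : ∫ ω, ‖w ω‖ ∂μ = (2 * M + 3) ^ d * ∫ ξ, ‖ψ ξ‖ := by
    rw [hμ, integral_prod _ hwi.norm]
    simp only [hw]
    rw [integral_const, smul_eq_mul, ← hcard]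
    congr 1
    rw [measureReal_def, Measure.count_apply_finite _ (Set.toFinite _)]
    simp
  -- the phases
  have mj : Measurable fun j : J => iv (j : Fin d → ℤ) := measurable_of_countable _
  set E₀ : (J × EuclideanSpace ℝ (Fin d)) × ℝ × ℝ → ℝ := fun p =>
    (∑ i, p.1.2 i * (p.2.1 * θ i - iv (fl θ p.2.1) i - iv (p.1.1 : Fin d → ℤ) i)) +
    (qf B l ((iv (fl θ p.2.1), p.2.1) + (iv (fl θ p.2.2), p.2.2) + (iv (p.1.1 : Fin d → ℤ), 0)) -
      qf B l ((iv (fl θ p.2.1), p.2.1) + (iv (p.1.1 : Fin d → ℤ), 0))) with hE₀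
  set E₁ : (J × EuclideanSpace ℝ (Fin d)) × ℝ × ℝ → ℝ := fun p =>
    (∑ i, p.1.2 i * (p.2.1 * θ i - iv (fl θ p.2.1) i)) +
    (qf B l ((iv (fl θ p.2.1), p.2.1) + (iv (fl θ p.2.2), p.2.2) + (iv (p.1.1 : Fin d → ℤ), 0)) -
      qf B l ((iv (fl θ p.2.1), p.2.1) + (iv (p.1.1 : Fin d → ℤ), 0))) with hE₁
  set E₂ : (J × EuclideanSpace ℝ (Fin d)) × ℝ × ℝ → ℝ := fun p =>
    (∑ i, p.1.2 i * (p.2.1 * θ i - iv (fl θ p.2.1) i)) +
    (qf B l ((iv (fl θ p.2.1), p.2.1) + (iv (fl θ p.2.2), p.2.2) + (iv (p.1.1 : Fin d → ℤ), 0)) -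
      qf B l ((iv (fl θ p.2.1), p.2.1) + (iv (p.1.1 : Fin d → ℤ), 0)) +
      qf B l (iv (p.1.1 : Fin d → ℤ), 0)) with hE₂
  have mq : Measurable (qf B l) := (qf_cont B l).measurable
  have mz : ∀ f : (J × EuclideanSpace ℝ (Fin d)) × ℝ × ℝ → ℝ, Measurable f →
      Measurable fun p => (iv (fl θ (f p)), f p) := fun f hf =>
    ((fl_meas θ).comp hf).prodMk hf
  have mw : Measurable fun p : (J × EuclideanSpace ℝ (Fin d)) × ℝ × ℝ =>
      ((iv (p.1.1 : Fin d → ℤ), (0 : ℝ)) : (Fin d → ℝ) × ℝ) :=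
    (mj.comp (measurable_fst.comp measurable_fst)).prodMk measurable_const
  have mξ : ∀ i, Measurable fun p : (J × EuclideanSpace ℝ (Fin d)) × ℝ × ℝ => p.1.2 i := by
    intro i
    have h1 : Continuous fun ξ : EuclideanSpace ℝ (Fin d) => ξ i := by fun_prop
    exact h1.measurable.comp (measurable_snd.comp measurable_fst)
  have mfi : ∀ i, ∀ f : (J × EuclideanSpace ℝ (Fin d)) × ℝ × ℝ → ℝ, Measurable f →
      Measurable fun p => iv (fl θ (f p)) i := fun i f hf =>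
    (measurable_pi_apply i).comp ((fl_meas θ).comp hf)
  have mji : ∀ i, Measurable fun p : (J × EuclideanSpace ℝ (Fin d)) × ℝ × ℝ =>
      iv (p.1.1 : Fin d → ℤ) i := fun i =>
    (measurable_pi_apply i).comp (mj.comp (measurable_fst.comp measurable_fst))
  have p1 : Measurable fun p : (J × EuclideanSpace ℝ (Fin d)) × ℝ × ℝ => p.2.1 :=
    measurable_fst.comp measurable_snd
  have p2 : Measurable fun p : (J × EuclideanSpace ℝ (Fin d)) × ℝ × ℝ => p.2.2 :=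
    measurable_snd.comp measurable_snd
  have mE₀ : Measurable E₀ := by
    refine Measurable.add ?_ (Measurable.sub ?_ ?_)
    · exact Finset.measurable_sum _ fun i _ =>
        (mξ i).mul (((p1.mul_const _).sub (mfi i _ p1)).sub (mji i))
    · exact mq.comp (((mz _ p1).add (mz _ p2)).add mw)
    · exact mq.comp ((mz _ p1).add mw)
  have mE₁ : Measurable E₁ := by
    refine Measurable.add ?_ (Measurable.sub ?_ ?_)
    · exact Finset.measurable_sum _ fun i _ =>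
        (mξ i).mul ((p1.mul_const _).sub (mfi i _ p1))
    · exact mq.comp (((mz _ p1).add (mz _ p2)).add mw)
    · exact mq.comp ((mz _ p1).add mw)
  have mE₂ : Measurable E₂ := by
    refine Measurable.add ?_ (Measurable.add (Measurable.sub ?_ ?_) ?_)
    · exact Finset.measurable_sum _ fun i _ =>
        (mξ i).mul ((p1.mul_const _).sub (mfi i _ p1))
    · exact mq.comp (((mz _ p1).add (mz _ p2)).add mw)
    · exact mq.comp ((mz _ p1).add mw)
    · exact mq.comp mw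
  obtain ⟨ν, K₀, hν, mK, bK, hK⟩ := rep_weight μ hwm hwi (e1_meas.comp mE₀) (e1_meas.comp mE₁)
    (e1_meas.comp mE₂) (fun p => (e1_norm _).le) (fun p => (e1_norm _).le)
    (fun p => (e1_norm _).le)
  refine ⟨J × EuclideanSpace ℝ (Fin d), inferInstance, ν, K₀, e1 ∘ E₁, e1 ∘ E₂, ?_, mK,
    e1_meas.comp mE₁, e1_meas.comp mE₂, bK, fun p => (e1_norm _).le, fun p => (e1_norm _).le,
    fun a b c => ?_⟩
  · rw [hν, hwn]
  rw [hK a b c]
  -- the integral over the measure space is a finite sum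
  set n₀ : Fin d → ℤ := fl θ a + fl θ b + fl θ c with hn₀
  have hsum : nil φ θ B l (a + b + c) = ∑ j : J, φ ((a + b + c) • θ - iv (n₀ + (j : Fin d → ℤ))) *
      e1 (qf B l (iv (n₀ + (j : Fin d → ℤ)), a + b + c)) := by
    unfold nil
    rw [← (Equiv.addLeft n₀).tsum_eq]
    simp only [Equiv.coe_addLeft]
    rw [tsum_eq_sum (s := J) ?_, ← Finset.sum_coe_sort]
    intro j hj
    have h1 : φ ((a + b + c) • θ - iv (n₀ + j)) = 0 := by
      apply hM
      rw [hJ, Fintype.mem_piFinset] at hj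
      push Not at hj
      obtain ⟨i, hi⟩ := hj
      refine ⟨i, ?_⟩
      by_contra hcon
      push Not at hcon
      apply hi
      rw [Finset.mem_Icc]
      have e2 : ((a + b + c) • θ - iv (n₀ + j)) i
          = Int.fract (a * θ i) + Int.fract (b * θ i) + Int.fract (c * θ i) - j i := by
        simp only [Pi.sub_apply, Pi.smul_apply, smul_eq_mul, iv, hn₀, Pi.add_apply, fl,
          Int.fract]
        push_cast
        ring
      rw [e2] at hcon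
      have f1 := Int.fract_nonneg (a * θ i)
      have f2 := Int.fract_nonneg (b * θ i)
      have f3 := Int.fract_nonneg (c * θ i)
      have g1 := Int.fract_lt_one (a * θ i)
      have g2 := Int.fract_lt_one (b * θ i)
      have g3 := Int.fract_lt_one (c * θ i)
      have hc1 := abs_le.1 hcon
      constructor
      · have : (-(M : ℝ)) ≤ (j i : ℝ) := by linarith [hc1.2]
        exact_mod_cast this
      · have : (j i : ℝ) < (M : ℝ) + 3 := by linarith [hc1.1]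
        have h3 : (j i) < (M : ℤ) + 3 := by exact_mod_cast this
        omega
    rw [h1, zero_mul]
  have hint : Integrable (fun ω : J × EuclideanSpace ℝ (Fin d) => w ω *
      ((e1 ∘ E₀) (ω, a, b) * (e1 ∘ E₁) (ω, b, c) * (e1 ∘ E₂) (ω, c, a))) μ := by
    refine hwi.mul_bdd (c := 1) ?_ (ae_of_all _ fun ω => ?_)
    · exact ((((e1_meas.comp mE₀).comp (by fun_prop)).mul
        ((e1_meas.comp mE₁).comp (by fun_prop))).mul
        ((e1_meas.comp mE₂).comp (by fun_prop))).aestronglyMeasurable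
    · simp [e1_norm]
  rw [hμ, integral_prod _ hint, integral_count, hsum]
  refine Finset.sum_congr rfl fun j _ => ?_
  rw [hφ, ← integral_mul_const]
  congr 1
  funext ξ
  simp only [hw, Function.comp]
  rw [← e1_add, ← e1_add, mul_right_comm, ← e1_add, mul_comm (ψ ξ)]
  congr 2
  have hz : ((iv (n₀ + (j : Fin d → ℤ)), a + b + c) : (Fin d → ℝ) × ℝ)
      = (iv (fl θ a), a) + (iv (fl θ b), b) + (iv (fl θ c), c) + (iv (j : Fin d → ℤ), 0) := by
    ext i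
    · simp only [iv, hn₀, Pi.add_apply, Prod.fst_add]
      push_cast
      ring
    · simp
  rw [hz, qf_id]
  have hs : ∑ i, ξ i * ((a + b + c) • θ - iv (n₀ + (j : Fin d → ℤ))) i
      = (∑ i, ξ i * (a * θ i - iv (fl θ a) i - iv (j : Fin d → ℤ) i)) +
        (∑ i, ξ i * (b * θ i - iv (fl θ b) i)) + (∑ i, ξ i * (c * θ i - iv (fl θ c) i)) := by
    rw [← Finset.sum_add_distrib, ← Finset.sum_add_distrib]
    refine Finset.sum_congr rfl fun i _ => ?_
    simp only [Pi.sub_apply, Pi.smul_apply, smul_eq_mul, iv, hn₀, Pi.add_apply]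
    push_cast
    ring
  rw [hs, hE₀, hE₁, hE₂]
  ring

end Vale.Agent.P141.R2.H106
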