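import Vale.Agent.P141.R2.H106.Nil
import Vale.Agent.P141.R2.H860.Meas

/-!
# Two-step nilsequences (matrix notation) have a representation; products
-/

namespace Vale.Agent.P141.R2.H106

open MeasureTheory Set Filter Topology
open scoped ENNReal ContDiff
open Vale.Agent.P141.R2.H860 (W0 W1 W2 norm_W0 norm_W1 norm_W2 W0_meas W1_meas W2_meas nil_split)

theorem nilG {d : ℕ} (φ : (Fin d → ℝ) → ℂ) (h1 : ContDiff ℝ ∞ φ) (h2 : HasCompactSupport φ) :
    ∃ κ : ℝ, 0 < κ ∧ ∀ (θ : Fin d → ℝ) (Q : Fin (d + 1) → Fin (d + 1) → ℝ)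
      (l : Fin (d + 1) → ℝ) (c : ℝ), RepG κ (H860.nil φ θ Q l c) := by
  classical
  obtain ⟨J, ψ, hψi, hψc, H⟩ := nil_split φ h1 h2
  refine ⟨J.card * (∫ ξ, ‖ψ ξ‖) + 1, by positivity, ?_⟩
  intro θ Q l c
  set μ : Measure (J × EuclideanSpace ℝ (Fin d)) := (Measure.count : Measure J).prod volume
    with hμ
  set w : J × EuclideanSpace ℝ (Fin d) → ℂ := fun o => ψ o.2 with hw
  have hwm : Measurable w := hψc.measurable.comp measurable_snd
  have hwi : Integrable w μ := hψi.comp_snd _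
  have hwn : ∫ o, ‖w o‖ ∂μ = J.card * ∫ ξ, ‖ψ ξ‖ := by
    rw [hμ, integral_prod _ hwi.norm]
    simp only [hw]
    rw [integral_const, smul_eq_mul]
    congr 1
    rw [measureReal_def, Measure.count_apply_finite _ (Set.toFinite _)]
    simp
  have key : ∀ F : J → EuclideanSpace ℝ (Fin d) → ℝ → ℝ → ℂ,
      (∀ j, Measurable fun q : EuclideanSpace ℝ (Fin d) × ℝ × ℝ => F j q.1 q.2.1 q.2.2) →
      Measurable fun p : (J × EuclideanSpace ℝ (Fin d)) × ℝ × ℝ => F p.1.1 p.1.2 p.2.1 p.2.2 := by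
    intro F hF
    have h : Measurable fun q : J × (EuclideanSpace ℝ (Fin d) × ℝ × ℝ) =>
        F q.1 q.2.1 q.2.2.1 q.2.2.2 := measurable_from_prod_countable_right fun j => hF j
    exact h.comp ((measurable_fst.comp measurable_fst).prodMk
      ((measurable_snd.comp measurable_fst).prodMk measurable_snd))
  have p1 : Measurable fun q : EuclideanSpace ℝ (Fin d) × ℝ × ℝ => q.1 := measurable_fst
  have p2 : Measurable fun q : EuclideanSpace ℝ (Fin d) × ℝ × ℝ => q.2.1 :=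
    measurable_fst.comp measurable_snd
  have p3 : Measurable fun q : EuclideanSpace ℝ (Fin d) × ℝ × ℝ => q.2.2 :=
    measurable_snd.comp measurable_snd
  have m₀ := key (fun j ξ a b => W0 θ Q l c (j : Fin d → ℤ) ξ a b)
    fun j => W0_meas θ Q l c j p1 p2 p3
  have m₁ := key (fun _ ξ a b => W1 θ Q l ξ a b) fun j => W1_meas θ Q l p1 p2 p3
  have m₂ := key (fun j ξ a b => W2 θ Q l (j : Fin d → ℤ) ξ a b)
    fun j => W2_meas θ Q l j p1 p2 p3
  obtain ⟨ν, K₀, hν, mK, bK, hK⟩ := rep_weight μ hwm hwi m₀ m₁ m₂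
    (fun p => (norm_W0 ..).le) (fun p => (norm_W1 ..).le) (fun p => (norm_W2 ..).le)
  refine ⟨J × EuclideanSpace ℝ (Fin d), inferInstance, ν, K₀, _, _, ?_, mK, m₁, m₂, bK,
    fun p => (norm_W1 ..).le, fun p => (norm_W2 ..).le, fun a b c' => ?_⟩
  · rw [hν, hwn]
    exact ENNReal.ofReal_le_ofReal (by linarith)
  rw [hK a b c', H θ Q l c a b c']
  have hint : Integrable (fun o : J × EuclideanSpace ℝ (Fin d) => w o *
      (W0 θ Q l c (o.1 : Fin d → ℤ) o.2 a b * W1 θ Q l o.2 b c' *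
        W2 θ Q l (o.1 : Fin d → ℤ) o.2 c' a)) μ := by
    refine hwi.mul_bdd (c := 1) ?_ (ae_of_all _ fun o => ?_)
    · exact (((m₀.comp (g := fun p => _) (f := fun o : J × EuclideanSpace ℝ (Fin d) =>
        (o, a, b)) (by fun_prop)).mul (m₁.comp (f := fun o : J × EuclideanSpace ℝ (Fin d) =>
        (o, b, c')) (by fun_prop))).mul (m₂.comp (f := fun o : J × EuclideanSpace ℝ (Fin d) =>
        (o, c', a)) (by fun_prop))).aestronglyMeasurable
    · rw [norm_mul, norm_mul, norm_W0, norm_W1, norm_W2]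
      norm_num
  rw [hμ, integral_prod _ hint, integral_count, ← Finset.sum_coe_sort]

/-- products -/
theorem Rep.mul {κ₁ κ₂ L : ℝ} (h₁0 : 0 ≤ κ₁) {h₁ h₂ : ℝ → ℂ} (H₁ : Rep κ₁ L h₁)
    (H₂ : Rep κ₂ L h₂) : Rep (κ₁ * κ₂) L (fun x => h₁ x * h₂ x) := by
  obtain ⟨Ω, mΩ, μ, F₀, F₁, F₂, hμ, m₀, m₁, m₂, b₀, b₁, b₂, e⟩ := H₁
  obtain ⟨Ω', mΩ', μ', G₀, G₁, G₂, hμ', n₀, n₁, n₂, c₀, c₁, c₂, e'⟩ := H₂
  have f1 : IsFiniteMeasure μ := ⟨hμ.trans_lt ENNReal.ofReal_lt_top⟩
  have f2 : IsFiniteMeasure μ' := ⟨hμ'.trans_lt ENNReal.ofReal_lt_top⟩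
  refine ⟨Ω × Ω', inferInstance, μ.prod μ', fun p => F₀ (p.1.1, p.2) * G₀ (p.1.2, p.2),
    fun p => F₁ (p.1.1, p.2) * G₁ (p.1.2, p.2), fun p => F₂ (p.1.1, p.2) * G₂ (p.1.2, p.2),
    ?_, ?_, ?_, ?_, ?_, ?_, ?_, ?_⟩
  · rw [← univ_prod_univ, Measure.prod_prod, ENNReal.ofReal_mul h₁0]
    gcongr
  · exact (m₀.comp (by fun_prop)).mul (n₀.comp (by fun_prop))
  · exact (m₁.comp (by fun_prop)).mul (n₁.comp (by fun_prop))
  · exact (m₂.comp (by fun_prop)).mul (n₂.comp (by fun_prop))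
  · intro p
    rw [norm_mul]
    exact mul_le_one₀ (b₀ _) (norm_nonneg _) (c₀ _)
  · intro p
    rw [norm_mul]
    exact mul_le_one₀ (b₁ _) (norm_nonneg _) (c₁ _)
  · intro p
    rw [norm_mul]
    exact mul_le_one₀ (b₂ _) (norm_nonneg _) (c₂ _)
  · intro a b c ha hb hc
    show h₁ (a + b + c) * h₂ (a + b + c) = _
    rw [e a b c ha hb hc, e' a b c ha hb hc, ← integral_prod_mul]
    congr 1
    funext o
    ring

/-- a function which agrees on an interval with one that has a global representation -/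
theorem rep_local {κ L y : ℝ} (hκ : 0 ≤ κ) {N h : ℝ → ℂ} (H : RepG κ N)
    (e : ∀ x, |x - y| ≤ 3 * L → h x = N x) : Rep κ L (fun x => h (x + y)) := by
  obtain ⟨Ω, mΩ, μ, H₀, H₁, H₂, hμ, m₀, m₁, m₂, b₀, b₁, b₂, e'⟩ := (H.str hκ L).2.2 y
  refine ⟨Ω, mΩ, μ, H₀, H₁, H₂, hμ, m₀, m₁, m₂, b₀, b₁, b₂, fun a b c ha hb hc => ?_⟩
  have h1 : h (a + b + c + y) = N (a + b + c + y) := by
    apply e
    have h2 : a + b + c + y - y = a + b + c := by ring
    rw [h2]
    calc |a + b + c| ≤ |a| + |b| + |c| := abs_add_three a b c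
      _ ≤ 3 * L := by linarith
  show h (a + b + c + y) = _
  rw [h1]
  exact e' a b c ha hb hc

theorem cnt {V : Type} [NormedAddCommGroup V] [NormedSpace ℝ V] [CompleteSpace V] {f : ℤ → V}
    (hf : Integrable f (Measure.count : Measure ℤ)) :
    ∫ n, f n ∂(Measure.count : Measure ℤ) = ∑' n, f n := by
  rw [integral_countable' hf]
  congr 1
  funext n
  simp [measureReal_def]

/-- absolutely convergent trigonometric series -/
theorem rep_trig {κ L T : ℝ} {r : ℝ → ℂ} {a : ℤ → ℂ} (hs : Summable fun n => ‖a n‖)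
    (hκ : ∑' n, ‖a n‖ ≤ κ) (e : ∀ x, |x| ≤ 3 * L → r x = ∑' n, a n * e1 (n * (x / T))) :
    Rep κ L r := by
  have hi : Integrable a (Measure.count : Measure ℤ) := by
    rw [integrable_count_iff]
    exact hs
  have me : ∀ n : ℤ, Measurable fun x : ℝ => e1 (n * (x / T)) := fun n =>
    e1_meas.comp (by fun_prop)
  have m₀ : Measurable fun p : ℤ × ℝ × ℝ => e1 (p.1 * (p.2.1 / T)) * e1 (p.1 * (p.2.2 / T)) := by
    refine measurable_from_prod_countable_right fun n => ?_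
    exact ((me n).comp measurable_fst).mul ((me n).comp measurable_snd)
  have m₁ : Measurable fun p : ℤ × ℝ × ℝ => e1 (p.1 * (p.2.2 / T)) :=
    measurable_from_prod_countable_right fun n => (me n).comp measurable_snd
  obtain ⟨ν, K₀, hν, mK, bK, hK⟩ := rep_weight (Measure.count : Measure ℤ) (w := a)
    (measurable_of_countable _) hi m₀ m₁ (H₂ := fun _ => 1) measurable_const
    (fun p => by rw [norm_mul, e1_norm, e1_norm, one_mul]) (fun p => (e1_norm _).le)
    (fun p => by simp)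
  refine ⟨ℤ, inferInstance, ν, K₀, _, fun _ => 1, ?_, mK, m₁, measurable_const, bK,
    fun p => (e1_norm _).le, fun p => by simp, fun x y z hx hy hz => ?_⟩
  · rw [hν, cnt hi.norm]
    exact ENNReal.ofReal_le_ofReal hκ
  rw [hK x y z, e (x + y + z) ?_]
  · rw [cnt]
    · congr 1
      funext n
      simp only []
      rw [mul_one, ← e1_add, ← e1_add]
      congr 2
      ring
    · refine hi.mul_bdd (c := 1) (measurable_of_countable _).aestronglyMeasurable
        (ae_of_all _ fun n => ?_)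
      simp [e1_norm]
  · calc |x + y + z| ≤ |x| + |y| + |z| := abs_add_three x y z
      _ ≤ 3 * L := by linarith

end Vale.Agent.P141.R2.H106
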