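import Vale.Agent.P141.R2.H106.Lim

/-!
# Regularity of nilsequences; Schwartz symbols
-/

namespace Vale.Agent.P141.R2.H106

open MeasureTheory Set Filter Topology
open scoped ENNReal SchwartzMap FourierTransform
open Vale.Agent.P141.H97

theorem e1_diff : Differentiable ℝ e1 := by
  unfold e1
  exact Complex.differentiable_exp.comp
    ((Complex.ofRealCLM.differentiable.comp (by fun_prop : Differentiable ℝ fun x : ℝ =>
      2 * Real.pi * x)).mul_const Complex.I)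

theorem nil_diff {d : ℕ} {φ : (Fin d → ℝ) → ℂ} (hφ : Differentiable ℝ φ) (M : ℕ)
    (hM : ∀ v, (∃ i, (M : ℝ) < |v i|) → φ v = 0) (θ : Fin d → ℝ)
    (B : ((Fin d → ℝ) × ℝ) →L[ℝ] ((Fin d → ℝ) × ℝ) →L[ℝ] ℝ)
    (l : ((Fin d → ℝ) × ℝ) →L[ℝ] ℝ) : Differentiable ℝ (nil φ θ B l) := by
  classical
  intro x₀
  set S : Finset (Fin d → ℤ) := Fintype.piFinset fun i =>
    Finset.Icc (-⌈(|x₀| + 1) * |θ i| + M⌉) ⌈(|x₀| + 1) * |θ i| + M⌉ with hS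
  have h1 : ∀ n : Fin d → ℤ,
      Differentiable ℝ fun x : ℝ => φ (x • θ - iv n) * e1 (qf B l (iv n, x)) := by
    intro n
    refine Differentiable.mul (hφ.comp (by fun_prop)) (e1_diff.comp ?_)
    unfold qf
    fun_prop
  have h2 : DifferentiableAt ℝ (fun x : ℝ => ∑ n ∈ S, φ (x • θ - iv n) *
      e1 (qf B l (iv n, x))) x₀ :=
    DifferentiableAt.fun_sum fun n _ => (h1 n) x₀
  refine h2.congr_of_eventuallyEq ?_
  filter_upwards [Metric.ball_mem_nhds x₀ one_pos] with x hx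
  unfold nil
  apply tsum_eq_sum
  intro n hn
  have h3 : φ (x • θ - iv n) = 0 := by
    apply hM
    rw [hS, Fintype.mem_piFinset] at hn
    push Not at hn
    obtain ⟨i, hi⟩ := hn
    refine ⟨i, ?_⟩
    by_contra hcon
    push Not at hcon
    apply hi
    simp only [Pi.sub_apply, Pi.smul_apply, smul_eq_mul, iv] at hcon
    have hx1 : |x| ≤ |x₀| + 1 := by
      have h4 : |x - x₀| < 1 := by simpa [Real.dist_eq] using hx
      have h5 := abs_sub_abs_le_abs_sub x x₀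
      linarith
    have h6 : |x * θ i| ≤ (|x₀| + 1) * |θ i| := by
      rw [abs_mul]
      gcongr
    have h7 : |(n i : ℝ)| ≤ (|x₀| + 1) * |θ i| + M := by
      have h8 := abs_sub_abs_le_abs_sub (n i : ℝ) (x * θ i)
      rw [abs_sub_comm] at h8
      linarith
    have h9 := Int.le_ceil ((|x₀| + 1) * |θ i| + M)
    have h10 := abs_le.1 (h7.trans h9)
    rw [Finset.mem_Icc]
    exact ⟨by exact_mod_cast h10.1, by exact_mod_cast h10.2⟩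
  rw [h3, zero_mul]

theorem pr_int {f₁ f₂ f₃ : ℝ → ℂ} (m₁ : Measurable f₁) (m₂ : Measurable f₂)
    (m₃ : Measurable f₃) (b₁ : ∃ B, ∀ x, ‖f₁ x‖ ≤ B) (b₂ : ∃ B, ∀ x, ‖f₂ x‖ ≤ B)
    (b₃ : ∃ B, ∀ x, ‖f₃ x‖ ≤ B) (hi : Integrable f₁ ∨ Integrable f₂) (x : ℝ) :
    Integrable (pr f₁ f₂ f₃ x) := by
  obtain ⟨B₁, hB₁⟩ := b₁
  obtain ⟨B₂, hB₂⟩ := b₂
  obtain ⟨B₃, hB₃⟩ := b₃
  have hB₁0 : 0 ≤ B₁ := (norm_nonneg _).trans (hB₁ 0)
  have hB₂0 : 0 ≤ B₂ := (norm_nonneg _).trans (hB₂ 0)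
  have hB₃0 : 0 ≤ B₃ := (norm_nonneg _).trans (hB₃ 0)
  rcases hi with hi | hi
  · have h1 : Integrable fun t => ‖f₁ (x - t)‖ * (B₂ * B₃) :=
      ((hi.comp_sub_left x).norm).mul_const _
    refine h1.mono' (pr_meas m₁ m₂ m₃ x).aestronglyMeasurable (ae_of_all _ fun t => ?_)
    unfold pr
    rw [norm_mul, norm_mul, mul_assoc]
    gcongr
    · exact hB₂ _
    · exact hB₃ _
  · have h0 : Integrable fun t => f₂ (x - 2 * t) :=
      (hi.comp_sub_left x).comp_mul_left' (by norm_num)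
    have h1 : Integrable fun t => ‖f₂ (x - 2 * t)‖ * (B₁ * B₃) := (h0.norm).mul_const _
    refine h1.mono' (pr_meas m₁ m₂ m₃ x).aestronglyMeasurable (ae_of_all _ fun t => ?_)
    unfold pr
    rw [norm_mul, norm_mul]
    calc ‖f₁ (x - t)‖ * ‖f₂ (x - 2 * t)‖ * ‖f₃ (x - 3 * t)‖
        ≤ B₁ * ‖f₂ (x - 2 * t)‖ * B₃ := by
          gcongr
          · exact hB₁ _
          · exact hB₃ _
      _ = _ := by ring

/-- a symbol given by a Schwartz function on Euclidean space -/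
noncomputable def sy {d : ℕ} (φ : 𝓢(EuclideanSpace ℝ (Fin d), ℂ)) (v : Fin d → ℝ) : ℂ :=
  φ (WithLp.toLp 2 v)

theorem sy_fourier {d : ℕ} (φ : 𝓢(EuclideanSpace ℝ (Fin d), ℂ)) (v : Fin d → ℝ) :
    sy φ v = ∫ ξ : EuclideanSpace ℝ (Fin d), e1 (∑ i, ξ i * v i) * (𝓕 φ) ξ := by
  have h1 : (𝓕⁻ (𝓕 φ) : 𝓢(EuclideanSpace ℝ (Fin d), ℂ)) = φ :=
    FourierTransform.fourierInv_fourier_eq φ
  have h2 : (𝓕⁻ (𝓕 φ) : 𝓢(EuclideanSpace ℝ (Fin d), ℂ)) (WithLp.toLp 2 v)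
      = φ (WithLp.toLp 2 v) := by rw [h1]
  unfold sy
  rw [← h2, SchwartzMap.fourierInv_coe, Real.fourierInv_eq']
  congr 1
  funext ξ
  rw [smul_eq_mul]
  unfold e1
  congr 4
  simp [PiLp.inner_apply, mul_comm]

theorem sy_diff {d : ℕ} (φ : 𝓢(EuclideanSpace ℝ (Fin d), ℂ)) : Differentiable ℝ (sy φ) := by
  unfold sy
  exact φ.differentiable.comp (PiLp.continuousLinearEquiv 2 ℝ (fun _ : Fin d => ℝ)).symm.differentiable

theorem nil_sy {d : ℕ} (φ : 𝓢(EuclideanSpace ℝ (Fin d), ℂ)) (M : ℕ)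
    (hM : ∀ v, (∃ i, (M : ℝ) < |v i|) → φ v = 0) (θ : Fin d → ℝ)
    (B : ((Fin d → ℝ) × ℝ) →L[ℝ] ((Fin d → ℝ) × ℝ) →L[ℝ] ℝ)
    (l : ((Fin d → ℝ) × ℝ) →L[ℝ] ℝ) :
    Differentiable ℝ (nil (sy φ) θ B l) ∧
      RepG ((2 * M + 3) ^ d * ∫ ξ, ‖(𝓕 φ) ξ‖) (nil (sy φ) θ B l) := by
  have hM' : ∀ v : Fin d → ℝ, (∃ i, (M : ℝ) < |v i|) → sy φ v = 0 := fun v hv => hM _ hv
  exact ⟨nil_diff (sy_diff φ) M hM' θ B l,
    nil_rep (𝓕 φ).continuous.measurable (𝓕 φ).integrable (sy_fourier φ) M hM' θ B l⟩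

end Vale.Agent.P141.R2.H106
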