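import Vale.Agent.P141.H97.Nice

/-!
# The bilinear Hilbert form twisted by an average of products of functions of pairs
-/

namespace Vale.Agent.P141.R2.H106

open MeasureTheory Set
open scoped ENNReal
open Vale.Agent.P075.R (kern full)
open Vale.Agent.P141.H97

/-- `h(a + b + c)` is, on a box of size `L`, an average (of total mass at most `κ`) of products
of functions of modulus at most one of two of the three variables each -/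
def Rep (κ L : ℝ) (h : ℝ → ℂ) : Prop :=
  ∃ (Ω : Type) (_ : MeasurableSpace Ω) (μ : Measure Ω) (H₀ H₁ H₂ : Ω × ℝ × ℝ → ℂ),
    μ univ ≤ ENNReal.ofReal κ ∧ Measurable H₀ ∧ Measurable H₁ ∧ Measurable H₂ ∧
    (∀ p, ‖H₀ p‖ ≤ 1) ∧ (∀ p, ‖H₁ p‖ ≤ 1) ∧ (∀ p, ‖H₂ p‖ ≤ 1) ∧
    ∀ a b c : ℝ, |a| ≤ L → |b| ≤ L → |c| ≤ L →
      h (a + b + c) = ∫ ω, H₀ (ω, a, b) * H₁ (ω, b, c) * H₂ (ω, c, a) ∂μ

theorem kern_rep : ∃ C₀ : ℝ, 0 ≤ C₀ ∧ ∀ (Ω : Type) (_ : MeasurableSpace Ω) (μ : Measure Ω)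
    (H₀ H₁ H₂ : Ω × ℝ × ℝ → ℂ) (κ : ℝ), 0 ≤ κ →
    μ univ ≤ ENNReal.ofReal κ → Measurable H₀ → Measurable H₁ → Measurable H₂ →
    (∀ p, ‖H₀ p‖ ≤ 1) → (∀ p, ‖H₁ p‖ ≤ 1) → (∀ p, ‖H₂ p‖ ≤ 1) →
    ∀ l₀ l₁ l₂ : ℝ, ∀ G₀ G₁ G₂ : ℝ × ℝ → ℂ, MemLp G₀ 3 volume → MemLp G₁ 3 volume →
    MemLp G₂ 3 volume → ∀ ε R : ℝ, 0 < ε → ε < R →
    Integrable (kern ε R G₀ G₁ G₂) volume ∧
    ‖∫ x : ℝ × ℝ × ℝ, ∫ ω, kern ε R G₀ G₁ G₂ x * (H₀ (ω, l₀ * x.1, l₁ * x.2.1) *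
      H₁ (ω, l₁ * x.2.1, l₂ * x.2.2) * H₂ (ω, l₂ * x.2.2, l₀ * x.1)) ∂μ‖ ≤
      κ * (C₀ * ((eLpNorm G₀ 3 volume).toReal *
        (eLpNorm G₁ 3 volume).toReal * (eLpNorm G₂ 3 volume).toReal)) := by
  obtain ⟨C₀, hC₀⟩ := full
  refine ⟨|C₀|, abs_nonneg _, ?_⟩
  intro Ω _ μ H₀ H₁ H₂ κ hκ hμ m₀ m₁ m₂ b₀ b₁ b₂ l₀ l₁ l₂ G₀ G₁ G₂ g₀ g₁ g₂ ε R hε hR
  haveI : IsFiniteMeasure μ := ⟨hμ.trans_lt ENNReal.ofReal_lt_top⟩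
  obtain ⟨hI, -⟩ := hC₀ G₀ G₁ G₂ g₀ g₁ g₂ ε R hε hR
  refine ⟨hI, ?_⟩
  set S : ℝ := (eLpNorm G₀ 3 volume).toReal * (eLpNorm G₁ 3 volume).toReal *
    (eLpNorm G₂ 3 volume).toReal with hS
  -- the twisted functions
  set K₀ : Ω → ℝ × ℝ → ℂ := fun ω p => G₀ p * H₀ (ω, l₀ * p.1, l₁ * p.2) with hK₀
  set K₁ : Ω → ℝ × ℝ → ℂ := fun ω p => G₁ p * H₁ (ω, l₁ * p.1, l₂ * p.2) with hK₁
  set K₂ : Ω → ℝ × ℝ → ℂ := fun ω p => G₂ p * H₂ (ω, l₂ * p.1, l₀ * p.2) with hK₂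
  have hker : ∀ (x : ℝ × ℝ × ℝ) (ω : Ω), kern ε R G₀ G₁ G₂ x * (H₀ (ω, l₀ * x.1, l₁ * x.2.1) *
      H₁ (ω, l₁ * x.2.1, l₂ * x.2.2) * H₂ (ω, l₂ * x.2.2, l₀ * x.1))
      = kern ε R (K₀ ω) (K₁ ω) (K₂ ω) x := by
    intro x ω
    simp only [kern, hK₀, hK₁, hK₂]
    split_ifs
    · ring
    · simp
  have tw : ∀ (G : ℝ × ℝ → ℂ) (H : Ω × ℝ × ℝ → ℂ) (l l' : ℝ), MemLp G 3 volume → Measurable H →
      (∀ p, ‖H p‖ ≤ 1) → ∀ ω, MemLp (fun p : ℝ × ℝ => G p * H (ω, l * p.1, l' * p.2)) 3 volume ∧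
      (eLpNorm (fun p : ℝ × ℝ => G p * H (ω, l * p.1, l' * p.2)) 3 volume).toReal ≤
        (eLpNorm G 3 volume).toReal := by
    intro G H l l' hG hH hb ω
    have hm : Measurable fun p : ℝ × ℝ => H (ω, l * p.1, l' * p.2) :=
      hH.comp (by fun_prop)
    have hle : eLpNorm (fun p : ℝ × ℝ => G p * H (ω, l * p.1, l' * p.2)) 3 volume ≤
        eLpNorm G 3 volume := by
      apply eLpNorm_mono
      intro p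
      rw [norm_mul]
      exact mul_le_of_le_one_right (norm_nonneg _) (hb _)
    exact ⟨⟨hG.1.mul hm.aestronglyMeasurable, hle.trans_lt hG.2⟩,
      ENNReal.toReal_mono hG.2.ne hle⟩
  have hbound : ∀ ω, ‖∫ x, kern ε R (K₀ ω) (K₁ ω) (K₂ ω) x‖ ≤ |C₀| * S := by
    intro ω
    obtain ⟨p₀, q₀⟩ := tw G₀ H₀ l₀ l₁ g₀ m₀ b₀ ω
    obtain ⟨p₁, q₁⟩ := tw G₁ H₁ l₁ l₂ g₁ m₁ b₁ ω
    obtain ⟨p₂, q₂⟩ := tw G₂ H₂ l₂ l₀ g₂ m₂ b₂ ω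
    obtain ⟨-, hB⟩ := hC₀ (K₀ ω) (K₁ ω) (K₂ ω) p₀ p₁ p₂ ε R hε hR
    refine hB.trans ?_
    have h1 : (eLpNorm (K₀ ω) 3 volume).toReal * (eLpNorm (K₁ ω) 3 volume).toReal *
        (eLpNorm (K₂ ω) 3 volume).toReal ≤ S := by
      rw [hS]
      gcongr
    calc C₀ * ((eLpNorm (K₀ ω) 3 volume).toReal * (eLpNorm (K₁ ω) 3 volume).toReal *
        (eLpNorm (K₂ ω) 3 volume).toReal)
        ≤ |C₀| * ((eLpNorm (K₀ ω) 3 volume).toReal * (eLpNorm (K₁ ω) 3 volume).toReal *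
        (eLpNorm (K₂ ω) 3 volume).toReal) := by
          apply mul_le_mul_of_nonneg_right (le_abs_self _)
          positivity
      _ ≤ |C₀| * S := by gcongr
  have hHm : Measurable fun z : (ℝ × ℝ × ℝ) × Ω => (H₀ (z.2, l₀ * z.1.1, l₁ * z.1.2.1) *
      H₁ (z.2, l₁ * z.1.2.1, l₂ * z.1.2.2) * H₂ (z.2, l₂ * z.1.2.2, l₀ * z.1.1)) := by
    exact ((m₀.comp (by fun_prop)).mul (m₁.comp (by fun_prop))).mul (m₂.comp (by fun_prop))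
  have hint : Integrable (Function.uncurry fun (x : ℝ × ℝ × ℝ) (ω : Ω) =>
      kern ε R G₀ G₁ G₂ x * (H₀ (ω, l₀ * x.1, l₁ * x.2.1) *
      H₁ (ω, l₁ * x.2.1, l₂ * x.2.2) * H₂ (ω, l₂ * x.2.2, l₀ * x.1)))
      ((volume : Measure (ℝ × ℝ × ℝ)).prod μ) := by
    have h1 : Integrable (fun z : (ℝ × ℝ × ℝ) × Ω => kern ε R G₀ G₁ G₂ z.1)
        ((volume : Measure (ℝ × ℝ × ℝ)).prod μ) := hI.comp_fst μ
    refine h1.norm.mono' (h1.1.mul hHm.aestronglyMeasurable) (ae_of_all _ fun z => ?_)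
    have h2 := b₀ (z.2, l₀ * z.1.1, l₁ * z.1.2.1)
    have h3 := b₁ (z.2, l₁ * z.1.2.1, l₂ * z.1.2.2)
    have h4 := b₂ (z.2, l₂ * z.1.2.2, l₀ * z.1.1)
    simp only [Function.uncurry, norm_mul]
    calc _ ≤ ‖kern ε R G₀ G₁ G₂ z.1‖ * (1 * 1 * 1) := by gcongr
      _ = _ := by ring
  rw [integral_integral_swap hint]
  simp only [hker]
  calc ‖∫ ω, ∫ x, kern ε R (K₀ ω) (K₁ ω) (K₂ ω) x ∂volume ∂μ‖
      ≤ (|C₀| * S) * μ.real univ :=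
        norm_integral_le_of_norm_le_const (ae_of_all _ hbound)
    _ ≤ (|C₀| * S) * κ := by
        have h5 : μ.real univ ≤ κ := ENNReal.toReal_le_of_le_ofReal hκ hμ
        have : 0 ≤ |C₀| * S := by positivity
        gcongr
    _ = _ := by ring

end Vale.Agent.P141.R2.H106
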