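import Vale.Agent.P141.R2.H106.Far

/-!
# The measure `dy / dist(y, E)` and local pieces at the scale of the distance
-/

namespace Vale.Agent.P141.R2.H106

open MeasureTheory Set Filter Topology
open scoped ENNReal
open Vale.Agent.P141.H97

/-- distance to a finite set -/
noncomputable def dE (E : Finset ℝ) (y : ℝ) : ℝ := Metric.infDist y (E : Set ℝ)

theorem dE_nonneg (E : Finset ℝ) (y : ℝ) : 0 ≤ dE E y := Metric.infDist_nonneg

theorem dE_lip (E : Finset ℝ) (x y : ℝ) : dE E x ≤ dE E y + |x - y| := by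
  have := Metric.infDist_le_infDist_add_dist (s := (E : Set ℝ)) (x := x) (y := y)
  rwa [Real.dist_eq] at this

theorem dE_meas (E : Finset ℝ) : Measurable (dE E) := (Metric.continuous_infDist_pt _).measurable

theorem dE_pos {E : Finset ℝ} (hE : E.Nonempty) {y : ℝ} (hy : y ∉ E) : 0 < dE E y :=
  (E.finite_toSet.isClosed.notMem_iff_infDist_pos (by exact_mod_cast hE)).1 (by simpa using hy)

theorem dE_att {E : Finset ℝ} (hE : E.Nonempty) (y : ℝ) : ∃ s ∈ E, dE E y = |y - s| := by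
  obtain ⟨s, hs, h⟩ := E.finite_toSet.isCompact.exists_infDist_eq_dist
    (by exact_mod_cast hE) y
  exact ⟨s, by simpa using hs, by rw [← Real.dist_eq]; exact h⟩

theorem ae_notMem (E : Finset ℝ) : ∀ᵐ y : ℝ, y ∉ E := by
  have h : volume (E : Set ℝ) = 0 := E.finite_toSet.measure_zero volume
  have := measure_eq_zero_iff_ae_notMem.1 h
  simpa using this

/-- the measure `dy / dist(y, E)` -/
noncomputable def nu (E : Finset ℝ) : Measure ℝ :=
  volume.withDensity fun y => ENNReal.ofReal (dE E y)⁻¹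

theorem nu_sfinite (E : Finset ℝ) : SFinite (nu E) := by unfold nu; infer_instance

theorem nu_ac (E : Finset ℝ) : nu E ≪ volume := withDensity_absolutelyContinuous _ _

/-- the set of centres of the windows that contain `u` -/
def Aw (E : Finset ℝ) (l u : ℝ) : Set ℝ := {y | |u - y| ≤ l * dE E y}

theorem Aw_meas (E : Finset ℝ) (l u : ℝ) : MeasurableSet (Aw E l u) :=
  measurableSet_le (by fun_prop) ((dE_meas E).const_mul l)

theorem nu_le {E : Finset ℝ} {l u : ℝ} (hl0 : 0 ≤ l) (hl : l ≤ 1 / 2) (hu : 0 < dE E u) :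
    nu E (Aw E l u) ≤ 4 := by
  have h1 : nu E (Aw E l u) = ∫⁻ y in Aw E l u, ENNReal.ofReal (dE E y)⁻¹ :=
    withDensity_apply _ (Aw_meas E l u)
  rw [h1]
  have hA : ∀ y ∈ Aw E l u, (dE E y)⁻¹ ≤ 2 / dE E u ∧ y ∈ Icc (u - 2 * l * dE E u)
      (u + 2 * l * dE E u) := by
    intro y hy
    have hy' : |u - y| ≤ l * dE E y := hy
    have h2 := dE_lip E u y
    have h3 := dE_lip E y u
    rw [abs_sub_comm] at h3
    have h0 := dE_nonneg E y
    have h4 : l * dE E y ≤ 1 / 2 * dE E y := by gcongr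
    have h5 : dE E u ≤ 2 * dE E y := by linarith
    have h6 : dE E y ≤ 2 * dE E u := by linarith
    have h7 : 0 < dE E y := by linarith
    refine ⟨?_, ?_⟩
    · rw [inv_eq_one_div, div_le_div_iff₀ h7 hu]
      linarith
    · have h8 : |u - y| ≤ 2 * l * dE E u := by
        calc |u - y| ≤ l * dE E y := hy'
          _ ≤ l * (2 * dE E u) := by gcongr
          _ = _ := by ring
      have h9 := abs_le.1 h8
      exact ⟨by linarith [h9.2], by linarith [h9.1]⟩
  calc ∫⁻ y in Aw E l u, ENNReal.ofReal (dE E y)⁻¹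
      ≤ ∫⁻ y in Aw E l u, ENNReal.ofReal (2 / dE E u) :=
        setLIntegral_mono measurable_const fun y hy => ENNReal.ofReal_le_ofReal (hA y hy).1
    _ = ENNReal.ofReal (2 / dE E u) * volume (Aw E l u) := by rw [setLIntegral_const]
    _ ≤ ENNReal.ofReal (2 / dE E u) * volume (Icc (u - 2 * l * dE E u) (u + 2 * l * dE E u)) := by
        gcongr
        exact fun y hy => (hA y hy).2
    _ = ENNReal.ofReal (8 * l) := by
        rw [Real.volume_Icc, ← ENNReal.ofReal_mul (by positivity)]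
        congr 1
        field_simp
        ring
    _ ≤ ENNReal.ofReal 4 := ENNReal.ofReal_le_ofReal (by linarith)
    _ = 4 := by norm_num

theorem nu_ge {E : Finset ℝ} {l u : ℝ} (hl0 : 0 < l) (hl : l ≤ 1 / 2) (hu : 0 < dE E u) :
    ENNReal.ofReal (l / 2) ≤ nu E (Aw E l u) := by
  have h1 : nu E (Icc (u - l / 2 * dE E u) (u + l / 2 * dE E u)) =
      ∫⁻ y in Icc (u - l / 2 * dE E u) (u + l / 2 * dE E u), ENNReal.ofReal (dE E y)⁻¹ :=
    withDensity_apply _ measurableSet_Icc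
  have hA : ∀ y ∈ Icc (u - l / 2 * dE E u) (u + l / 2 * dE E u),
      (2 * dE E u)⁻¹ ≤ (dE E y)⁻¹ ∧ y ∈ Aw E l u := by
    intro y hy
    have h8 : |u - y| ≤ l / 2 * dE E u := by
      rw [abs_le]
      exact ⟨by linarith [hy.2], by linarith [hy.1]⟩
    have h2 := dE_lip E u y
    have h3 := dE_lip E y u
    rw [abs_sub_comm] at h3
    have h4 : l / 2 * dE E u ≤ 1 / 4 * dE E u := by
      have : l / 2 ≤ 1 / 4 := by linarith
      gcongr
    have h5 : dE E u ≤ 2 * dE E y := by linarith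
    have h6 : dE E y ≤ 2 * dE E u := by linarith
    have h7 : 0 < dE E y := by linarith
    refine ⟨?_, ?_⟩
    · exact inv_anti₀ h7 h6
    · show |u - y| ≤ l * dE E y
      calc |u - y| ≤ l / 2 * dE E u := h8
        _ ≤ l / 2 * (2 * dE E y) := by gcongr
        _ = _ := by ring
  calc ENNReal.ofReal (l / 2)
      = ENNReal.ofReal (2 * dE E u)⁻¹ *
          volume (Icc (u - l / 2 * dE E u) (u + l / 2 * dE E u)) := by
        rw [Real.volume_Icc, ← ENNReal.ofReal_mul (by positivity)]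
        congr 1
        field_simp
        ring
    _ = ∫⁻ y in Icc (u - l / 2 * dE E u) (u + l / 2 * dE E u), ENNReal.ofReal (2 * dE E u)⁻¹ := by
        rw [setLIntegral_const]
    _ ≤ ∫⁻ y in Icc (u - l / 2 * dE E u) (u + l / 2 * dE E u), ENNReal.ofReal (dE E y)⁻¹ :=
        setLIntegral_mono (((dE_meas E).inv).ennreal_ofReal)
          fun y hy => ENNReal.ofReal_le_ofReal (hA y hy).1
    _ = nu E (Icc (u - l / 2 * dE E u) (u + l / 2 * dE E u)) := h1.symm
    _ ≤ nu E (Aw E l u) := measure_mono fun y hy => (hA y hy).2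

/-- Hoelder for three functions, any measure -/
theorem hold3' {Y : Type*} [MeasurableSpace Y] (μ : Measure Y) {a₁ a₂ a₃ : Y → ℝ≥0∞}
    (h₁ : Measurable fun y => a₁ y ^ (3 : ℝ))
    (h₂ : Measurable fun y => a₂ y ^ (3 : ℝ)) (h₃ : Measurable fun y => a₃ y ^ (3 : ℝ)) :
    ∫⁻ y, a₁ y * a₂ y * a₃ y ∂μ ≤ (∫⁻ y, a₁ y ^ (3 : ℝ) ∂μ) ^ (1 / 3 : ℝ) *
      (∫⁻ y, a₂ y ^ (3 : ℝ) ∂μ) ^ (1 / 3 : ℝ) * (∫⁻ y, a₃ y ^ (3 : ℝ) ∂μ) ^ (1 / 3 : ℝ) := by
  have key := ENNReal.lintegral_prod_norm_pow_le (μ := μ)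
    (Finset.univ : Finset (Fin 3))
    (f := fun i => ![fun y => a₁ y ^ (3 : ℝ), fun y => a₂ y ^ (3 : ℝ),
      fun y => a₃ y ^ (3 : ℝ)] i) (p := fun _ => (1 / 3 : ℝ))
    (by
      intro i _
      fin_cases i
      · exact h₁.aemeasurable
      · exact h₂.aemeasurable
      · exact h₃.aemeasurable)
    (by simp) (by intro i _; norm_num)
  simp only [Fin.prod_univ_three] at key
  refine le_trans (le_of_eq ?_) key
  apply lintegral_congr
  intro y
  have h : ∀ a : ℝ≥0∞, (a ^ (3 : ℝ)) ^ (1 / 3 : ℝ) = a := by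
    intro a
    rw [← ENNReal.rpow_mul]
    norm_num
  show a₁ y * a₂ y * a₃ y = (a₁ y ^ (3 : ℝ)) ^ (1 / 3 : ℝ) * (a₂ y ^ (3 : ℝ)) ^ (1 / 3 : ℝ) *
    (a₃ y ^ (3 : ℝ)) ^ (1 / 3 : ℝ)
  rw [h, h, h]

theorem lcv_meas2 (E : Finset ℝ) (D : ℝ) {g : ℝ → ℂ} (hg : Measurable g) :
    Measurable fun p : ℝ × ℝ => lc (D * dE E p.1) g p.1 p.2 := by
  have h : (fun p : ℝ × ℝ => lc (D * dE E p.1) g p.1 p.2) =
      {p : ℝ × ℝ | |p.2| ≤ D * dE E p.1}.indicator fun p => g (p.2 + p.1) := by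
    funext p
    by_cases hp : |p.2| ≤ D * dE E p.1
    · rw [indicator_of_mem (show p ∈ {p : ℝ × ℝ | |p.2| ≤ D * dE E p.1} from hp), lc_of_abs hp]
    · rw [indicator_of_notMem (show p ∉ {p : ℝ × ℝ | |p.2| ≤ D * dE E p.1} from hp),
        lc_of_gt (not_le.1 hp)]
  rw [h]
  refine Measurable.indicator (hg.comp (by fun_prop)) ?_
  exact measurableSet_le (by fun_prop) (((dE_meas E).comp measurable_fst).const_mul D)

theorem lcv_cube_meas (E : Finset ℝ) (D : ℝ) {g : ℝ → ℂ} (hg : Measurable g) :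
    Measurable fun y => (eLpNorm (lc (D * dE E y) g y) 3 volume) ^ (3 : ℝ) := by
  simp only [elp3]
  exact ((lcv_meas2 E D hg).enorm.pow_const _).lintegral_prod_right'

theorem lcv_cube {E : Finset ℝ} (hE : E.Nonempty) {D : ℝ} (hD0 : 0 ≤ D) (hD : D ≤ 1 / 2)
    {g : ℝ → ℂ} (hg : Measurable g) :
    ∫⁻ y, (eLpNorm (lc (D * dE E y) g y) 3 volume) ^ (3 : ℝ) ∂(nu E) ≤
      4 * (eLpNorm g 3 volume) ^ (3 : ℝ) := by
  simp only [elp3]
  set Φ : ℝ → ℝ → ℝ≥0∞ := fun y u => (Aw E D u).indicator (fun _ => ‖g u‖ₑ ^ (3 : ℝ)) y with hΦ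
  have h1 : ∀ y, ∫⁻ v, ‖lc (D * dE E y) g y v‖ₑ ^ (3 : ℝ) = ∫⁻ u, Φ y u := by
    intro y
    rw [← lintegral_add_right_eq_self (fun u => Φ y u) y]
    apply lintegral_congr
    intro v
    simp only [hΦ]
    by_cases hv : |v| ≤ D * dE E y
    · rw [lc_of_abs hv, indicator_of_mem (show y ∈ Aw E D (v + y) by
        show |v + y - y| ≤ D * dE E y
        rwa [add_sub_cancel_right])]
    · rw [lc_of_gt (not_le.1 hv), indicator_of_notMem (show y ∉ Aw E D (v + y) by
        intro hc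
        apply hv
        have hc' : |v + y - y| ≤ D * dE E y := hc
        rwa [add_sub_cancel_right] at hc')]
      simp
  simp only [h1]
  have hm : Measurable (Function.uncurry Φ) := by
    have h : Function.uncurry Φ = {p : ℝ × ℝ | |p.2 - p.1| ≤ D * dE E p.1}.indicator
        fun p => ‖g p.2‖ₑ ^ (3 : ℝ) := by
      funext p
      simp only [Function.uncurry, hΦ]
      by_cases hp : |p.2 - p.1| ≤ D * dE E p.1
      · rw [indicator_of_mem (show p ∈ {p : ℝ × ℝ | |p.2 - p.1| ≤ D * dE E p.1} from hp),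
          indicator_of_mem (show p.1 ∈ Aw E D p.2 from hp)]
      · rw [indicator_of_notMem (show p ∉ {p : ℝ × ℝ | |p.2 - p.1| ≤ D * dE E p.1} from hp),
          indicator_of_notMem (show p.1 ∉ Aw E D p.2 from hp)]
    rw [h]
    refine Measurable.indicator ((hg.comp measurable_snd).enorm.pow_const _) ?_
    exact measurableSet_le (by fun_prop) (((dE_meas E).comp measurable_fst).const_mul D)
  have := nu_sfinite E
  rw [lintegral_lintegral_swap hm.aemeasurable,
    ← lintegral_const_mul _ (hg.enorm.pow_const (3 : ℝ))]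
  apply lintegral_mono_ae
  filter_upwards [ae_notMem E] with u hu
  simp only [hΦ]
  rw [lintegral_indicator (Aw_meas E D u), setLIntegral_const, mul_comm]
  gcongr
  exact nu_le hD0 hD (dE_pos hE hu)

end Vale.Agent.P141.R2.H106
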