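import Vale.Agent.P141.R2.H106.Loc
import Vale.Agent.P141.H97.Dual
import Vale.Agent.P141.Defs

/-!
# From the form to the operator
-/

namespace Vale.Agent.P141.R2.H106

open MeasureTheory Set Filter Topology
open scoped ENNReal
open Vale.Agent.P141.H97

/-- structured functions at scale `L`: measurable, bounded, and all translates have a
representation `Rep κ L` -/
def Str (κ L : ℝ) (h : ℝ → ℂ) : Prop :=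
  Measurable h ∧ (∃ B, ∀ x, ‖h x‖ ≤ B) ∧ ∀ y, Rep κ L (fun x => h (x + y))

theorem Rep.mono {κ L L' : ℝ} {h : ℝ → ℂ} (H : Rep κ L h) (hL : L' ≤ L) : Rep κ L' h := by
  obtain ⟨Ω, mΩ, μ, H₀, H₁, H₂, hμ, m₀, m₁, m₂, b₀, b₁, b₂, e⟩ := H
  exact ⟨Ω, mΩ, μ, H₀, H₁, H₂, hμ, m₀, m₁, m₂, b₀, b₁, b₂, fun a b c ha hb hc =>
    e a b c (ha.trans hL) (hb.trans hL) (hc.trans hL)⟩

theorem Str.mono {κ L L' : ℝ} {h : ℝ → ℂ} (H : Str κ L h) (hL : L' ≤ L) : Str κ L' h :=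
  ⟨H.1, H.2.1, fun y => (H.2.2 y).mono hL⟩

theorem ofReal_32 : ENNReal.ofReal (1 / (1 - 1 / 3)) = 3 / 2 := by
  rw [← ENNReal.toReal_eq_toReal_iff' (by simp) (by finiteness)]
  rw [ENNReal.toReal_ofReal (by norm_num), ENNReal.toReal_div]
  norm_num

theorem tt_meas {ε R β₁ β₂ β₃ : ℝ} {f₁ f₂ f₃ : ℝ → ℂ} (h₁ : Measurable f₁) (h₂ : Measurable f₂)
    (h₃ : Measurable f₃) : Measurable (TT ε R β₁ β₂ β₃ f₁ f₂ f₃) :=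
  ((ph_meas h₁ h₂ h₃).stronglyMeasurable.integral_prod_right' (ν := volume)).measurable

theorem tt_bdd {ε R β₁ β₂ β₃ : ℝ} (hε : 0 < ε) {f₁ f₂ f₃ : ℝ → ℂ} {B₁ B₂ B₃ : ℝ}
    (hB₁ : ∀ x, ‖f₁ x‖ ≤ B₁) (hB₂ : ∀ x, ‖f₂ x‖ ≤ B₂) (hB₃ : ∀ x, ‖f₃ x‖ ≤ B₃) (x : ℝ) :
    ‖TT ε R β₁ β₂ β₃ f₁ f₂ f₃ x‖ ≤ ∫ t, av ε R t * (B₁ * B₂ * B₃) := by
  have hB₁0 : 0 ≤ B₁ := (norm_nonneg _).trans (hB₁ 0)
  have hB₂0 : 0 ≤ B₂ := (norm_nonneg _).trans (hB₂ 0)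
  have hB₃0 : 0 ≤ B₃ := (norm_nonneg _).trans (hB₃ 0)
  refine norm_integral_le_of_norm_le ((av_int hε).mul_const _) (ae_of_all _ fun t => ?_)
  unfold ph FF
  rw [norm_mul, uu_norm, norm_mul, norm_mul]
  have a1 := av_nonneg ε R t
  have c1 := hB₁ (x - β₁ * t)
  have c2 := hB₂ (x - β₂ * t)
  have c3 := hB₃ (x - β₃ * t)
  gcongr

theorem TT_23 (ε R α₁ α₂ α₃ : ℝ) (f₁ f₂ f₃ : ℝ → ℂ) :
    TT ε R α₁ α₂ α₃ f₁ f₂ f₃ = TT ε R α₁ α₃ α₂ f₁ f₃ f₂ := by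
  funext x
  unfold TT ph FF
  congr 1
  funext t
  ring

theorem TT_rot (ε R α₁ α₂ α₃ : ℝ) (f₁ f₂ f₃ : ℝ → ℂ) :
    TT ε R α₁ α₂ α₃ f₁ f₂ f₃ = TT ε R α₂ α₃ α₁ f₂ f₃ f₁ := by
  funext x
  unfold TT ph FF
  congr 1
  funext t
  ring

theorem trunc_eq (f₁ f₂ f₃ : ℝ → ℂ) (ε R : ℝ) :
    truncTHT f₁ f₂ f₃ ε R = TT ε R 1 2 3 f₁ f₂ f₃ := by
  funext x
  rw [TT_eq]
  rfl

end Vale.Agent.P141.R2.H106
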