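import Vale.Agent.P141.MathlibUsed

/-! # P141: the cubic remainder of a phase at the scale of its third derivative -/

open Set

namespace Vale.Agent.P141.R2.H106

theorem phase (A : ℝ) (hA : 0 ≤ A) : ∃ B : ℝ, 1 ≤ B ∧ ∀ L y : ℝ, 0 < L →
    ∀ ψ ψ₁ ψ₂ ψ₃ : ℝ → ℝ, (∀ x, |x - y| ≤ 4 * L → HasDerivAt ψ (ψ₁ x) x ∧
      HasDerivAt ψ₁ (ψ₂ x) x ∧ HasDerivAt ψ₂ (ψ₃ x) x ∧ |ψ₃ x| * L ^ 3 ≤ A) →
    ∃ r' r'' : ℝ → ℂ, (∀ x, |x| ≤ 4 * L →
      HasDerivAt (fun x : ℝ => Complex.exp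
        (((ψ (x + y) - ψ y - ψ₁ y * x - ψ₂ y * x ^ 2 / 2 : ℝ) : ℂ) * Complex.I)) (r' x) x ∧
      HasDerivAt r' (r'' x) x ∧
      ‖Complex.exp
        (((ψ (x + y) - ψ y - ψ₁ y * x - ψ₂ y * x ^ 2 / 2 : ℝ) : ℂ) * Complex.I)‖ ≤ B ∧
      ‖r' x‖ * L ≤ B ∧ ‖r'' x‖ * L ^ 2 ≤ B) ∧ ContinuousOn r'' (Icc (-(4 * L)) (4 * L)) := by
  refine ⟨1 + 20 * A + 256 * A ^ 2, by nlinarith [sq_nonneg A], fun L y hL ψ ψ₁ ψ₂ ψ₃ h => ?_⟩
  -- the remainder and its derivatives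
  set ρ : ℝ → ℝ := fun x => ψ (x + y) - ψ y - ψ₁ y * x - ψ₂ y * x ^ 2 / 2 with hρ
  set ρ₁ : ℝ → ℝ := fun x => ψ₁ (x + y) - ψ₁ y - ψ₂ y * x with hρ₁
  set ρ₂ : ℝ → ℝ := fun x => ψ₂ (x + y) - ψ₂ y with hρ₂
  have hxy : ∀ x, |x| ≤ 4 * L → |x + y - y| ≤ 4 * L := fun x hx => by
    rwa [add_sub_cancel_right]
  have d0 : ∀ x, |x| ≤ 4 * L → HasDerivAt ρ (ρ₁ x) x := by
    intro x hx
    have h1 := ((h _ (hxy x hx)).1.comp_add_const x y).sub_const (ψ y)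
    have h2 : HasDerivAt (fun x : ℝ => ψ₁ y * x) (ψ₁ y) x := by
      simpa using (hasDerivAt_id x).const_mul (ψ₁ y)
    have h3 : HasDerivAt (fun x : ℝ => ψ₂ y * x ^ 2 / 2) (ψ₂ y * x) x := by
      have := (((hasDerivAt_id x).pow 2).const_mul (ψ₂ y)).div_const 2
      refine this.congr_deriv ?_
      simp
      ring
    exact (h1.sub h2).sub h3
  have d1 : ∀ x, |x| ≤ 4 * L → HasDerivAt ρ₁ (ρ₂ x) x := by
    intro x hx
    have h1 := ((h _ (hxy x hx)).2.1.comp_add_const x y).sub_const (ψ₁ y)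
    have h2 : HasDerivAt (fun x : ℝ => ψ₂ y * x) (ψ₂ y) x := by
      simpa using (hasDerivAt_id x).const_mul (ψ₂ y)
    exact h1.sub h2
  have d2 : ∀ x, |x| ≤ 4 * L → HasDerivAt ρ₂ (ψ₃ (x + y)) x := fun x hx =>
    ((h _ (hxy x hx)).2.2.1.comp_add_const x y).sub_const (ψ₂ y)
  have hconv : Convex ℝ (Icc (-(4 * L)) (4 * L)) := convex_Icc _ _
  have h0 : (0 : ℝ) ∈ Icc (-(4 * L)) (4 * L) := ⟨by linarith, by linarith⟩
  have hL3 : 0 < L ^ 3 := by positivity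
  have hL2 : 0 < L ^ 2 := by positivity
  have b2 : ∀ x, |x| ≤ 4 * L → |ρ₂ x| * L ^ 2 ≤ 4 * A := by
    intro x hx
    have h1 := hconv.norm_image_sub_le_of_norm_hasDerivWithin_le (f := ρ₂)
      (f' := fun x => ψ₃ (x + y)) (C := A / L ^ 3)
      (fun z hz => (d2 z (abs_le.2 hz)).hasDerivWithinAt)
      (fun z hz => by
        rw [Real.norm_eq_abs, le_div_iff₀ hL3]
        exact (h _ (hxy z (abs_le.2 hz))).2.2.2) h0 (abs_le.1 hx)
    have h2 : ρ₂ 0 = 0 := by simp [hρ₂]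
    rw [h2, sub_zero, sub_zero, Real.norm_eq_abs, Real.norm_eq_abs] at h1
    have h3 : A / L ^ 3 * |x| ≤ A / L ^ 3 * (4 * L) :=
      mul_le_mul_of_nonneg_left hx (div_nonneg hA hL3.le)
    calc |ρ₂ x| * L ^ 2 ≤ A / L ^ 3 * (4 * L) * L ^ 2 :=
          mul_le_mul_of_nonneg_right (h1.trans h3) hL2.le
      _ = 4 * A := by
          field_simp
  have b1 : ∀ x, |x| ≤ 4 * L → |ρ₁ x| * L ≤ 16 * A := by
    intro x hx
    have h1 := hconv.norm_image_sub_le_of_norm_hasDerivWithin_le (f := ρ₁)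
      (f' := ρ₂) (C := 4 * A / L ^ 2)
      (fun z hz => (d1 z (abs_le.2 hz)).hasDerivWithinAt)
      (fun z hz => by
        rw [Real.norm_eq_abs, le_div_iff₀ hL2]
        exact b2 z (abs_le.2 hz)) h0 (abs_le.1 hx)
    have h2 : ρ₁ 0 = 0 := by simp [hρ₁]
    rw [h2, sub_zero, sub_zero, Real.norm_eq_abs, Real.norm_eq_abs] at h1
    have h3 : 4 * A / L ^ 2 * |x| ≤ 4 * A / L ^ 2 * (4 * L) :=
      mul_le_mul_of_nonneg_left hx (by positivity)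
    calc |ρ₁ x| * L ≤ 4 * A / L ^ 2 * (4 * L) * L :=
          mul_le_mul_of_nonneg_right (h1.trans h3) hL.le
      _ = 16 * A := by
          field_simp
          ring
  -- the exponential
  set r : ℝ → ℂ := fun x => Complex.exp ((ρ x : ℂ) * Complex.I) with hr
  have nr : ∀ x, ‖r x‖ = 1 := fun x => Complex.norm_exp_ofReal_mul_I _
  have e0 : ∀ x, |x| ≤ 4 * L → HasDerivAt r ((ρ₁ x : ℂ) * Complex.I * r x) x := by
    intro x hx
    have h1 := (((d0 x hx).ofReal_comp).mul_const Complex.I).cexp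
    refine h1.congr_deriv ?_
    ring
  have e1 : ∀ x, |x| ≤ 4 * L → HasDerivAt (fun x => (ρ₁ x : ℂ) * Complex.I * r x)
      (((ρ₂ x : ℂ) * Complex.I - (ρ₁ x : ℂ) ^ 2) * r x) x := by
    intro x hx
    have h1 := (((d1 x hx).ofReal_comp).mul_const Complex.I).mul (e0 x hx)
    refine h1.congr_deriv ?_
    have := Complex.I_sq
    linear_combination ((ρ₁ x : ℂ) ^ 2 * r x) * this
  refine ⟨fun x => (ρ₁ x : ℂ) * Complex.I * r x,
    fun x => ((ρ₂ x : ℂ) * Complex.I - (ρ₁ x : ℂ) ^ 2) * r x, fun x hx =>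
    ⟨e0 x hx, e1 x hx, ?_, ?_, ?_⟩, ?_⟩
  · have := nr x
    rw [hr] at this
    refine this.le.trans ?_
    nlinarith [sq_nonneg A]
  · rw [norm_mul, nr, mul_one, norm_mul, Complex.norm_I, mul_one, Complex.norm_real,
      Real.norm_eq_abs]
    have := b1 x hx
    nlinarith [sq_nonneg A]
  · have h1 : ‖(ρ₂ x : ℂ) * Complex.I - (ρ₁ x : ℂ) ^ 2‖ ≤ |ρ₂ x| + |ρ₁ x| ^ 2 := by
      refine (norm_sub_le _ _).trans ?_
      rw [norm_mul, Complex.norm_I, mul_one, Complex.norm_real, Real.norm_eq_abs, norm_pow,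
        Complex.norm_real, Real.norm_eq_abs]
    rw [norm_mul, nr, mul_one]
    have h2 := b1 x hx
    have h3 := b2 x hx
    have h4 : (|ρ₁ x| * L) ^ 2 ≤ (16 * A) ^ 2 :=
      pow_le_pow_left₀ (mul_nonneg (abs_nonneg _) hL.le) h2 2
    calc ‖(ρ₂ x : ℂ) * Complex.I - (ρ₁ x : ℂ) ^ 2‖ * L ^ 2
        ≤ (|ρ₂ x| + |ρ₁ x| ^ 2) * L ^ 2 := mul_le_mul_of_nonneg_right h1 hL2.le
      _ = |ρ₂ x| * L ^ 2 + (|ρ₁ x| * L) ^ 2 := by ring
      _ ≤ 4 * A + (16 * A) ^ 2 := add_le_add h3 h4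
      _ ≤ 1 + 20 * A + 256 * A ^ 2 := by nlinarith
  · intro x hx
    have hx' : |x| ≤ 4 * L := abs_le.2 hx
    have c2 : ContinuousAt (fun x => (ρ₂ x : ℂ)) x :=
      Complex.continuous_ofReal.continuousAt.comp (d2 x hx').continuousAt
    have c1 : ContinuousAt (fun x => (ρ₁ x : ℂ)) x :=
      Complex.continuous_ofReal.continuousAt.comp (d1 x hx').continuousAt
    exact (((c2.mul continuousAt_const).sub (c1.pow 2)).mul
      (e0 x hx').continuousAt).continuousWithinAt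

end Vale.Agent.P141.R2.H106
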