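import Vale.Agent.P141.R2.H106.Slow

/-!
# Phases with a small third derivative
-/

namespace Vale.Agent.P141.R2.H106

open MeasureTheory Set Filter Topology
open scoped ENNReal ContDiff

/-- the nilsequence of a quadratic polynomial in one variable -/
theorem nil_quad (q₂ q₁ q₀ x : ℝ) :
    H860.nil (fun _ : Fin 0 → ℝ => (1 : ℂ)) (fun _ => 0) (fun _ _ => q₂) (fun _ => q₁) q₀ x =
      Complex.exp (((2 * Real.pi * (q₂ * x ^ 2 + q₁ * x + q₀) : ℝ) : ℂ) * Complex.I) := by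
  unfold H860.nil
  rw [tsum_fintype]
  simp only [Finset.univ_unique, Finset.sum_singleton, one_mul]
  have hq : ∀ u : Fin 0 → ℝ, H860.quad (fun _ _ : Fin (0 + 1) => q₂) (fun _ => q₁) q₀
      (Fin.cons x u) = q₂ * x ^ 2 + q₁ * x + q₀ := by
    intro u
    unfold H860.quad
    rw [Fin.sum_univ_succ, Fin.sum_univ_zero, Fin.sum_univ_succ, Fin.sum_univ_zero,
      Fin.sum_univ_succ, Fin.sum_univ_zero]
    simp only [Fin.cons_zero]
    ring
  rw [hq]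
  unfold H860.ee
  congr 1
  push_cast
  ring

/-- **phases with a small third derivative** -/
theorem phase_loc (A : ℝ) (hA : 0 ≤ A) : ∃ B : ℝ, 0 ≤ B ∧ ∀ d : ℝ → ℝ,
    (∀ x y, d x ≤ d y + |x - y|) → ∀ ψ ψ₁ ψ₂ ψ₃ : ℝ → ℝ, Measurable ψ →
    (∀ x, 0 < d x → HasDerivAt ψ (ψ₁ x) x ∧ HasDerivAt ψ₁ (ψ₂ x) x ∧ HasDerivAt ψ₂ (ψ₃ x) x ∧
      |ψ₃ x| * d x ^ 3 ≤ A) →
    LocNil (fun _ : Fin 0 → ℝ => (1 : ℂ)) B d
      (fun x => Complex.exp (((ψ x : ℝ) : ℂ) * Complex.I)) := by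
  obtain ⟨B, hB, H⟩ := phase A hA
  refine ⟨64 * B, by linarith, fun d lip ψ ψ₁ ψ₂ ψ₃ mψ hψ => ⟨?_, fun x => ?_, fun y hy => ?_⟩⟩
  · exact Complex.measurable_exp.comp ((Complex.measurable_ofReal.comp mψ).mul_const _)
  · rw [Complex.norm_exp_ofReal_mul_I]
    linarith
  set L : ℝ := d y / 8 with hL
  have hL0 : 0 < L := by positivity
  have hdL : d y = 8 * L := by rw [hL]; ring
  obtain ⟨r', r'', h1, h2⟩ := H L y hL0 ψ ψ₁ ψ₂ ψ₃ (fun x hx => by
    have h3 := lip y x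
    rw [abs_sub_comm] at h3
    have h4 : 4 * L ≤ d x := by linarith
    have h5 : 0 < d x := by linarith
    obtain ⟨k1, k2, k3, k4⟩ := hψ x h5
    refine ⟨k1, k2, k3, le_trans ?_ k4⟩
    have : L ≤ d x := by linarith
    gcongr)
  refine ⟨fun _ => 0, fun _ _ => ψ₂ y / (4 * Real.pi), fun _ => (ψ₁ y - ψ₂ y * y) /
    (2 * Real.pi), (ψ y - ψ₁ y * y + ψ₂ y * y ^ 2 / 2) / (2 * Real.pi),
    fun x => Complex.exp (((ψ (x - y + y) - ψ y - ψ₁ y * (x - y) - ψ₂ y * (x - y) ^ 2 / 2 : ℝ) :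
      ℂ) * Complex.I), fun x => r' (x - y), fun x => r'' (x - y), ?_, fun x hx => ?_⟩
  · refine h2.comp (by fun_prop) fun x hx => ?_
    have h3 : d y / 2 = 4 * L := by rw [hdL]; ring
    rw [h3] at hx
    exact ⟨by linarith [hx.1], by linarith [hx.2]⟩
  · have hx' : |x - y| ≤ 4 * L := by
      refine hx.trans (le_of_eq ?_)
      rw [hdL]; ring
    obtain ⟨k1, k2, k3, k4, k5⟩ := h1 (x - y) hx'
    refine ⟨k1.comp_sub_const x y, k2.comp_sub_const x y, k3.trans (by linarith), ?_, ?_, ?_⟩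
    · rw [hdL]
      calc ‖r' (x - y)‖ * (8 * L) = 8 * (‖r' (x - y)‖ * L) := by ring
        _ ≤ 8 * B := by gcongr
        _ ≤ 64 * B := by linarith
    · rw [hdL]
      calc ‖r'' (x - y)‖ * (8 * L) ^ 2 = 64 * (‖r'' (x - y)‖ * L ^ 2) := by ring
        _ ≤ 64 * B := by gcongr
    · rw [nil_quad, ← Complex.exp_add, ← add_mul, ← Complex.ofReal_add]
      congr 3
      have hpi := Real.pi_ne_zero
      rw [sub_add_cancel]
      field_simp
      ring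

end Vale.Agent.P141.R2.H106
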