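import Vale.Agent.P141.MathlibUsed
import Mathlib.Analysis.Fourier.AddCircle
import Mathlib.Analysis.PSeries
import Mathlib.Analysis.Calculus.BumpFunction.Basic
import Mathlib.Analysis.Calculus.BumpFunction.InnerProduct

/-! # P141: a function with two bounded derivatives is an absolutely convergent Fourier series -/

open Set MeasureTheory Filter Topology
open scoped Interval

namespace Vale.Agent.P141.R2.H106

theorem coeff_step {f f' : ℝ → ℂ} {n : ℤ} (hn : n ≠ 0) (hab : (-4 : ℝ) < -4 + 8)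
    (hf : ∀ x ∈ [[(-4 : ℝ), -4 + 8]], HasDerivAt f (f' x) x)
    (hf' : IntervalIntegrable f' volume (-4) (-4 + 8)) (h4 : f (-4) = 0)
    (h4' : f (-4 + 8) = 0) :
    ‖fourierCoeffOn hab f n‖ * |(n : ℝ)| ≤ 2 * ‖fourierCoeffOn hab f' n‖ := by
  rw [fourierCoeffOn_of_hasDerivAt hab hn hf hf', h4, h4', sub_zero, mul_zero, zero_sub]
  have hn' : (n : ℝ) ≠ 0 := by exact_mod_cast hn
  have hn0 : 0 < |(n : ℝ)| := abs_pos.2 hn'
  have hpi := Real.two_le_pi
  have h1 : ‖(1 : ℂ) / (-2 * Real.pi * Complex.I * n)‖ = 1 / (2 * Real.pi * |(n : ℝ)|) := by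
    rw [norm_div, norm_one, norm_mul, norm_mul, norm_mul, Complex.norm_I, mul_one, norm_neg,
      Complex.norm_intCast, Complex.norm_real, Real.norm_of_nonneg Real.pi_pos.le]
    norm_num
  have h2 : ‖-((((-4 + 8 : ℝ) : ℂ) - ((-4 : ℝ) : ℂ)) * fourierCoeffOn hab f' n)‖ =
      8 * ‖fourierCoeffOn hab f' n‖ := by
    rw [norm_neg, norm_mul, ← Complex.ofReal_sub, Complex.norm_real]
    norm_num
  rw [norm_mul, h1, h2]
  have h3 : 1 / (2 * Real.pi * |(n : ℝ)|) * (8 * ‖fourierCoeffOn hab f' n‖) * |(n : ℝ)| =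
      4 / Real.pi * ‖fourierCoeffOn hab f' n‖ := by
    field_simp
    ring
  rw [h3]
  have h4 : 4 / Real.pi ≤ 2 := by
    rw [div_le_iff₀ Real.pi_pos]
    linarith
  exact mul_le_mul_of_nonneg_right h4 (norm_nonneg _)

theorem coeff_le {g : ℝ → ℂ} (n : ℤ) (hab : (-4 : ℝ) < -4 + 8) {M : ℝ}
    (hg : ∀ x, |x| ≤ 4 → ‖g x‖ ≤ M) : ‖fourierCoeffOn hab g n‖ ≤ M := by
  rw [fourierCoeffOn_eq_integral, norm_smul]
  have h1 : ‖∫ x in (-4 : ℝ)..(-4 + 8), fourier (-n) (x : AddCircle ((-4 + 8 : ℝ) - -4)) • g x‖ ≤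
      M * |(-4 + 8 : ℝ) - -4| := by
    refine intervalIntegral.norm_integral_le_of_norm_le_const fun x hx => ?_
    rw [norm_smul, fourier_apply, Circle.norm_coe, one_mul]
    refine hg x ?_
    rw [uIoc_of_le (by norm_num)] at hx
    rw [abs_le]
    constructor
    · linarith [hx.1]
    · linarith [hx.2]
  have h2 : |(-4 + 8 : ℝ) - -4| = 8 := by norm_num
  rw [h2] at h1
  have h3 : ‖(1 : ℝ) / ((-4 + 8 : ℝ) - -4)‖ = 1 / 8 := by norm_num
  rw [h3]
  refine (mul_le_mul_of_nonneg_left h1 (by norm_num)).trans ?_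
  linarith

theorem wiener1 : ∃ C : ℝ, 0 ≤ C ∧ ∀ B : ℝ, 0 ≤ B → ∀ r r' r'' : ℝ → ℂ,
    (∀ x, |x| ≤ 4 → HasDerivAt r (r' x) x ∧ HasDerivAt r' (r'' x) x ∧ ‖r x‖ ≤ B ∧
      ‖r' x‖ ≤ B ∧ ‖r'' x‖ ≤ B) → ContinuousOn r'' (Icc (-4) 4) →
    ∃ a : ℤ → ℂ, Summable (fun n => ‖a n‖) ∧ ∑' n, ‖a n‖ ≤ C * B ∧
      ∀ x, |x| ≤ 3 → r x = ∑' n, a n *
        Complex.exp (((2 * Real.pi * (n * (x / 8)) : ℝ) : ℂ) * Complex.I) := by
  -- the cutoff
  let φ : ContDiffBump (0 : ℝ) := ⟨3, 7 / 2, by norm_num, by norm_num⟩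
  have hφ : ContDiff ℝ 2 (fun x => φ x) := φ.contDiff
  have hφ1 : ContDiff ℝ 1 (deriv (fun x => φ x)) := by
    have := ContDiff.iterate_deriv' (𝕜 := ℝ) 1 1 (f := fun x => φ x) (by exact_mod_cast hφ)
    simpa using this
  have hφ2 : Continuous (deriv (deriv (fun x => φ x))) := hφ1.continuous_deriv le_rfl
  have dφ : ∀ x, HasDerivAt (fun x => φ x) (deriv (fun x => φ x) x) x := fun x =>
    (hφ.differentiable (by norm_num) x).hasDerivAt
  have dφ1 : ∀ x, HasDerivAt (deriv (fun x => φ x)) (deriv (deriv (fun x => φ x)) x) x :=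
    fun x => (hφ1.differentiable (by norm_num) x).hasDerivAt
  obtain ⟨M1, hM1⟩ := (isCompact_Icc (a := (-4 : ℝ)) (b := 4)).exists_bound_of_continuousOn
    hφ1.continuous.continuousOn
  obtain ⟨M2, hM2⟩ := (isCompact_Icc (a := (-4 : ℝ)) (b := 4)).exists_bound_of_continuousOn
    hφ2.continuousOn
  have hM10 : 0 ≤ M1 := (norm_nonneg _).trans (hM1 0 ⟨by norm_num, by norm_num⟩)
  have hM20 : 0 ≤ M2 := (norm_nonneg _).trans (hM2 0 ⟨by norm_num, by norm_num⟩)
  have hz : ∀ x : ℝ, 7 / 2 < |x| → (fun x => φ x) =ᶠ[𝓝 x] fun _ => 0 := by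
    intro x hx
    have h1 : ∀ᶠ z in 𝓝 x, 7 / 2 < |z| :=
      (continuous_abs.tendsto x).eventually (lt_mem_nhds hx)
    filter_upwards [h1] with z hz
    refine φ.zero_of_le_dist ?_
    rw [Real.dist_eq, sub_zero]
    exact hz.le
  have hz0 : ∀ x : ℝ, 7 / 2 < |x| → φ x = 0 := fun x hx => (hz x hx).self_of_nhds
  have hz1 : ∀ x : ℝ, 7 / 2 < |x| → deriv (fun x => φ x) x = 0 := fun x hx => by
    rw [(hz x hx).deriv_eq, deriv_const]
  have hS := Real.summable_one_div_int_pow.2 (one_lt_two : 1 < 2)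
  set S : ℝ := ∑' n : ℤ, 1 / (n : ℝ) ^ 2 with hSdef
  have hS0 : 0 ≤ S := tsum_nonneg fun n => by positivity
  set K : ℝ := 1 + 2 * M1 + M2 with hK
  have hK0 : 0 ≤ K := by positivity
  refine ⟨4 * K * S + 1, by positivity, fun B hB r r' r'' h hc => ?_⟩
  set f : ℝ → ℂ := fun x => r x * (φ x : ℂ) with hf
  set f' : ℝ → ℂ := fun x => r' x * (φ x : ℂ) + r x * ((deriv (fun x => φ x) x : ℝ) : ℂ) with hf'
  set f'' : ℝ → ℂ := fun x => (r'' x * (φ x : ℂ) + r' x * ((deriv (fun x => φ x) x : ℝ) : ℂ)) +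
    (r' x * ((deriv (fun x => φ x) x : ℝ) : ℂ) +
      r x * ((deriv (deriv (fun x => φ x)) x : ℝ) : ℂ)) with hf''
  have e0 : ∀ x, |x| ≤ 4 → HasDerivAt f (f' x) x := fun x hx =>
    (h x hx).1.mul (dφ x).ofReal_comp
  have e1 : ∀ x, |x| ≤ 4 → HasDerivAt f' (f'' x) x := fun x hx =>
    ((h x hx).2.1.mul (dφ x).ofReal_comp).add ((h x hx).1.mul (dφ1 x).ofReal_comp)
  have n0 : ∀ x, |φ x| ≤ 1 := fun x => by
    rw [abs_of_nonneg φ.nonneg]
    exact φ.le_one
  have b0 : ∀ x, |x| ≤ 4 → ‖f x‖ ≤ B := by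
    intro x hx
    rw [hf]
    simp only
    rw [norm_mul, Complex.norm_real, Real.norm_eq_abs]
    calc ‖r x‖ * |φ x| ≤ B * 1 := mul_le_mul (h x hx).2.2.1 (n0 x) (abs_nonneg _) hB
      _ = B := mul_one B
  have b2 : ∀ x, |x| ≤ 4 → ‖f'' x‖ ≤ K * B := by
    intro x hx
    obtain ⟨-, -, q0, q1, q2⟩ := h x hx
    have p1 := hM1 x (abs_le.1 hx)
    have p2 := hM2 x (abs_le.1 hx)
    have t1 : ‖r'' x * (φ x : ℂ)‖ ≤ B * 1 := by
      rw [norm_mul, Complex.norm_real, Real.norm_eq_abs]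
      exact mul_le_mul q2 (n0 x) (abs_nonneg _) hB
    have t2 : ‖r' x * ((deriv (fun x => φ x) x : ℝ) : ℂ)‖ ≤ B * M1 := by
      rw [norm_mul, Complex.norm_real]
      exact mul_le_mul q1 p1 (norm_nonneg _) hB
    have t3 : ‖r x * ((deriv (deriv (fun x => φ x)) x : ℝ) : ℂ)‖ ≤ B * M2 := by
      rw [norm_mul, Complex.norm_real]
      exact mul_le_mul q0 p2 (norm_nonneg _) hB
    calc ‖f'' x‖ ≤ (‖r'' x * (φ x : ℂ)‖ + ‖r' x * ((deriv (fun x => φ x) x : ℝ) : ℂ)‖) +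
          (‖r' x * ((deriv (fun x => φ x) x : ℝ) : ℂ)‖ +
            ‖r x * ((deriv (deriv (fun x => φ x)) x : ℝ) : ℂ)‖) :=
          (norm_add_le _ _).trans (add_le_add (norm_add_le _ _) (norm_add_le _ _))
      _ ≤ (B * 1 + B * M1) + (B * M1 + B * M2) := add_le_add (add_le_add t1 t2) (add_le_add t2 t3)
      _ = K * B := by rw [hK]; ring
  have : Fact ((0 : ℝ) < 8) := ⟨by norm_num⟩
  have hab : (-4 : ℝ) < -4 + 8 := by norm_num
  have h48 : (-4 + 8 : ℝ) = 4 := by norm_num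
  have hI : ∀ x ∈ [[(-4 : ℝ), -4 + 8]], |x| ≤ 4 := by
    intro x hx
    rw [uIcc_of_le hab.le, h48] at hx
    exact abs_le.2 hx
  have i1 : IntervalIntegrable f' volume (-4) (-4 + 8) := by
    refine ContinuousOn.intervalIntegrable fun x hx => ?_
    exact (e1 x (hI x hx)).continuousAt.continuousWithinAt
  have i2 : IntervalIntegrable f'' volume (-4) (-4 + 8) := by
    refine ContinuousOn.intervalIntegrable ?_
    rw [uIcc_of_le hab.le, h48]
    have c0 : ContinuousOn r (Icc (-4) 4) := fun x hx =>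
      (h x (abs_le.2 hx)).1.continuousAt.continuousWithinAt
    have c1 : ContinuousOn r' (Icc (-4) 4) := fun x hx =>
      (h x (abs_le.2 hx)).2.1.continuousAt.continuousWithinAt
    have k0 : ContinuousOn (fun x => (φ x : ℂ)) (Icc (-4 : ℝ) 4) :=
      (Complex.continuous_ofReal.comp hφ.continuous).continuousOn
    have k1 : ContinuousOn (fun x => ((deriv (fun x => φ x) x : ℝ) : ℂ)) (Icc (-4 : ℝ) 4) :=
      (Complex.continuous_ofReal.comp hφ1.continuous).continuousOn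
    have k2 : ContinuousOn (fun x => ((deriv (deriv (fun x => φ x)) x : ℝ) : ℂ))
        (Icc (-4 : ℝ) 4) := (Complex.continuous_ofReal.comp hφ2).continuousOn
    exact ((hc.mul k0).add (c1.mul k1)).add ((c1.mul k1).add (c0.mul k2))
  have v4 : (7 : ℝ) / 2 < |(-4 : ℝ)| := by norm_num
  have v4' : (7 : ℝ) / 2 < |(-4 + 8 : ℝ)| := by norm_num
  have f4 : f (-4) = 0 := by simp [hf, hz0 _ v4]
  have f4' : f (-4 + 8) = 0 := by simp only [hf, hz0 _ v4', Complex.ofReal_zero, mul_zero]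
  have g4 : f' (-4) = 0 := by
    simp only [hf', hz0 _ v4, hz1 _ v4, Complex.ofReal_zero, mul_zero, add_zero]
  have g4' : f' (-4 + 8) = 0 := by
    simp only [hf', hz0 _ v4', hz1 _ v4', Complex.ofReal_zero, mul_zero, add_zero]
  have hcoef : ∀ n : ℤ, ‖fourierCoeffOn hab f n‖ ≤
      4 * K * B * (1 / (n : ℝ) ^ 2) + (if n = 0 then B else 0) := by
    intro n
    by_cases hn : n = 0
    · rw [if_pos hn]
      have := coeff_le n hab b0
      have h2 : 0 ≤ 4 * K * B * (1 / (n : ℝ) ^ 2) := by positivity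
      exact this.trans (le_add_of_nonneg_left h2)
    · rw [if_neg hn, add_zero]
      have s1 := coeff_step hn hab (fun x hx => e0 x (hI x hx)) i1 f4 f4'
      have s2 := coeff_step hn hab (fun x hx => e1 x (hI x hx)) i2 g4 g4'
      have s3 := coeff_le n hab b2
      have hn' : (n : ℝ) ≠ 0 := by exact_mod_cast hn
      have hn0 : 0 < |(n : ℝ)| := abs_pos.2 hn'
      have hn2 : 0 < (n : ℝ) ^ 2 := by positivity
      rw [mul_one_div, le_div_iff₀ hn2, ← sq_abs]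
      calc ‖fourierCoeffOn hab f n‖ * |(n : ℝ)| ^ 2
          = (‖fourierCoeffOn hab f n‖ * |(n : ℝ)|) * |(n : ℝ)| := by ring
        _ ≤ (2 * ‖fourierCoeffOn hab f' n‖) * |(n : ℝ)| :=
            mul_le_mul_of_nonneg_right s1 hn0.le
        _ = 2 * (‖fourierCoeffOn hab f' n‖ * |(n : ℝ)|) := by ring
        _ ≤ 2 * (2 * ‖fourierCoeffOn hab f'' n‖) := by linarith
        _ ≤ 4 * K * B := by linarith
  have hsum0 : Summable fun n : ℤ => (if n = 0 then B else 0 : ℝ) :=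
    (hasSum_ite_eq (0 : ℤ) B).summable
  have hbs : Summable fun n : ℤ => 4 * K * B * (1 / (n : ℝ) ^ 2) + (if n = 0 then B else 0) :=
    (hS.mul_left _).add hsum0
  have hsm : Summable fun n : ℤ => ‖fourierCoeffOn hab f n‖ :=
    Summable.of_nonneg_of_le (fun n => norm_nonneg _) hcoef hbs
  refine ⟨fun n => fourierCoeffOn hab f n, hsm, ?_, ?_⟩
  · calc ∑' n, ‖fourierCoeffOn hab f n‖
        ≤ ∑' n : ℤ, (4 * K * B * (1 / (n : ℝ) ^ 2) + (if n = 0 then B else 0)) :=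
          hsm.tsum_le_tsum hcoef hbs
      _ = 4 * K * B * S + B := by
          rw [(hS.mul_left _).tsum_add hsum0, tsum_mul_left, tsum_ite_eq]
      _ = (4 * K * S + 1) * B := by ring
  · intro x hx
    have hcf : ContinuousOn f (Icc (-4) (-4 + 8)) := fun z hz => by
      rw [h48] at hz
      exact (e0 z (abs_le.2 hz)).continuousAt.continuousWithinAt
    have hF : Continuous (AddCircle.liftIco (8 : ℝ) (-4) f) :=
      AddCircle.liftIco_continuous (by rw [f4, f4']) hcf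
    let F : C(AddCircle (8 : ℝ), ℂ) := ⟨AddCircle.liftIco (8 : ℝ) (-4) f, hF⟩
    have hco : ∀ n, fourierCoeff F n = fourierCoeffOn hab f n := fun n =>
      fourierCoeff_liftIco_eq f n
    have hFs : Summable (fourierCoeff F) := by
      refine Summable.of_norm ?_
      exact hsm.congr fun n => by rw [hco]
    have hx3 := abs_le.1 hx
    have hP := has_pointwise_sum_fourier_series_of_summable hFs (x : AddCircle (8 : ℝ))
    have hFx : F (x : AddCircle (8 : ℝ)) = f x :=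
      AddCircle.liftIco_coe_apply (p := (8 : ℝ)) (a := (-4 : ℝ)) (f := f)
        ⟨by linarith [hx3.1], by linarith [hx3.2]⟩
    have hfx : f x = r x := by
      have h1 : φ x = 1 := φ.one_of_mem_closedBall (by
        rw [Metric.mem_closedBall, Real.dist_eq, sub_zero]
        exact hx)
      simp only [hf, h1, Complex.ofReal_one, mul_one]
    rw [hFx, hfx] at hP
    rw [← hP.tsum_eq]
    refine tsum_congr fun n => ?_
    rw [hco, smul_eq_mul, fourier_coe_apply]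
    congr 2
    push_cast
    ring

theorem wiener : ∃ C : ℝ, 0 ≤ C ∧ ∀ L B : ℝ, 0 < L → 0 ≤ B → ∀ r r' r'' : ℝ → ℂ,
    (∀ x, |x| ≤ 4 * L → HasDerivAt r (r' x) x ∧ HasDerivAt r' (r'' x) x ∧ ‖r x‖ ≤ B ∧
      ‖r' x‖ * L ≤ B ∧ ‖r'' x‖ * L ^ 2 ≤ B) →
    ContinuousOn r'' (Icc (-(4 * L)) (4 * L)) →
    ∃ a : ℤ → ℂ, Summable (fun n => ‖a n‖) ∧ ∑' n, ‖a n‖ ≤ C * B ∧
      ∀ x, |x| ≤ 3 * L → r x = ∑' n, a n *
        Complex.exp (((2 * Real.pi * (n * (x / (8 * L))) : ℝ) : ℂ) * Complex.I) := by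
  obtain ⟨C, hC, H⟩ := wiener1
  refine ⟨C, hC, fun L B hL hB r r' r'' h hc => ?_⟩
  have hLx : ∀ x, |x| ≤ 4 → |L * x| ≤ 4 * L := by
    intro x hx
    rw [abs_mul, abs_of_pos hL]
    nlinarith
  have hd : ∀ x, HasDerivAt (fun x : ℝ => L * x) L x := fun x => by
    simpa using (hasDerivAt_id x).const_mul L
  obtain ⟨a, ha1, ha2, ha3⟩ := H B hB (fun x => r (L * x)) (fun x => (L : ℂ) * r' (L * x))
    (fun x => (L : ℂ) * ((L : ℂ) * r'' (L * x))) (fun x hx => by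
      obtain ⟨h0, h1, h2, h3, h4⟩ := h (L * x) (hLx x hx)
      have k0 := h0.scomp x (hd x)
      have k1 := (h1.scomp x (hd x)).const_mul (L : ℂ)
      refine ⟨?_, ?_, h2, ?_, ?_⟩
      · refine k0.congr_deriv ?_
        rw [Complex.real_smul]
      · refine k1.congr_deriv ?_
        rw [Complex.real_smul]
      · rw [norm_mul, Complex.norm_real, Real.norm_of_nonneg hL.le, mul_comm]
        exact h3
      · rw [norm_mul, norm_mul, Complex.norm_real, Real.norm_of_nonneg hL.le]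
        calc L * (L * ‖r'' (L * x)‖) = ‖r'' (L * x)‖ * L ^ 2 := by ring
          _ ≤ B := h4)
    (by
      have hm : MapsTo (fun x : ℝ => L * x) (Icc (-4) 4) (Icc (-(4 * L)) (4 * L)) := fun x hx =>
        abs_le.1 (hLx x (abs_le.2 hx))
      have h1 : ContinuousOn (fun x => r'' (L * x)) (Icc (-4) 4) :=
        hc.comp (continuous_const.mul continuous_id).continuousOn hm
      exact continuousOn_const.mul (continuousOn_const.mul h1))
  refine ⟨a, ha1, ha2, fun x hx => ?_⟩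
  have h1 : |x / L| ≤ 3 := by
    rw [abs_div, abs_of_pos hL, div_le_iff₀ hL]
    exact hx
  have h2 := ha3 (x / L) h1
  simp only [mul_div_cancel₀ _ hL.ne'] at h2
  rw [h2]
  refine tsum_congr fun n => ?_
  rw [div_div, mul_comm L 8]

end Vale.Agent.P141.R2.H106
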