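import Vale.Agent.P141.R2.H106.Gen
import Vale.Agent.P141.R2.H106.NilG
import Vale.Agent.P141.R2.H106.Wiener
import Vale.Agent.P141.R2.H106.Phase
import Vale.Agent.P141.R2.H898.NilC

/-!
# Slowly varying amplitudes times nilsequences
-/

namespace Vale.Agent.P141.R2.H106

open MeasureTheory Set Filter Topology
open scoped ENNReal ContDiff


/-- Around every point `y` with `d y > 0` the function `h` is, on the interval of radius `d y / 2`,
the product of an amplitude `r` which varies slowly at the scale `d y` and a two-step nilsequence;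
`r` and the nilsequence may depend on `y`. -/
def LocNil {m : ℕ} (φ : (Fin m → ℝ) → ℂ) (A : ℝ) (d : ℝ → ℝ) (h : ℝ → ℂ) : Prop :=
  Measurable h ∧ (∀ x, ‖h x‖ ≤ A) ∧ ∀ y, 0 < d y →
    ∃ (θ : Fin m → ℝ) (Q : Fin (m + 1) → Fin (m + 1) → ℝ) (l : Fin (m + 1) → ℝ) (c : ℝ)
      (r r₁ r₂ : ℝ → ℂ), ContinuousOn r₂ (Icc (y - d y / 2) (y + d y / 2)) ∧
      ∀ x, |x - y| ≤ d y / 2 → HasDerivAt r (r₁ x) x ∧ HasDerivAt r₁ (r₂ x) x ∧
        ‖r x‖ ≤ A ∧ ‖r₁ x‖ * d y ≤ A ∧ ‖r₂ x‖ * d y ^ 2 ≤ A ∧ h x = r x * H860.nil φ θ Q l c x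

theorem Rep.congr {κ L : ℝ} {h h' : ℝ → ℂ} (H : Rep κ L h) (e : ∀ x, |x| ≤ 3 * L → h' x = h x) :
    Rep κ L h' := by
  obtain ⟨Ω, mΩ, μ, H₀, H₁, H₂, hμ, m₀, m₁, m₂, b₀, b₁, b₂, e'⟩ := H
  refine ⟨Ω, mΩ, μ, H₀, H₁, H₂, hμ, m₀, m₁, m₂, b₀, b₁, b₂, fun a b c ha hb hc => ?_⟩
  rw [e, e' a b c ha hb hc]
  calc |a + b + c| ≤ |a| + |b| + |c| := abs_add_three a b c
    _ ≤ 3 * L := by linarith

theorem Rep.monoK {κ κ' L : ℝ} {h : ℝ → ℂ} (H : Rep κ L h) (hk : κ ≤ κ') : Rep κ' L h := by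
  obtain ⟨Ω, mΩ, μ, H₀, H₁, H₂, hμ, m₀, m₁, m₂, b₀, b₁, b₂, e⟩ := H
  exact ⟨Ω, mΩ, μ, H₀, H₁, H₂, hμ.trans (ENNReal.ofReal_le_ofReal hk), m₀, m₁, m₂, b₀, b₁, b₂, e⟩

theorem locNil_ls {m : ℕ} {φ : (Fin m → ℝ) → ℂ} (h1 : ContDiff ℝ ∞ φ) (h2 : HasCompactSupport φ) :
    ∃ C : ℝ, 0 < C ∧ ∀ A : ℝ, 0 ≤ A → ∀ d : ℝ → ℝ, ∀ h : ℝ → ℂ, LocNil φ A d h →
      LSd (C * A) (1 / 8) d h := by
  obtain ⟨κ, hκ, hN⟩ := nilG φ h1 h2
  obtain ⟨C, hC, W⟩ := wiener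
  refine ⟨C * κ + 1, by positivity, fun A hA d h hh => ?_⟩
  obtain ⟨mh, hb, hloc⟩ := hh
  refine ⟨mh, fun x => (hb x).trans ?_, fun y hy => ?_⟩
  · have : 0 ≤ C * κ * A := by positivity
    linarith
  obtain ⟨θ, Q, l, c, r, r₁, r₂, hc, H⟩ := hloc y hy
  set L : ℝ := d y / 8 with hL
  have hL0 : 0 < L := by positivity
  have hdL : d y = 8 * L := by rw [hL]; ring
  have hx : ∀ x, |x| ≤ 4 * L → |x + y - y| ≤ d y / 2 := by
    intro x hx
    rw [add_sub_cancel_right, hdL]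
    linarith
  obtain ⟨a, hs, hsum, hr⟩ := W L A hL0 hA (fun x => r (x + y)) (fun x => r₁ (x + y))
    (fun x => r₂ (x + y)) (fun x hx' => by
      obtain ⟨k1, k2, k3, k4, k5, -⟩ := H (x + y) (hx x hx')
      refine ⟨k1.comp_add_const x y, k2.comp_add_const x y, k3, ?_, ?_⟩
      · refine le_trans ?_ k4
        have : L ≤ d y := by rw [hdL]; linarith
        gcongr
      · refine le_trans ?_ k5
        have : L ≤ d y := by rw [hdL]; linarith
        gcongr) (by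
      refine hc.comp (by fun_prop) fun x hx' => ?_
      have h3 : d y / 2 = 4 * L := by rw [hdL]; ring
      rw [h3]
      exact ⟨by linarith [hx'.1], by linarith [hx'.2]⟩)
  have R1 : Rep (C * A) L (fun x => r (x + y)) := rep_trig (T := 8 * L) hs hsum hr
  have R2 : Rep κ L (fun x => H860.nil φ θ Q l c (x + y)) := ((hN θ Q l c).str hκ.le L).2.2 y
  have R3 := (R1.mul (by positivity) R2).congr (h' := fun x => h (x + y)) (fun x hx' => by
    have := (H (x + y) (hx x (hx'.trans (by linarith)))).2.2.2.2.2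
    exact this)
  have e : 1 / 8 * d y = L := by rw [hL]; ring
  rw [e]
  refine R3.monoK ?_
  have : C * A * κ = C * κ * A := by ring
  rw [this]
  linarith

theorem locNil_diff {m : ℕ} {φ : (Fin m → ℝ) → ℂ} (h1 : ContDiff ℝ ∞ φ)
    (h2 : HasCompactSupport φ) {A : ℝ} {d : ℝ → ℝ} {h : ℝ → ℂ} (hh : LocNil φ A d h) {y : ℝ}
    (hy : 0 < d y) : DifferentiableAt ℝ h y := by
  obtain ⟨θ, Q, l, c, r, r₁, r₂, hc, H⟩ := hh.2.2 y hy
  have k1 := (H y (by simp; positivity)).1.differentiableAt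
  have k2 : DifferentiableAt ℝ (H860.nil φ θ Q l c) y :=
    (H898.contDiff_nil h1 h2 θ Q l c).contDiffAt.differentiableAt (by simp)
  refine (k1.mul k2).congr_of_eventuallyEq ?_
  have : ∀ᶠ x in 𝓝 y, |x - y| < d y / 2 := by
    have hn := Metric.ball_mem_nhds y (show 0 < d y / 2 by positivity)
    filter_upwards [hn] with x hx
    rwa [Metric.mem_ball, Real.dist_eq] at hx
  filter_upwards [this] with x hx
  exact (H x hx.le).2.2.2.2.2

/-- **finitely many points** -/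
theorem locNil_fin {m : ℕ} (φ : (Fin m → ℝ) → ℂ) (h1 : ContDiff ℝ ∞ φ)
    (h2 : HasCompactSupport φ) : ∃ C : ℝ, 0 < C ∧ ∀ A : ℝ, 0 ≤ A → ∀ E : Finset ℝ, E.Nonempty →
      ∀ h : ℝ → ℂ, LocNil φ A (fun x => Metric.infDist x (E : Set ℝ)) h →
        Bdd4 (C * A * (1 + Real.log E.card)) h := by
  obtain ⟨C, hC, H⟩ := locNil_ls h1 h2
  obtain ⟨C', hC', H'⟩ := bdd4_fin (c := 1 / 8) (by norm_num)
  refine ⟨C' * C, by positivity, fun A hA E hE h hh => ?_⟩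
  have k := H' (C * A) (by positivity) E hE h (H A hA _ h hh) (by
    filter_upwards [ae_notMem E] with x hx
    exact locNil_diff h1 h2 hh (dE_pos hE hx))
  have e : C' * (C * A) = C' * C * A := by ring
  rwa [e] at k

/-- **sets with Aikawa's condition: no loss** -/
theorem locNil_aik {m : ℕ} (φ : (Fin m → ℝ) → ℂ) (h1 : ContDiff ℝ ∞ φ)
    (h2 : HasCompactSupport φ) (a K : ℝ) : ∃ C : ℝ, 0 < C ∧ ∀ A : ℝ, 0 ≤ A → ∀ d : ℝ → ℝ,
      P4.Aik d a K → ∀ h : ℝ → ℂ, LocNil φ A d h → Bdd4 (C * A) h := by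
  obtain ⟨C, hC, H⟩ := locNil_ls h1 h2
  obtain ⟨C', hC', H'⟩ := bdd4_aik (c := 1 / 8) (by norm_num) a K
  refine ⟨C' * C, by positivity, fun A hA d hd h hh => ?_⟩
  have k := H' (C * A) (by positivity) d hd h (H A hA _ h hh) (by
    filter_upwards [hd.ae_pos] with x hx
    exact locNil_diff h1 h2 hh hx)
  have e : C' * (C * A) = C' * C * A := by ring
  rwa [e] at k

end Vale.Agent.P141.R2.H106
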